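import Vale.Agent.Lib.P197T.SharpAF
import Vale.Agent.Lib.P197S.FiveS

/-!
# P197T: the permutations with an even cycle and small support (blueprint Sec A12)
-/

open Equiv Finset

namespace Vale.Agent.Lib.P197T

open Vale.Agent.Lib.P197 Vale.Agent.Lib.P197S Vale.Agent.Lib.P197W Vale.Agent.Lib.P197X

variable {n : ℕ}

open scoped Classical in
/-- Compare `exp_sum_five`: pull out one cycle whose length satisfies `P`. -/
theorem exp_sum_pred (P : ℕ → Prop) (w : ℕ → ℝ) (hw : ∀ j, 0 ≤ w j) :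
    ∑ π ∈ (univ.filter fun π : Perm (Fin n) => ∃ j ∈ π.cycleType, P j),
        (π.cycleType.map w).prod ≤
      (∑ j ∈ (Icc 2 n).filter P, ((n : ℝ) ^ j / j) * w j) *
        Real.exp (∑ j ∈ Icc 2 n, ((n : ℝ) ^ j / j) * w j) := by
  have h0 : ∀ F : Finset (Perm (Fin n)), 0 ≤ ∏ c ∈ F, w c.support.card :=
    fun F => Finset.prod_nonneg fun c _ => hw _
  set Big : Finset (Perm (Fin n)) := (allCycles n).filter fun c => P c.support.card with hBig
  set 𝓕 : Finset (Finset (Perm (Fin n))) :=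
    (allCycles n).powerset.filter fun F => ∃ c ∈ F, P c.support.card with h𝓕
  have hstep : ∀ c ∈ Big, ∑ F ∈ (allCycles n).powerset.filter (fun F => c ∈ F),
      ∏ d ∈ F, w d.support.card ≤
        w c.support.card * Real.exp (∑ j ∈ Icc 2 n, ((n : ℝ) ^ j / j) * w j) := by
    intro c hc
    have hcA : c ∈ allCycles n := (mem_filter.mp hc).1
    have hbij : ∑ F ∈ (allCycles n).powerset.filter (fun F => c ∈ F), ∏ d ∈ F, w d.support.card =
        ∑ F ∈ ((allCycles n).erase c).powerset, ∏ d ∈ insert c F, w d.support.card := by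
      refine Finset.sum_bij' (fun F _ => F.erase c) (fun F _ => insert c F) ?_ ?_ ?_ ?_ ?_
      · intro F hF
        simp only [mem_filter, mem_powerset] at hF
        exact mem_powerset.mpr (Finset.erase_subset_erase _ hF.1)
      · intro F hF
        have hF' := mem_powerset.mp hF
        simp only [mem_filter, mem_powerset]
        refine ⟨Finset.insert_subset hcA (hF'.trans (Finset.erase_subset _ _)),
          Finset.mem_insert_self _ _⟩
      · intro F hF
        simp only [mem_filter, mem_powerset] at hF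
        exact Finset.insert_erase hF.2
      · intro F hF
        have hF' := mem_powerset.mp hF
        have : c ∉ F := fun h => (Finset.mem_erase.mp (hF' h)).1 rfl
        exact Finset.erase_insert this
      · intro F hF
        simp only [mem_filter, mem_powerset] at hF
        rw [Finset.insert_erase hF.2]
    rw [hbij]
    have hins : ∀ F ∈ ((allCycles n).erase c).powerset, ∏ d ∈ insert c F, w d.support.card =
        w c.support.card * ∏ d ∈ F, w d.support.card := by
      intro F hF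
      have hF' := mem_powerset.mp hF
      have : c ∉ F := fun h => (Finset.mem_erase.mp (hF' h)).1 rfl
      exact Finset.prod_insert this
    rw [Finset.sum_congr rfl hins, ← Finset.mul_sum, ← Finset.prod_one_add]
    refine mul_le_mul_of_nonneg_left ?_ (hw _)
    refine (prod_one_add_le_exp _ _ (fun c => hw _)).trans (Real.exp_le_exp.mpr ?_)
    refine sum_allCycles_le w hw 2 le_rfl _ (fun d hd => ?_)
    have hd' : d ∈ allCycles n := Finset.mem_of_mem_erase hd
    refine ⟨hd', ?_⟩
    have hc' : d.IsCycle := by simpa [allCycles] using hd'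
    exact hc'.two_le_card_support
  have hBigSum : ∑ c ∈ Big, w c.support.card ≤
      ∑ j ∈ (Icc 2 n).filter P, ((n : ℝ) ^ j / j) * w j := by
    have hmaps : ∀ c ∈ Big, c.support.card ∈ (Icc 2 n).filter P := by
      intro c hc
      obtain ⟨hcA, hcP⟩ := mem_filter.mp hc
      have hcy : c.IsCycle := by simpa [allCycles] using hcA
      refine mem_filter.mpr ⟨mem_Icc.mpr ⟨hcy.two_le_card_support, ?_⟩, hcP⟩
      simpa using Finset.card_le_univ c.support
    rw [← Finset.sum_fiberwise_of_maps_to hmaps]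
    refine Finset.sum_le_sum fun j hj => ?_
    have h1 : ∑ c ∈ Big.filter (fun c => c.support.card = j), w c.support.card =
        ((Big.filter fun c => c.support.card = j).card : ℝ) * w j := by
      rw [Finset.sum_congr rfl (g := fun _ => w j)
        (fun c hc => by rw [(mem_filter.mp hc).2]), Finset.sum_const, nsmul_eq_mul]
    rw [h1]
    refine mul_le_mul_of_nonneg_right ?_ (hw j)
    have hj' : j ∈ Icc 2 n := (mem_filter.mp hj).1
    refine le_trans ?_ (card_cycles_le j hj')
    exact_mod_cast Finset.card_le_card (fun c hc => by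
      simp only [mem_filter] at hc ⊢
      exact ⟨(mem_filter.mp hc.1).1, hc.2⟩)
  calc ∑ π ∈ (univ.filter fun π : Perm (Fin n) => ∃ j ∈ π.cycleType, P j),
        (π.cycleType.map w).prod
      = ∑ π ∈ (univ.filter fun π : Perm (Fin n) => ∃ j ∈ π.cycleType, P j),
          ∏ c ∈ π.cycleFactorsFinset, w c.support.card :=
        Finset.sum_congr rfl fun π _ => prod_cycleType_map w π
    _ ≤ ∑ F ∈ 𝓕, ∏ c ∈ F, w c.support.card := by
        refine sum_perm_le_powerset (fun F => ∏ c ∈ F, w c.support.card) h0 𝓕 _ ?_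
        intro π hπ
        obtain ⟨j, hj, h5⟩ := (mem_filter.mp hπ).2
        simp only [h𝓕, mem_filter, mem_powerset]
        refine ⟨cycleFactors_subset π, ?_⟩
        simp only [Perm.cycleType, Multiset.mem_map, Function.comp] at hj
        obtain ⟨c, hc, rfl⟩ := hj
        exact ⟨c, hc, h5⟩
    _ ≤ ∑ c ∈ Big, ∑ F ∈ (allCycles n).powerset.filter (fun F => c ∈ F),
          ∏ d ∈ F, w d.support.card := by
        have hsw : ∑ c ∈ Big, ∑ F ∈ (allCycles n).powerset.filter (fun F => c ∈ F),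
            ∏ d ∈ F, w d.support.card =
            ∑ F ∈ (allCycles n).powerset, ∑ c ∈ Big.filter (fun c => c ∈ F),
              ∏ d ∈ F, w d.support.card := by
          simp only [Finset.sum_filter]
          rw [Finset.sum_comm]
        rw [hsw]
        calc ∑ F ∈ 𝓕, ∏ c ∈ F, w c.support.card
            ≤ ∑ F ∈ 𝓕, ∑ c ∈ Big.filter (fun c => c ∈ F), ∏ d ∈ F, w d.support.card := by
              refine Finset.sum_le_sum fun F hF => ?_
              obtain ⟨hFp, c, hcF, hc5⟩ := mem_filter.mp hF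
              have hcB : c ∈ Big.filter (fun c => c ∈ F) := by
                simp only [hBig, mem_filter]
                exact ⟨⟨mem_powerset.mp hFp hcF, hc5⟩, hcF⟩
              exact Finset.single_le_sum (f := fun _ => ∏ d ∈ F, w d.support.card)
                (fun _ _ => h0 F) hcB
          _ ≤ _ := Finset.sum_le_sum_of_subset_of_nonneg (Finset.filter_subset _ _)
              (fun F _ _ => Finset.sum_nonneg fun _ _ => h0 F)
    _ ≤ ∑ c ∈ Big, w c.support.card * Real.exp (∑ j ∈ Icc 2 n, ((n : ℝ) ^ j / j) * w j) :=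
        Finset.sum_le_sum hstep
    _ = (∑ c ∈ Big, w c.support.card) * Real.exp (∑ j ∈ Icc 2 n, ((n : ℝ) ^ j / j) * w j) := by
        rw [Finset.sum_mul]
    _ ≤ _ := mul_le_mul_of_nonneg_right hBigSum (Real.exp_pos _).le

/-- The even part of the exponent. -/
noncomputable def Se (n : ℕ) (uν : ℝ) : ℝ :=
  ∑ j ∈ (Icc 2 n).filter Even, ((n : ℝ) ^ j / j) * (costT n j ^ 2 * uν ^ (j - 1))

private lemma geom_Se {a : ℝ} (h0 : 0 ≤ a) (h1 : a ≤ 1 / 2) (N : ℕ) (hN : 1 ≤ N) :
    ∑ j ∈ Icc 2 N, a ^ (j - 1) ≤ 2 * a - 2 * a ^ N := by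
  induction N, hN using Nat.le_induction with
  | base => simp
  | succ N hN ih =>
    rw [Finset.sum_Icc_succ_top (by omega)]
    have e : N + 1 - 1 = N := by omega
    rw [e]
    have hp : 0 ≤ a ^ N := by positivity
    have : 2 * a ^ (N + 1) ≤ a ^ N := by
      rw [pow_succ]
      nlinarith
    linarith

/-- Numerics of `Se`: `(n^j / j) cost_j² = (4 / j) 169^j`. -/
theorem Se_le (n : ℕ) (hn : 1 ≤ n) (uν : ℝ) (h0 : 0 ≤ uν) (h1 : 169 * uν ≤ 1 / 2) :
    Se n uν ≤ 200000 * uν := by
  classical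
  set a : ℝ := 169 * uν with ha
  have ha0 : 0 ≤ a := by positivity
  have hnR : (0 : ℝ) < n := by exact_mod_cast (by omega : 0 < n)
  have hs : Real.sqrt n ^ 2 = n := Real.sq_sqrt hnR.le
  have hs0 : 0 < Real.sqrt n := Real.sqrt_pos.2 hnR
  have hterm : ∀ j ∈ (Icc 2 n).filter Even,
      ((n : ℝ) ^ j / j) * (costT n j ^ 2 * uν ^ (j - 1)) ≤ 338 * a ^ (j - 1) := by
    intro j hj
    obtain ⟨hjI, hje⟩ := mem_filter.mp hj
    have hj2 : 2 ≤ j := (mem_Icc.mp hjI).1
    have hjR : (2 : ℝ) ≤ j := by exact_mod_cast hj2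
    have hjpos : (0 : ℝ) < j := by linarith
    have hcost : costT n j ^ 2 = 4 * (169 / (n : ℝ)) ^ j := by
      unfold costT
      rw [if_neg (Nat.not_odd_iff_even.2 hje), mul_pow, ← pow_mul, mul_comm j 2, pow_mul]
      have : (13 / Real.sqrt n) ^ 2 = 169 / (n : ℝ) := by
        rw [div_pow, hs]
        norm_num
      rw [this]
      norm_num
    rw [hcost]
    have e1 : (n : ℝ) ^ j * (169 / (n : ℝ)) ^ j = 169 ^ j := by
      rw [← mul_pow]
      congr 1
      field_simp
    have e2 : (169 : ℝ) ^ j = 169 * 169 ^ (j - 1) := by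
      rw [← pow_succ']
      congr 1
      omega
    have e3 : a ^ (j - 1) = 169 ^ (j - 1) * uν ^ (j - 1) := by
      rw [ha, mul_pow]
    have e4 : ((n : ℝ) ^ j / j) * (4 * (169 / (n : ℝ)) ^ j * uν ^ (j - 1)) =
        (4 / (j : ℝ)) * (169 * a ^ (j - 1)) := by
      rw [e3]
      have : ((n : ℝ) ^ j / j) * (4 * (169 / (n : ℝ)) ^ j * uν ^ (j - 1)) =
          (4 / (j : ℝ)) * (((n : ℝ) ^ j * (169 / (n : ℝ)) ^ j) * uν ^ (j - 1)) := by
        field_simp
      rw [this, e1, e2]
      ring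
    rw [e4]
    have hP : 0 ≤ a ^ (j - 1) := by positivity
    have h4j : 4 / (j : ℝ) ≤ 2 := by
      rw [div_le_iff₀ hjpos]
      linarith
    calc (4 / (j : ℝ)) * (169 * a ^ (j - 1)) ≤ 2 * (169 * a ^ (j - 1)) :=
          mul_le_mul_of_nonneg_right h4j (by positivity)
      _ = 338 * a ^ (j - 1) := by ring
  have h2 : Se n uν ≤ ∑ j ∈ (Icc 2 n).filter Even, 338 * a ^ (j - 1) := by
    unfold Se
    exact Finset.sum_le_sum hterm
  have h3 : ∑ j ∈ (Icc 2 n).filter Even, 338 * a ^ (j - 1) ≤ ∑ j ∈ Icc 2 n, 338 * a ^ (j - 1) :=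
    Finset.sum_le_sum_of_subset_of_nonneg (Finset.filter_subset _ _)
      (fun _ _ _ => by positivity)
  have h4 := geom_Se ha0 h1 n hn
  have h5 : ∑ j ∈ Icc 2 n, 338 * a ^ (j - 1) = 338 * ∑ j ∈ Icc 2 n, a ^ (j - 1) := by
    rw [Finset.mul_sum]
  have h6 : 0 ≤ a ^ n := by positivity
  have h7 : a = 169 * uν := ha
  nlinarith

/-- Even weights of Sec A12. -/
private noncomputable def wEvenT (n : ℕ) (uν : ℝ) (j : ℕ) : ℝ :=
  if Even j then costT n j ^ 2 * uν ^ (j - 1) else 0

/-- Odd weights of Sec A12. -/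
private noncomputable def wOddT (v W3 : ℝ) (j : ℕ) : ℝ :=
  if Even j then 0 else if j = 3 then W3 else if 5 ≤ j then v ^ (j - 1) else 0

private lemma wEvenT_nonneg (n : ℕ) {uν : ℝ} (h : 0 ≤ uν) (j : ℕ) : 0 ≤ wEvenT n uν j := by
  unfold wEvenT
  split_ifs <;> positivity

private lemma wOddT_nonneg {v W3 : ℝ} (hv : 0 ≤ v) (hW : 0 ≤ W3) (j : ℕ) : 0 ≤ wOddT v W3 j := by
  unfold wOddT
  split_ifs <;> first | exact hW | positivity

private lemma prod_evenT (n : ℕ) (uν v W3 : ℝ) (E : Multiset ℕ)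
    (hE : ∀ j ∈ E, Even j ∧ 1 ≤ j) :
    Multiset.card E ≤ E.sum ∧ (E.map fun j => wEvenT n uν j + wOddT v W3 j).prod =
      (E.map (costT n)).prod ^ 2 * uν ^ (E.sum - Multiset.card E) := by
  induction E using Multiset.induction_on with
  | empty => simp
  | cons a t ih =>
    have ha := hE a (Multiset.mem_cons_self a t)
    obtain ⟨h1, h2⟩ := ih (fun j hj => hE j (Multiset.mem_cons_of_mem hj))
    refine ⟨by simp only [Multiset.card_cons, Multiset.sum_cons]; omega, ?_⟩
    simp only [Multiset.map_cons, Multiset.prod_cons, Multiset.sum_cons, Multiset.card_cons, h2]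
    have e : a + t.sum - (Multiset.card t + 1) = (a - 1) + (t.sum - Multiset.card t) := by omega
    rw [e, pow_add]
    simp only [wEvenT, wOddT, if_pos ha.1, add_zero]
    ring

private lemma prod_oddT (n : ℕ) (uν v T : ℝ) (s : Multiset ℕ) (hs : ∀ j ∈ s, Odd j ∧ 3 ≤ j) :
    Multiset.card s ≤ s.sum ∧
      (s.map fun j => wEvenT n uν j + wOddT v (v ^ 2 * T) j).prod =
        v ^ (s.sum - Multiset.card s) * T ^ s.count 3 := by
  induction s using Multiset.induction_on with
  | empty => simp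
  | cons a t ih =>
    have ha := hs a (Multiset.mem_cons_self a t)
    obtain ⟨h1, h2⟩ := ih (fun j hj => hs j (Multiset.mem_cons_of_mem hj))
    refine ⟨by simp only [Multiset.card_cons, Multiset.sum_cons]; omega, ?_⟩
    simp only [Multiset.map_cons, Multiset.prod_cons, Multiset.sum_cons, Multiset.card_cons, h2]
    have hne : ¬ Even a := Nat.not_even_iff_odd.2 ha.1
    by_cases h3 : a = 3
    · subst h3
      have e : 3 + t.sum - (Multiset.card t + 1) = 2 + (t.sum - Multiset.card t) := by omega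
      rw [e, Multiset.count_cons_self, pow_add, pow_succ]
      simp only [wEvenT, wOddT, if_neg hne, if_true, zero_add]
      ring
    · have h5 : 5 ≤ a := by
        obtain ⟨hodd, h3'⟩ := ha
        obtain ⟨i, rfl⟩ := hodd
        omega
      have e : a + t.sum - (Multiset.card t + 1) = (a - 1) + (t.sum - Multiset.card t) := by omega
      rw [e, Multiset.count_cons_of_ne (Ne.symm h3), pow_add]
      simp only [wEvenT, wOddT, if_neg hne, if_neg h3, if_pos h5, zero_add]
      ring

private lemma geom_auxT {a : ℝ} (h0 : 0 ≤ a) (h1 : a ≤ 1 / 2) (N : ℕ) (hN : 4 ≤ N) :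
    ∑ j ∈ Icc 5 N, a ^ (j - 1) ≤ 2 * a ^ 4 - 2 * a ^ N := by
  induction N, hN using Nat.le_induction with
  | base => simp
  | succ N hN ih =>
    rw [Finset.sum_Icc_succ_top (by omega)]
    have e : N + 1 - 1 = N := by omega
    rw [e]
    have hp : 0 ≤ a ^ N := by positivity
    have : 2 * a ^ (N + 1) ≤ a ^ N := by
      rw [pow_succ]
      nlinarith
    linarith

open scoped Classical in
/-- **The even sum.** For `π` with an even cycle split `π.cycleType = E + O` and apply the sharp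
bounds of `ρ` and `ν`; weights `W3` at `3`, `v^(j-1)` at odd `j ≥ 5`, `cost_j² uν^(j-1)` at even `j`,
a factor `2` from `Γ^(3 K₁) ≤ 2`, and `exp_sum_pred`. -/
theorem even_sumT (K₁ : ℕ) (hn : 5 ≤ n) (rho nu : Perm (Fin n) → ℝ)
    (uB θB uν θν Γ : ℝ) (hu : 0 < uB) (hθ : 0 < θB) (huν : 0 < uν) (hθν : 0 < θν) (hΓ : 1 ≤ Γ)
    (hΓ2 : Γ ^ (3 * K₁) ≤ 2) (hv : (n : ℝ) * (uB ^ 2 * uν) ≤ 1 / 2)
    (hρ : ∀ (π : Perm (Fin n)) (E O : Multiset ℕ), sp π ≤ K₁ → π.cycleType = E + O →
      (∀ j ∈ E, Even j) → (∀ j ∈ O, Odd j) →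
      |rho π| ≤ (E.map (costT n)).prod * BdM uB θB Γ O)
    (hν : ∀ π : Perm (Fin n), sp π ≤ K₁ → |nu π| ≤ Bd uν θν Γ π) :
    ∑ π ∈ (univ.filter fun π : Perm (Fin n) => sp π ≤ K₁ ∧ ∃ j ∈ π.cycleType, Even j),
        rho π ^ 2 * |nu π| ≤
      2 * Se n uν * Real.exp ((n : ℝ) ^ 3 / 3 * ((uB ^ 2 * θB) ^ 2 * (uν ^ 2 * θν)) +
        2 * n * ((n : ℝ) * (uB ^ 2 * uν)) ^ 4 + Se n uν) := by
  set v : ℝ := uB ^ 2 * uν with hvdef
  set T : ℝ := θB ^ 2 * θν with hTdef
  set W3 : ℝ := (uB ^ 2 * θB) ^ 2 * (uν ^ 2 * θν) with hW3def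
  have hW3 : W3 = v ^ 2 * T := by
    rw [hW3def, hvdef, hTdef]
    ring
  have hv0 : 0 < v := by positivity
  have hT0 : 0 < T := by positivity
  have hW0 : 0 ≤ W3 := by positivity
  have hnR : (5 : ℝ) ≤ n := by exact_mod_cast hn
  have hn0 : (0 : ℝ) < n := by linarith
  set a : ℝ := (n : ℝ) * v with hadef
  have ha0 : 0 ≤ a := by positivity
  set w : ℕ → ℝ := fun j => wEvenT n uν j + wOddT v W3 j with hw
  have hw0 : ∀ j, 0 ≤ w j := fun j =>
    add_nonneg (wEvenT_nonneg n huν.le j) (wOddT_nonneg hv0.le hW0 j)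
  have hprod0 : ∀ π : Perm (Fin n), 0 ≤ (π.cycleType.map w).prod := by
    intro π
    refine Multiset.prod_nonneg (fun x hx => ?_)
    obtain ⟨j, _, rfl⟩ := Multiset.mem_map.1 hx
    exact hw0 j
  -- a single permutation
  have hone : ∀ π : Perm (Fin n), sp π ≤ K₁ →
      rho π ^ 2 * |nu π| ≤ 2 * (π.cycleType.map w).prod := by
    intro π hsp
    classical
    set E : Multiset ℕ := π.cycleType.filter Even with hE
    set O : Multiset ℕ := π.cycleType.filter (fun j => ¬ Even j) with hO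
    have hsplit : π.cycleType = E + O := (Multiset.filter_add_not Even π.cycleType).symm
    have hEev : ∀ j ∈ E, Even j := fun j hj => (Multiset.mem_filter.1 hj).2
    have hOod : ∀ j ∈ O, Odd j := fun j hj => Nat.not_even_iff_odd.1 (Multiset.mem_filter.1 hj).2
    have hE1 : ∀ j ∈ E, Even j ∧ 1 ≤ j := by
      intro j hj
      refine ⟨hEev j hj, ?_⟩
      have := Equiv.Perm.two_le_of_mem_cycleType (Multiset.mem_filter.1 hj).1
      omega
    have hO3 : ∀ j ∈ O, Odd j ∧ 3 ≤ j := by
      intro j hj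
      refine ⟨hOod j hj, ?_⟩
      have h2 := Equiv.Perm.two_le_of_mem_cycleType (Multiset.mem_filter.1 hj).1
      obtain ⟨i, hi⟩ := hOod j hj
      omega
    obtain ⟨hcE, hpE⟩ := prod_evenT n uν v W3 E hE1
    obtain ⟨hcO, hpO⟩ := prod_oddT n uν v T O hO3
    rw [← hW3] at hpO
    have hcount : E.count 3 = 0 := by
      rw [Multiset.count_eq_zero]
      intro h3
      exact absurd (hEev 3 h3) (by decide)
    have hB := hρ π E O hsp hsplit hEev hOod
    have hΓ0 : 0 < Γ := by linarith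
    set A : ℝ := (E.map (costT n)).prod with hA
    have hA0 : 0 ≤ A := by
      refine Multiset.prod_nonneg (fun x hx => ?_)
      obtain ⟨j, _, rfl⟩ := Multiset.mem_map.1 hx
      exact costT_nonneg n j
    have hBdM0 : 0 ≤ BdM uB θB Γ O := by
      unfold BdM
      positivity
    have hBd0 : 0 ≤ Bd uν θν Γ π := by
      unfold Bd
      positivity
    have h1 : rho π ^ 2 ≤ (A * BdM uB θB Γ O) ^ 2 := by
      rw [← sq_abs]
      exact pow_le_pow_left₀ (abs_nonneg _) hB 2
    have hspE : sp π = E.sum + O.sum := by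
      unfold sp
      rw [hsplit, Multiset.sum_add]
    have hrkE : rk π = (E.sum - Multiset.card E) + (O.sum - Multiset.card O) := by
      unfold rk
      rw [hsplit, Multiset.sum_add, Multiset.card_add]
      omega
    have hc3E : c3 π = O.count 3 := by
      unfold c3
      rw [hsplit, Multiset.count_add, hcount, zero_add]
    have hΓpow : Γ ^ (2 * O.sum + (E.sum + O.sum)) ≤ 2 := by
      refine (pow_le_pow_right₀ hΓ ?_).trans hΓ2
      omega
    have hprodw : (π.cycleType.map w).prod =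
        (A ^ 2 * uν ^ (E.sum - Multiset.card E)) *
          (v ^ (O.sum - Multiset.card O) * T ^ O.count 3) := by
      rw [hsplit, Multiset.map_add, Multiset.prod_add, hpE, hpO]
    have hkey : (A * BdM uB θB Γ O) ^ 2 * Bd uν θν Γ π =
        Γ ^ (2 * O.sum + (E.sum + O.sum)) * (π.cycleType.map w).prod := by
      rw [hprodw]
      unfold BdM Bd
      rw [hspE, hrkE, hc3E, hvdef, hTdef]
      ring
    calc rho π ^ 2 * |nu π| ≤ (A * BdM uB θB Γ O) ^ 2 * Bd uν θν Γ π :=
          mul_le_mul h1 (hν π hsp) (abs_nonneg _) (by positivity)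
      _ = Γ ^ (2 * O.sum + (E.sum + O.sum)) * (π.cycleType.map w).prod := hkey
      _ ≤ 2 * (π.cycleType.map w).prod := mul_le_mul_of_nonneg_right hΓpow (hprod0 π)
  -- the even sum
  have hSe0 : 0 ≤ Se n uν := by
    unfold Se
    refine Finset.sum_nonneg (fun j _ => ?_)
    positivity
  have hSeEq : ∀ inst : DecidablePred (Even : ℕ → Prop),
      ∑ j ∈ @Finset.filter ℕ Even inst (Icc 2 n), ((n : ℝ) ^ j / j) * w j = Se n uν := by
    intro inst
    unfold Se
    refine Finset.sum_congr (by ext j; simp only [mem_filter]) (fun j hj => ?_)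
    have hj' : Even j := by
      simp only [Finset.mem_filter] at hj
      exact hj.2
    simp only [hw, wEvenT, wOddT, if_pos hj', add_zero]
  -- the odd part of the exponent
  have hterm5 : ∀ j ∈ Icc 5 n, ((n : ℝ) ^ j / j) * wOddT v W3 j ≤ n * a ^ (j - 1) := by
    intro j hj
    rw [mem_Icc] at hj
    obtain ⟨i, rfl⟩ : ∃ i, j = i + 1 := ⟨j - 1, by omega⟩
    simp only [Nat.add_sub_cancel]
    have hne : i + 1 ≠ 3 := by omega
    by_cases ho : Even (i + 1)
    · have hwj : wOddT v W3 (i + 1) = 0 := by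
        simp only [wOddT, if_pos ho]
      rw [hwj, mul_zero]
      positivity
    · have hwj : wOddT v W3 (i + 1) = v ^ i := by
        simp only [wOddT, if_neg ho, if_neg hne, if_pos hj.1, Nat.add_sub_cancel]
      rw [hwj]
      have hj1 : (1 : ℝ) ≤ ((i + 1 : ℕ) : ℝ) := by
        exact_mod_cast (by omega : 1 ≤ i + 1)
      have e : (n : ℝ) ^ (i + 1) / ((i + 1 : ℕ) : ℝ) * v ^ i =
          ((n : ℝ) * a ^ i) / ((i + 1 : ℕ) : ℝ) := by
        rw [hadef, mul_pow, pow_succ]
        ring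
      rw [e]
      exact div_le_self (by positivity) hj1
  have hs : ∑ j ∈ Icc 5 n, ((n : ℝ) ^ j / j) * wOddT v W3 j ≤ 2 * n * a ^ 4 := by
    calc ∑ j ∈ Icc 5 n, ((n : ℝ) ^ j / j) * wOddT v W3 j ≤ ∑ j ∈ Icc 5 n, n * a ^ (j - 1) :=
          Finset.sum_le_sum hterm5
      _ = n * ∑ j ∈ Icc 5 n, a ^ (j - 1) := by rw [Finset.mul_sum]
      _ ≤ n * (2 * a ^ 4) := by
          refine mul_le_mul_of_nonneg_left ?_ hn0.le
          have := geom_auxT ha0 hv n (by omega)
          have hp : 0 ≤ a ^ n := by positivity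
          linarith
      _ = 2 * n * a ^ 4 := by ring
  have hs2 : ∑ j ∈ Icc 2 n, ((n : ℝ) ^ j / j) * wOddT v W3 j ≤
      (n : ℝ) ^ 3 / 3 * W3 + 2 * n * a ^ 4 := by
    have hset : Icc 2 n = ({2, 3, 4} : Finset ℕ) ∪ Icc 5 n := by
      ext j
      simp only [mem_Icc, mem_union, mem_insert, mem_singleton]
      omega
    have hdisj : Disjoint ({2, 3, 4} : Finset ℕ) (Icc 5 n) := by
      rw [Finset.disjoint_left]
      intro j hj hj'
      simp only [mem_insert, mem_singleton] at hj
      rw [mem_Icc] at hj'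
      omega
    rw [hset, Finset.sum_union hdisj]
    have h2 : wOddT v W3 2 = 0 := by
      unfold wOddT
      rw [if_pos (by decide)]
    have h3 : wOddT v W3 3 = W3 := by
      unfold wOddT
      rw [if_neg (by decide), if_pos rfl]
    have h4 : wOddT v W3 4 = 0 := by
      unfold wOddT
      rw [if_pos (by decide)]
    have e : ∑ j ∈ ({2, 3, 4} : Finset ℕ), ((n : ℝ) ^ j / j) * wOddT v W3 j =
        (n : ℝ) ^ 3 / 3 * W3 := by
      rw [Finset.sum_insert (by simp), Finset.sum_insert (by simp), Finset.sum_singleton,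
        h2, h3, h4]
      push_cast
      ring
    rw [e]
    linarith
  -- the whole exponent
  have hexp : ∑ j ∈ Icc 2 n, ((n : ℝ) ^ j / j) * w j ≤
      (n : ℝ) ^ 3 / 3 * W3 + 2 * n * a ^ 4 + Se n uν := by
    have hsplit : ∑ j ∈ Icc 2 n, ((n : ℝ) ^ j / j) * w j =
        ∑ j ∈ Icc 2 n, ((n : ℝ) ^ j / j) * wEvenT n uν j +
          ∑ j ∈ Icc 2 n, ((n : ℝ) ^ j / j) * wOddT v W3 j := by
      rw [← Finset.sum_add_distrib]
      refine Finset.sum_congr rfl (fun j _ => ?_)
      simp only [hw]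
      ring
    have hE : ∑ j ∈ Icc 2 n, ((n : ℝ) ^ j / j) * wEvenT n uν j = Se n uν := by
      unfold Se
      rw [Finset.sum_filter]
      refine Finset.sum_congr rfl (fun j _ => ?_)
      simp only [wEvenT]
      split_ifs <;> simp
    rw [hsplit, hE]
    linarith
  have hmain : ∑ π ∈ (univ.filter fun π : Perm (Fin n) => ∃ j ∈ π.cycleType, Even j),
      (π.cycleType.map w).prod ≤
      Se n uν * Real.exp (∑ j ∈ Icc 2 n, ((n : ℝ) ^ j / j) * w j) := by
    have h := exp_sum_pred (n := n) Even w hw0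
    rw [hSeEq] at h
    convert h
  calc ∑ π ∈ (univ.filter fun π : Perm (Fin n) => sp π ≤ K₁ ∧ ∃ j ∈ π.cycleType, Even j),
        rho π ^ 2 * |nu π|
      ≤ ∑ π ∈ (univ.filter fun π : Perm (Fin n) => sp π ≤ K₁ ∧ ∃ j ∈ π.cycleType, Even j),
          2 * (π.cycleType.map w).prod := by
        refine Finset.sum_le_sum (fun π hπ => ?_)
        rw [mem_filter] at hπ
        exact hone π hπ.2.1
    _ ≤ ∑ π ∈ (univ.filter fun π : Perm (Fin n) => ∃ j ∈ π.cycleType, Even j),
          2 * (π.cycleType.map w).prod := by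
        refine Finset.sum_le_sum_of_subset_of_nonneg ?_
          (fun π _ _ => mul_nonneg (by norm_num) (hprod0 π))
        intro π hπ
        rw [mem_filter] at hπ ⊢
        exact ⟨hπ.1, hπ.2.2⟩
    _ = 2 * ∑ π ∈ (univ.filter fun π : Perm (Fin n) => ∃ j ∈ π.cycleType, Even j),
          (π.cycleType.map w).prod := by rw [Finset.mul_sum]
    _ ≤ 2 * (Se n uν * Real.exp ((n : ℝ) ^ 3 / 3 * W3 + 2 * n * a ^ 4 + Se n uν)) := by
        refine mul_le_mul_of_nonneg_left ?_ (by norm_num)
        exact hmain.trans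
          (mul_le_mul_of_nonneg_left (Real.exp_le_exp.2 hexp) hSe0)
    _ = 2 * Se n uν * Real.exp ((n : ℝ) ^ 3 / 3 * W3 + 2 * n * a ^ 4 + Se n uν) := by ring

end Vale.Agent.Lib.P197T
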