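import Vale.Agent.Lib.P197T.SumWT
import Vale.Agent.Lib.P197T.EvenS
import Vale.Agent.Lib.P197S.Core

/-!
# P197T: the analytic core (blueprint Sec A13)

Compare `Vale.Agent.Lib.P197S.assemble_core`.
-/

open Equiv Finset

namespace Vale.Agent.Lib.P197T

open Vale.Agent.Lib.P197 Vale.Agent.Lib.P197S Vale.Agent.Lib.P197W Vale.Agent.Lib.P197X

variable {n : ℕ}

open scoped Classical in
/-- The pointwise decomposition: `F₁` has a cycle of length at least `5` and no even cycle, `G` has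
an even cycle. Compare `core_decomp`. -/
theorem core_decompT (K₁ : ℕ) (c : ℝ) (f : Perm (Fin n) → ℝ) :
    ∑ m ∈ range (K₁ / 3 + 1),
        ∑ π ∈ (univ.filter fun π : Perm (Fin n) => π.cycleType = Multiset.replicate m 3), f π
      - (∑ π ∈ (univ.filter fun π : Perm (Fin n) => sp π ≤ K₁ ∧ (∃ j ∈ π.cycleType, 5 ≤ j) ∧
            ¬ ∃ j ∈ π.cycleType, Even j), |f π|
        + ∑ π ∈ (univ.filter fun π : Perm (Fin n) => sp π ≤ K₁ ∧ ∃ j ∈ π.cycleType, Even j), |f π|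
        + ∑ π ∈ (univ.filter fun π : Perm (Fin n) => K₁ < sp π ∧ (sp π : ℝ) ≤ c * n), |f π|
        + ∑ π ∈ (univ.filter fun π : Perm (Fin n) => c * (n : ℝ) < (sp π : ℝ)), |f π|)
      ≤ ∑ π, f π := by
  set M := K₁ / 3 with hMdef
  set F : Finset (Perm (Fin n)) := univ.filter fun π : Perm (Fin n) =>
    sp π ≤ K₁ ∧ (∃ j ∈ π.cycleType, 5 ≤ j) ∧ ¬ ∃ j ∈ π.cycleType, Even j with hF
  set G : Finset (Perm (Fin n)) := univ.filter fun π : Perm (Fin n) =>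
    sp π ≤ K₁ ∧ ∃ j ∈ π.cycleType, Even j with hG
  set Tl : Finset (Perm (Fin n)) := univ.filter fun π : Perm (Fin n) =>
    K₁ < sp π ∧ (sp π : ℝ) ≤ c * n with hTl
  set W : Finset (Perm (Fin n)) := univ.filter fun π : Perm (Fin n) =>
    c * (n : ℝ) < (sp π : ℝ) with hW
  have hpoint : ∀ π : Perm (Fin n),
      (∑ m ∈ range (M + 1), if π.cycleType = Multiset.replicate m 3 then f π else 0) -
        ((if π ∈ F then |f π| else 0) + (if π ∈ G then |f π| else 0) +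
          (if π ∈ Tl then |f π| else 0) + (if π ∈ W then |f π| else 0)) ≤ f π := by
    intro π
    have h1 : 0 ≤ (if π ∈ F then |f π| else 0) := by split_ifs <;> simp
    have h2 : 0 ≤ (if π ∈ Tl then |f π| else 0) := by split_ifs <;> simp
    have h4 : 0 ≤ (if π ∈ G then |f π| else 0) := by split_ifs <;> simp
    have h3 : 0 ≤ (if π ∈ W then |f π| else 0) := by split_ifs <;> simp
    by_cases hA' : ∃ m ∈ range (M + 1), π.cycleType = Multiset.replicate m 3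
    · obtain ⟨m, hm, hmeq⟩ := hA'
      have : (∑ m ∈ range (M + 1), if π.cycleType = Multiset.replicate m 3 then f π else 0)
          = f π := by
        rw [Finset.sum_eq_single m]
        · simp [hmeq]
        · intro b _ hb
          rw [if_neg]
          intro hc'
          rw [hmeq] at hc'
          have := congrArg Multiset.card hc'
          simp only [Multiset.card_replicate] at this
          exact hb this.symm
        · intro h
          exact absurd hm h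
      rw [this]
      linarith
    · have h0 : (∑ m ∈ range (M + 1), if π.cycleType = Multiset.replicate m 3 then f π else 0)
          = 0 := by
        apply Finset.sum_eq_zero
        intro m hm
        rw [if_neg]
        intro h
        exact hA' ⟨m, hm, h⟩
      rw [h0, zero_sub]
      have hneg : -|f π| ≤ f π := neg_abs_le _
      have hcase : π ∈ F ∨ π ∈ G ∨ π ∈ Tl ∨ π ∈ W := by
        by_cases h3M : sp π ≤ K₁
        · by_cases hev : ∃ j ∈ π.cycleType, Even j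
          · right
            left
            simp only [hG, mem_filter, mem_univ, true_and]
            exact ⟨h3M, hev⟩
          · left
            simp only [hF, mem_filter, mem_univ, true_and]
            refine ⟨h3M, ?_, hev⟩
            by_contra hno
            push Not at hno hev
            have hall : ∀ j ∈ π.cycleType, j = 3 := by
              intro j hj
              have h2 := Perm.two_le_of_mem_cycleType hj
              have h5 := hno j hj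
              have he := hev j hj
              interval_cases j
              · exact absurd (by decide) he
              · rfl
              · exact absurd (by decide) he
            have hrep : π.cycleType = Multiset.replicate (Multiset.card π.cycleType) 3 :=
              Multiset.eq_replicate.2 ⟨rfl, hall⟩
            have hsum : sp π = 3 * Multiset.card π.cycleType := by
              unfold sp
              rw [hrep]
              simp [mul_comm]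
            refine hA' ⟨Multiset.card π.cycleType, ?_, hrep⟩
            rw [mem_range]
            omega
        · right
          right
          by_cases hcn' : (sp π : ℝ) ≤ c * n
          · left
            simp only [hTl, mem_filter, mem_univ, true_and]
            exact ⟨by omega, hcn'⟩
          · right
            simp only [hW, mem_filter, mem_univ, true_and]
            exact not_le.1 hcn'
      rcases hcase with hc' | hc' | hc' | hc'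
      · rw [if_pos hc'] at *
        linarith
      · rw [if_pos hc'] at *
        linarith
      · rw [if_pos hc'] at *
        linarith
      · rw [if_pos hc'] at *
        linarith
  have hsum := Finset.sum_le_sum (fun π (_ : π ∈ (univ : Finset (Perm (Fin n)))) => hpoint π)
  rw [Finset.sum_sub_distrib, Finset.sum_add_distrib, Finset.sum_add_distrib, Finset.sum_add_distrib,
    Finset.sum_ite_mem, Finset.sum_ite_mem, Finset.sum_ite_mem, Finset.sum_ite_mem,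
    Finset.sum_comm] at hsum
  simp only [Finset.univ_inter] at hsum
  have e : ∀ m ∈ range (M + 1), ∑ π : Perm (Fin n), (if π.cycleType = Multiset.replicate m 3
      then f π else 0) =
      ∑ π ∈ (univ.filter fun π : Perm (Fin n) => π.cycleType = Multiset.replicate m 3), f π := by
    intro m _
    rw [Finset.sum_filter]
  rw [Finset.sum_congr rfl e] at hsum
  exact hsum

/-- `exp (1/4) ≤ 13/10`. -/
private theorem exp_quarter_le : Real.exp (1 / 4) ≤ 13 / 10 := by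
  by_contra h
  push Not at h
  have h4 : (13 / 10 : ℝ) ^ 4 < Real.exp (1 / 4) ^ 4 :=
    pow_lt_pow_left₀ h (by norm_num) (by norm_num)
  have e : Real.exp (1 / 4) ^ 4 = Real.exp 1 := by
    rw [← Real.exp_nat_mul]
    norm_num
  rw [e] at h4
  have := Real.exp_one_lt_d9
  norm_num at h4
  linarith

/-- The scale of the error of `three_pow_approx` for `3 m ≤ K₁`. -/
private theorem approx_scale {K₁ : ℕ} (hK : 5000 ≤ K₁) (m : ℕ) (hm : 3 * m ≤ K₁) (E η : ℝ)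
    (hE : 0 ≤ E) (hη : η ≤ 2 / (K₁ : ℝ) ^ 2) :
    (m : ℝ) * (gam K₁ ^ (3 * m) * E * η) ≤ 2 / (K₁ : ℝ) * E := by
  have hKr : (5000 : ℝ) ≤ K₁ := by exact_mod_cast hK
  have hK0 : (0 : ℝ) < K₁ := by linarith
  have hm' : (m : ℝ) ≤ (K₁ : ℝ) / 3 := by
    have : (3 : ℝ) * m ≤ K₁ := by exact_mod_cast hm
    linarith
  have hG1 : 1 ≤ gam K₁ := gam_one_le K₁
  have hG0 : 0 ≤ gam K₁ ^ (3 * m) := by positivity
  have hG2 : gam K₁ ^ (3 * m) ≤ 2 := by
    refine le_trans (pow_le_pow_right₀ hG1 (by omega : 3 * m ≤ 3 * K₁)) (gam_pow_le hK)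
  have hm0 : (0 : ℝ) ≤ m := by positivity
  calc (m : ℝ) * (gam K₁ ^ (3 * m) * E * η) = ((m : ℝ) * gam K₁ ^ (3 * m) * E) * η := by ring
    _ ≤ ((m : ℝ) * gam K₁ ^ (3 * m) * E) * (2 / (K₁ : ℝ) ^ 2) :=
        mul_le_mul_of_nonneg_left hη (by positivity)
    _ ≤ (((K₁ : ℝ) / 3) * 2 * E) * (2 / (K₁ : ℝ) ^ 2) := by
        refine mul_le_mul_of_nonneg_right ?_ (by positivity)
        refine mul_le_mul_of_nonneg_right ?_ hE
        exact mul_le_mul hm' hG2 hG0 (by positivity)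
    _ = (4 / 3) * (E / K₁) := by
        field_simp
        ring
    _ ≤ 2 / (K₁ : ℝ) * E := by
        have h : 0 ≤ E / (K₁ : ℝ) := by positivity
        have e : 2 / (K₁ : ℝ) * E = 2 * (E / K₁) := by ring
        rw [e]
        linarith


open scoped Classical in
/-- The range `K₁ < sp π ≤ c n`. -/
private theorem core_tail (K₁ : ℕ) (c X' : ℝ) (hc : 0 ≤ c) (f : Perm (Fin n) → ℝ)
    (htail : ∀ k : ℕ, K₁ < k → (k : ℝ) ≤ c * n →
      ∑ π ∈ (univ.filter fun π : Perm (Fin n) => sp π = k), |f π| ≤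
        Real.exp X' * (1 / 4 : ℝ) ^ k) :
    ∑ π ∈ (univ.filter fun π : Perm (Fin n) => K₁ < sp π ∧ (sp π : ℝ) ≤ c * n), |f π| ≤
      Real.exp X' * (1 / 4 : ℝ) ^ K₁ := by
  set Tl : Finset (Perm (Fin n)) := univ.filter fun π : Perm (Fin n) =>
    K₁ < sp π ∧ (sp π : ℝ) ≤ c * n with hTl
  have hmaps : ∀ π ∈ Tl, sp π ∈ Ioc K₁ ⌊c * (n : ℝ)⌋₊ := by
    intro π hπ
    simp only [hTl, mem_filter, mem_univ, true_and] at hπ
    rw [mem_Ioc]
    exact ⟨hπ.1, Nat.le_floor hπ.2⟩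
  rw [← Finset.sum_fiberwise_of_maps_to hmaps]
  calc ∑ k ∈ Ioc K₁ ⌊c * (n : ℝ)⌋₊, ∑ π ∈ Tl with sp π = k, |f π|
      ≤ ∑ k ∈ Ioc K₁ ⌊c * (n : ℝ)⌋₊, Real.exp X' * (1 / 4 : ℝ) ^ k := by
        apply Finset.sum_le_sum
        intro k hk
        rw [mem_Ioc] at hk
        have hk2 : (k : ℝ) ≤ c * n := by
          have : (k : ℝ) ≤ (⌊c * (n : ℝ)⌋₊ : ℝ) := by exact_mod_cast hk.2
          exact le_trans this (Nat.floor_le (by positivity))
        refine le_trans ?_ (htail k hk.1 hk2)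
        apply Finset.sum_le_sum_of_subset_of_nonneg
        · intro π hπ
          simp only [mem_filter, mem_univ, true_and] at hπ ⊢
          exact hπ.2
        · intro π _ _
          positivity
    _ = Real.exp X' * ∑ k ∈ Ioc K₁ ⌊c * (n : ℝ)⌋₊, (1 / 4 : ℝ) ^ k := by
        rw [Finset.mul_sum]
    _ ≤ Real.exp X' * (1 / 4 : ℝ) ^ K₁ :=
        mul_le_mul_of_nonneg_left (geom_Ioc_le _ _) (Real.exp_pos _).le


/-- `exp (K/3 + 3/2) (1/4)^K ≤ 1/16`. -/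
private theorem tail_const {K₁ : ℕ} (hK : 5000 ≤ K₁) (X' : ℝ)
    (hX' : X' ≤ (K₁ : ℝ) / 3 + 3 / 2) : Real.exp X' * (1 / 4 : ℝ) ^ K₁ ≤ 1 / 16 := by
  have hKr : (5000 : ℝ) ≤ K₁ := by exact_mod_cast hK
  have h1 : Real.exp X' ≤ Real.exp (1 / 2) ^ K₁ := by
    rw [← Real.exp_nat_mul]
    apply Real.exp_le_exp.2
    have e : (K₁ : ℝ) * (1 / 2) = (K₁ : ℝ) / 2 := by ring
    rw [e]
    linarith
  have h2 : Real.exp (1 / 2) ≤ 2 := by
    have h3 := Real.exp_one_lt_d9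
    by_contra h
    push Not at h
    have h4 : (2 : ℝ) ^ 2 < Real.exp (1 / 2) ^ 2 :=
      pow_lt_pow_left₀ h (by norm_num) (by norm_num)
    have e : Real.exp (1 / 2) ^ 2 = Real.exp 1 := by
      rw [← Real.exp_nat_mul]
      norm_num
    rw [e] at h4
    norm_num at h4
    linarith
  have h5 : Real.exp (1 / 2) ^ K₁ ≤ 2 ^ K₁ := pow_le_pow_left₀ (Real.exp_pos _).le h2 _
  have h6 : Real.exp X' * (1 / 4 : ℝ) ^ K₁ ≤ 2 ^ K₁ * (1 / 4 : ℝ) ^ K₁ :=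
    mul_le_mul_of_nonneg_right (h1.trans h5) (by positivity)
  have h7 : (2 : ℝ) ^ K₁ * (1 / 4 : ℝ) ^ K₁ = (1 / 2 : ℝ) ^ K₁ := by
    rw [← mul_pow]
    norm_num
  have h8 : (1 / 2 : ℝ) ^ K₁ ≤ (1 / 2 : ℝ) ^ 4 :=
    pow_le_pow_of_le_one (by norm_num) (by norm_num) (by omega)
  rw [h7] at h6
  norm_num at h8 ⊢
  norm_num at h6
  linarith


/-- The size conditions of `tail_explicit`. -/
private theorem tail_size (A LLv Kr nR : ℝ) (hL : 1 ≤ LLv) (hA : 1 ≤ A) (hKr : 5000 ≤ Kr)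
    (hA2 : 16 * LLv ^ 3 * A ^ 2 ≤ Kr) (hn : (10 : ℝ) ^ 40 * Kr ^ 7 ≤ nR) :
    32 * LLv ^ 6 * (4 * A) ^ 2 + 7 * LLv ^ 9 * (4 * A) ^ 4 + 5 ≤ nR := by
  have hL3 : 1 ≤ LLv ^ 3 := one_le_pow₀ hL
  have hA22 : 1 ≤ A ^ 2 := by nlinarith
  have hq : LLv ^ 3 * (4 * A) ^ 2 ≤ Kr := by nlinarith
  have hq0 : 0 ≤ LLv ^ 3 * (4 * A) ^ 2 := by positivity
  have hL3K : LLv ^ 3 ≤ Kr := by nlinarith
  have e1 : 32 * LLv ^ 6 * (4 * A) ^ 2 = 32 * (LLv ^ 3 * (LLv ^ 3 * (4 * A) ^ 2)) := by ring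
  have e2 : 7 * LLv ^ 9 * (4 * A) ^ 4 = 7 * (LLv ^ 3 * (LLv ^ 3 * (4 * A) ^ 2) ^ 2) := by ring
  have h1 : LLv ^ 3 * (LLv ^ 3 * (4 * A) ^ 2) ≤ Kr * Kr :=
    mul_le_mul hL3K hq hq0 (by linarith)
  have h2 : LLv ^ 3 * (LLv ^ 3 * (4 * A) ^ 2) ^ 2 ≤ Kr * Kr ^ 2 :=
    mul_le_mul hL3K (pow_le_pow_left₀ hq0 hq 2) (by positivity) (by linarith)
  have hK7 : Kr * Kr ≤ Kr ^ 7 := by
    have : Kr ^ 2 ≤ Kr ^ 7 := pow_le_pow_right₀ (by linarith) (by norm_num)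
    nlinarith
  have hK7' : Kr * Kr ^ 2 ≤ Kr ^ 7 := by
    have : Kr ^ 3 ≤ Kr ^ 7 := pow_le_pow_right₀ (by linarith) (by norm_num)
    nlinarith
  have hK1 : 1 ≤ Kr ^ 7 := one_le_pow₀ (by linarith)
  rw [e1, e2]
  nlinarith


/-- The numbers attached to `K₁`. -/
private theorem num_K (K₁ : ℕ) (A : ℝ) (hA : 1 ≤ A) (hA2 : 16 * LT ^ 3 * A ^ 2 ≤ K₁) :
    5000 ≤ K₁ ∧ 16 * A ^ 2 ≤ (K₁ : ℝ) ∧ LT ^ 3 * (4 * A) ^ 2 ≤ (K₁ : ℝ) ∧
      16 * 1000 * A ^ 2 ≤ (K₁ : ℝ) := by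
  have hLLb : (1000 : ℝ) ≤ LT ^ 3 := by
    unfold LT
    norm_num
  have hLLb2 : (5000 : ℝ) ≤ 16 * LT ^ 3 := by linarith
  have hA20 : 1 ≤ A ^ 2 := by nlinarith
  have h1 : 16 * 1000 * A ^ 2 ≤ (K₁ : ℝ) := by nlinarith
  refine ⟨?_, by linarith, by nlinarith, h1⟩
  have : (5000 : ℝ) ≤ (K₁ : ℝ) := by linarith
  exact_mod_cast this


/-- The numbers attached to `n`. -/
private theorem num_n (K₁ : ℕ) (hK : 5000 ≤ K₁) (hn : (10 : ℝ) ^ 80 * (K₁ : ℝ) ^ 7 ≤ n) :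
    (K₁ : ℝ) ^ 3 ≤ n ∧ K₁ ≤ n := by
  have hKb : (5000 : ℝ) ≤ (K₁ : ℝ) := by exact_mod_cast hK
  have hK7 : (K₁ : ℝ) ^ 3 ≤ (K₁ : ℝ) ^ 7 := pow_le_pow_right₀ (by linarith) (by norm_num)
  have hK71 : (K₁ : ℝ) ≤ (K₁ : ℝ) ^ 7 := by
    have : (K₁ : ℝ) ^ 1 ≤ (K₁ : ℝ) ^ 7 := pow_le_pow_right₀ (by linarith) (by norm_num)
    simpa using this
  have hK70 : 0 ≤ (K₁ : ℝ) ^ 7 := by positivity
  have hle : (K₁ : ℝ) ^ 7 ≤ n := by
    have h10 : (1 : ℝ) ≤ 10 ^ 80 := by norm_num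
    nlinarith
  refine ⟨hK7.trans hle, ?_⟩
  exact_mod_cast hK71.trans hle


/-- The relative size of the class sizes. -/
private theorem eps2_bound (M K₁ : ℕ) (hM : 3 * M ≤ K₁) (hK : 5000 ≤ K₁)
    (hn3 : (K₁ : ℝ) ^ 3 ≤ n) : 9 * (M : ℝ) ^ 2 / n ≤ 1 / (K₁ : ℝ) := by
  have hKb : (5000 : ℝ) ≤ (K₁ : ℝ) := by exact_mod_cast hK
  have hK0 : (0 : ℝ) < (K₁ : ℝ) := by linarith
  have hn0 : (0 : ℝ) < n := lt_of_lt_of_le (by positivity) hn3
  have hMR : (3 : ℝ) * M ≤ K₁ := by exact_mod_cast hM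
  rw [div_le_div_iff₀ hn0 hK0]
  have h1 : (3 * (M : ℝ)) ^ 2 ≤ (K₁ : ℝ) ^ 2 := pow_le_pow_left₀ (by positivity) hMR 2
  have h2 : 9 * (M : ℝ) ^ 2 * K₁ ≤ (K₁ : ℝ) ^ 2 * K₁ :=
    mul_le_mul_of_nonneg_right (by nlinarith) hK0.le
  have e : (K₁ : ℝ) ^ 2 * K₁ = (K₁ : ℝ) ^ 3 := by ring
  rw [e] at h2
  linarith


/-- The final dichotomy. -/
private theorem core_final (K₁ M : ℕ) (hK : 5000 ≤ K₁) (hM : (K₁ : ℝ) ≤ 3 * ((M : ℝ) + 1))
    (nR D A K X y β α S : ℝ) (hnD : nR = D + 2) (hD5 : 4998 ≤ D) (hA0 : 1 ≤ A)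
    (hAK : 16 * 1000 * A ^ 2 ≤ (K₁ : ℝ))
    (hKdef : K = max (nR * |β|) 1) (hK432 : K ≤ 432 * A ^ 2)
    (hy : y = nR ^ 3 / 3 * α ^ 2 * (K / nR)) (hX : X = nR ^ 3 / 3 * α ^ 2 * β)
    (hy0 : 0 ≤ y) (hyK : y ≤ K / 8) (hlow : -1 ≤ D * β)
    (htotal : ∑ m ∈ range (M + 1), X ^ m / (m.factorial : ℝ) -
      (20 / (K₁ : ℝ)) * Real.exp y - 1 / 8 ≤ S) : 0 < S := by
  have hn0 : 0 < nR := by linarith
  have hKb : (5000 : ℝ) ≤ (K₁ : ℝ) := by exact_mod_cast hK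
  have hK0 : (0 : ℝ) < (K₁ : ℝ) := by linarith
  have hey0 : 0 < Real.exp y := Real.exp_pos y
  have h18 : 20 / (K₁ : ℝ) ≤ 1 / 100 := by
    rw [div_le_div_iff₀ hK0 (by norm_num)]
    linarith
  by_cases hcase : 1 ≤ nR * β
  · have hβ0 : 0 < β := by
      by_contra h
      push Not at h
      have : nR * β ≤ 0 := mul_nonpos_of_nonneg_of_nonpos hn0.le h
      linarith
    have hKeq : K = nR * β := by
      rw [hKdef, abs_of_pos hβ0]
      exact max_eq_left hcase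
    have hXy : X = y := by
      rw [hX, hy, hKeq]
      field_simp
    have hyM : 2 * y ≤ (M : ℝ) + 1 := by nlinarith
    have h1 := exp_partial_ge y hy0 M hyM
    rw [hXy] at htotal
    have hey1 : 1 ≤ Real.exp y := Real.one_le_exp hy0
    have h2 : 20 / (K₁ : ℝ) * Real.exp y ≤ 1 / 100 * Real.exp y :=
      mul_le_mul_of_nonneg_right h18 hey0.le
    linarith
  · push Not at hcase
    have hKle : K ≤ 2 := by
      rw [hKdef]
      refine max_le ?_ (by norm_num)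
      rcases le_or_gt 0 β with hb | hb
      · rw [abs_of_nonneg hb]
        linarith
      · rw [abs_of_neg hb, hnD]
        nlinarith
    have hy4 : y ≤ 1 / 4 := by linarith
    have hXabs : |X| ≤ y := by
      rw [hX, hy, abs_mul]
      have hc0 : 0 ≤ nR ^ 3 / 3 * α ^ 2 := by positivity
      rw [abs_of_nonneg hc0]
      refine mul_le_mul_of_nonneg_left ?_ hc0
      rw [le_div_iff₀ hn0, hKdef, mul_comm]
      exact le_max_left _ _
    have h1 := exp_partial_small X (hXabs.trans hy4) M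
    have he : Real.exp y ≤ 13 / 10 :=
      (Real.exp_le_exp.2 hy4).trans exp_quarter_le
    have h2 : 20 / (K₁ : ℝ) * Real.exp y ≤ 1 / 100 * (13 / 10) :=
      mul_le_mul h18 he hey0.le (by norm_num)
    linarith


/-- The exponent `y`. -/
private theorem y_boundT (nR α K y : ℝ) (hn0 : 0 < nR) (hK : 0 ≤ K) (hα : nR * |α| ≤ 3 / 5)
    (hy : y = nR ^ 3 / 3 * α ^ 2 * (K / nR)) : 0 ≤ y ∧ y ≤ K / 8 := by
  have hy_eq : y = (nR * |α|) ^ 2 * K / 3 := by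
    rw [hy, mul_pow, sq_abs]
    field_simp
  have h0 : 0 ≤ nR * |α| := by positivity
  have h2 : (nR * |α|) ^ 2 ≤ 9 / 25 := by nlinarith
  constructor
  · rw [hy_eq]
    positivity
  · rw [hy_eq]
    nlinarith [mul_le_mul_of_nonneg_right h2 hK]

/-- The sum over the classes `3^m`. -/
private theorem core_mainT {K₁ : ℕ} (rho nu : Perm (Fin n) → ℝ) (HN : NumHyp n K₁)
    (hn3 : (K₁ : ℝ) ^ 3 ≤ n) (hKn : K₁ ≤ n) (hcr : ClassMult n rho) (hcn : ClassMult n nu)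
    (hr1 : rho 1 = 1) (hn1 : nu 1 = 1) (K θν θρ uρ : ℝ) (hK00 : 0 ≤ K) (hK1 : 1 ≤ K)
    (Hν : SharpHyp n K₁ nu (uNu n K₁) K θν (gam K₁))
    (x₃ : Perm (Fin n))
    (Hρ : SharpHyp n K₁ rho uρ ((n : ℝ) * |rho x₃|) θρ (gam K₁))
    (hetaρ : etaS n K₁ uρ ((n : ℝ) * |rho x₃|) (gam K₁) ≤ 2 / (K₁ : ℝ) ^ 2)
    (hx₃ : x₃.cycleType = {3})
    (hβ : |nu x₃| ≤ K / n) :
    ∑ m ∈ range (K₁ / 3 + 1), ((n : ℝ) ^ 3 / 3 * rho x₃ ^ 2 * nu x₃) ^ m / (m.factorial : ℝ) -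
        (12 / (K₁ : ℝ)) * Real.exp ((n : ℝ) ^ 3 / 3 * rho x₃ ^ 2 * (K / n)) ≤
      ∑ m ∈ range (K₁ / 3 + 1),
        ∑ π ∈ (univ.filter fun π : Perm (Fin n) => π.cycleType = Multiset.replicate m 3),
          rho π ^ 2 * nu π := by
  have hK := HN.hK
  have hn0 := HN.n_pos
  have hKb : (5000 : ℝ) ≤ (K₁ : ℝ) := by exact_mod_cast hK
  have hK0 : (0 : ℝ) < (K₁ : ℝ) := by linarith
  have hM3 : 3 * (K₁ / 3) ≤ K₁ := by omega
  have hαk : (n : ℝ) * |rho x₃| / (n : ℝ) = |rho x₃| := by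
    field_simp
  have hρa : ∀ m ≤ K₁ / 3, ∀ π : Perm (Fin n), π.cycleType = Multiset.replicate m 3 →
      |rho π - rho x₃ ^ m| ≤ 2 / (K₁ : ℝ) * |rho x₃| ^ m := by
    intro m hm π hπ
    have h1 := three_pow_approx Hρ hr1 m (by omega) π x₃ hπ hx₃
    rw [hαk] at h1
    exact h1.trans (approx_scale hK m (by omega) _ _ (by positivity) hetaρ)
  have hνa : ∀ m ≤ K₁ / 3, ∀ π : Perm (Fin n), π.cycleType = Multiset.replicate m 3 →
      |nu π - nu x₃ ^ m| ≤ 2 / (K₁ : ℝ) * (K / n) ^ m := by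
    intro m hm π hπ
    have h1 := three_pow_approx Hν hn1 m (by omega) π x₃ hπ hx₃
    exact h1.trans (approx_scale hK m (by omega) _ _ (by positivity) (eta_nu HN K hK1))
  have hε₁' : 2 / (K₁ : ℝ) ≤ 1 / 10 := by
    rw [div_le_div_iff₀ hK0 (by norm_num)]
    linarith
  have hε₂' : 1 / (K₁ : ℝ) ≤ 1 / 10 := by
    rw [div_le_div_iff₀ hK0 (by norm_num)]
    linarith
  have hε₂ := eps2_bound (K₁ / 3) K₁ hM3 hK hn3
  have hmain := main_lower (K₁ / 3) (by omega) (by omega) rho nu hcr.1 hcn.1 (rho x₃) (nu x₃) K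
    (2 / (K₁ : ℝ)) (1 / (K₁ : ℝ)) hK00 hβ (by positivity) hε₁' hε₂ hε₂' hρa hνa
  have e : 12 / (K₁ : ℝ) = 2 * (1 / (K₁ : ℝ)) + 5 * (2 / (K₁ : ℝ)) := by
    field_simp
    ring
  rw [e]
  exact hmain

/-- The range `K₁ < sp π ≤ ccT n`. -/
private theorem core_farT (K₁ : ℕ) (A : ℝ) (hA : 1 ≤ A) (hA2 : 16 * LT ^ 3 * A ^ 2 ≤ K₁)
    (hK : 5000 ≤ K₁) (hn : (10 : ℝ) ^ 80 * (K₁ : ℝ) ^ 7 ≤ n)
    (rho nu : Perm (Fin n) → ℝ)
    (hgen : ∀ π : Perm (Fin n), |rho π| ≤ (π.cycleType.map (costT n)).prod)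
    (hnu : NuB n (A * Real.sqrt n) nu) :
    ∑ π ∈ (univ.filter fun π : Perm (Fin n) => K₁ < sp π ∧ (sp π : ℝ) ≤ ccT * n),
        rho π ^ 2 * |nu π| ≤ 1 / 16 := by
  classical
  have hLT0 : (1 : ℝ) ≤ LT := by
    unfold LT
    norm_num
  have hKb : (5000 : ℝ) ≤ (K₁ : ℝ) := by exact_mod_cast hK
  have htailc := tail_size A LT K₁ n hLT0 hA hKb hA2 (by
    have h0 : (0 : ℝ) ≤ (K₁ : ℝ) ^ 7 := by positivity
    have h1 : (10 : ℝ) ^ 40 ≤ 10 ^ 80 := by norm_num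
    nlinarith)
  have hcc0 : 0 < ccT := by
    unfold ccT LT
    norm_num
  have e : ∀ π : Perm (Fin n), |rho π ^ 2 * nu π| = rho π ^ 2 * |nu π| := by
    intro π
    simp only [abs_mul, abs_pow, sq_abs]
  have hST := core_tail K₁ ccT (LT ^ 3 * (4 * A) ^ 2 / 3 + 3 / 2) hcc0.le
    (fun π => rho π ^ 2 * nu π) (by
    intro k hk hkc
    have hk1 : 1 ≤ k := by omega
    simp only [e]
    convert tail_explicitT A hA htailc rho nu hgen hnu k hk1 hkc using 1)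
  simp only [e] at hST
  refine le_trans ?_ (hST.trans (tail_const hK _ (by nlinarith)))
  exact le_of_eq (by congr 1)

/-- The numbers for the odd and the even sums. -/
private theorem num_small {K₁ : ℕ} (H : NumHyp n K₁) (hn : (10 : ℝ) ^ 80 * (K₁ : ℝ) ^ 7 ≤ n)
    (uB : ℝ) (huB0 : 0 < uB) (huB : uB ^ 2 ≤ 2 * 2500 ^ 4 / (n : ℝ)) :
    (n : ℝ) * (uB ^ 2 * uNu n K₁) ≤ 1 / 2 ∧ 169 * uNu n K₁ ≤ 1 / 2 ∧
      2 * n * ((n : ℝ) * (uB ^ 2 * uNu n K₁)) ^ 4 ≤ 1 / (K₁ : ℝ) ∧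
      200000 * uNu n K₁ ≤ 1 / (K₁ : ℝ) := by
  have hN := H.n_pos
  have hs := H.s_pos
  have hs5 := H.s_ge
  have hu := uNu_pos H
  have hu2 := uNu_sq H
  have hK17 : (K₁ : ℝ) ≤ (K₁ : ℝ) ^ 7 := by
    have : (K₁ : ℝ) ^ 1 ≤ (K₁ : ℝ) ^ 7 := pow_le_pow_right₀ (by linarith) (by norm_num)
    simpa using this
  have hK37 : (K₁ : ℝ) ^ 3 ≤ (K₁ : ℝ) ^ 7 := pow_le_pow_right₀ (by linarith) (by norm_num)
  have hK70 : (0 : ℝ) ≤ (K₁ : ℝ) ^ 7 := by positivity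
  -- the basic bound on `uν`
  have hc : (2 * (2 * 2500 ^ 4) * uNu n K₁) ^ 2 ≤ 1 := by
    rw [mul_pow, hu2]
    have e : (2 * (2 * 2500 ^ 4) : ℝ) ^ 2 * (324 * ((K₁ : ℝ) / n)) =
        (2 * (2 * 2500 ^ 4) : ℝ) ^ 2 * 324 * (K₁ : ℝ) / n := by ring
    rw [e, div_le_one hN]
    have h1 : ((2 * (2 * 2500 ^ 4) : ℝ) ^ 2 * 324) ≤ 10 ^ 80 := by norm_num
    have h10 : (0 : ℝ) ≤ (K₁ : ℝ) := hs.le
    calc (2 * (2 * 2500 ^ 4) : ℝ) ^ 2 * 324 * (K₁ : ℝ) ≤ 10 ^ 80 * (K₁ : ℝ) ^ 7 :=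
          mul_le_mul h1 hK17 h10 (by positivity)
      _ ≤ n := hn
  have hc1 : 2 * (2 * 2500 ^ 4) * uNu n K₁ ≤ 1 := by
    have h0 : 0 ≤ 2 * (2 * 2500 ^ 4) * uNu n K₁ := by positivity
    nlinarith
  have hvle : (n : ℝ) * (uB ^ 2 * uNu n K₁) ≤ 2 * 2500 ^ 4 * uNu n K₁ := by
    have h1 : (n : ℝ) * uB ^ 2 ≤ 2 * 2500 ^ 4 := by
      have := mul_le_mul_of_nonneg_left huB hN.le
      have e : (n : ℝ) * (2 * 2500 ^ 4 / (n : ℝ)) = 2 * 2500 ^ 4 := by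
        field_simp
      rwa [e] at this
    have := mul_le_mul_of_nonneg_right h1 hu.le
    calc (n : ℝ) * (uB ^ 2 * uNu n K₁) = (n : ℝ) * uB ^ 2 * uNu n K₁ := by ring
      _ ≤ _ := this
  refine ⟨by linarith, by linarith, ?_, ?_⟩
  · have h0 : 0 ≤ (n : ℝ) * (uB ^ 2 * uNu n K₁) := by positivity
    have h4 : ((n : ℝ) * (uB ^ 2 * uNu n K₁)) ^ 4 ≤ (2 * 2500 ^ 4 * uNu n K₁) ^ 4 :=
      pow_le_pow_left₀ h0 hvle 4
    have e4 : (2 * 2500 ^ 4 * uNu n K₁) ^ 4 = (2 * 2500 ^ 4 : ℝ) ^ 4 * uNu n K₁ ^ 4 := by ring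
    rw [e4, uNu_pow4 H] at h4
    rw [le_div_iff₀ hs]
    have h5 : 2 * (n : ℝ) * ((n : ℝ) * (uB ^ 2 * uNu n K₁)) ^ 4 * (K₁ : ℝ) ≤
        2 * (n : ℝ) * ((2 * 2500 ^ 4 : ℝ) ^ 4 * (104976 * ((K₁ : ℝ) ^ 2 / (n : ℝ) ^ 2))) * (K₁ : ℝ) := by
      apply mul_le_mul_of_nonneg_right _ hs.le
      exact mul_le_mul_of_nonneg_left h4 (by positivity)
    refine h5.trans ?_
    have e5 : 2 * (n : ℝ) * ((2 * 2500 ^ 4 : ℝ) ^ 4 * (104976 * ((K₁ : ℝ) ^ 2 / (n : ℝ) ^ 2))) * (K₁ : ℝ) =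
        (2 * (2 * 2500 ^ 4 : ℝ) ^ 4 * 104976) * (K₁ : ℝ) ^ 3 / n := by
      field_simp
    rw [e5, div_le_one hN]
    have h7 : (2 * (2 * 2500 ^ 4 : ℝ) ^ 4 * 104976) ≤ 10 ^ 80 := by norm_num
    calc (2 * (2 * 2500 ^ 4 : ℝ) ^ 4 * 104976) * (K₁ : ℝ) ^ 3 ≤ 10 ^ 80 * (K₁ : ℝ) ^ 7 :=
          mul_le_mul h7 hK37 (by positivity) (by positivity)
      _ ≤ n := hn
  · rw [le_div_iff₀ hs]
    have h2 : (200000 * uNu n K₁ * (K₁ : ℝ)) ^ 2 ≤ 1 := by
      rw [mul_pow, mul_pow, hu2]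
      have e : (200000 : ℝ) ^ 2 * (324 * ((K₁ : ℝ) / n)) * (K₁ : ℝ) ^ 2 =
          ((200000 : ℝ) ^ 2 * 324) * (K₁ : ℝ) ^ 3 / n := by
        field_simp
      rw [e, div_le_one hN]
      have h7 : ((200000 : ℝ) ^ 2 * 324) ≤ 10 ^ 80 := by norm_num
      calc ((200000 : ℝ) ^ 2 * 324) * (K₁ : ℝ) ^ 3 ≤ 10 ^ 80 * (K₁ : ℝ) ^ 7 :=
            mul_le_mul h7 hK37 (by positivity) (by positivity)
        _ ≤ n := hn
    have h0 : 0 ≤ 200000 * uNu n K₁ * (K₁ : ℝ) := by positivity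
    nlinarith

/-- The exponential of a small number. -/
private theorem exp_half_le : Real.exp (1 / 2) ≤ 2 := by
  have h3 := Real.exp_one_lt_d9
  by_contra h
  push Not at h
  have h4 : (2 : ℝ) ^ 2 < Real.exp (1 / 2) ^ 2 :=
    pow_lt_pow_left₀ h (by norm_num) (by norm_num)
  have e : Real.exp (1 / 2) ^ 2 = Real.exp 1 := by
    rw [← Real.exp_nat_mul]
    norm_num
  rw [e] at h4
  norm_num at h4
  linarith

open scoped Classical in
/-- **The analytic core** for a function `ρ` with `RhoT`. -/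
theorem assemble_coreT (K₁ : ℕ) (A : ℝ) (hA : 1 ≤ A) (hA2 : 16 * LT ^ 3 * A ^ 2 ≤ K₁)
    (hn : (10 : ℝ) ^ 80 * (K₁ : ℝ) ^ 7 ≤ n)
    (rho nu : Perm (Fin n) → ℝ) (x₃ : Perm (Fin n)) (uB θB η : ℝ)
    (R : RhoT n K₁ rho x₃ uB θB η) (hη : η * (432 * A ^ 2) ≤ 1)
    (hnu : NuB n (A * Real.sqrt n) nu) (hcn : ClassMult n nu) (hn1 : nu 1 = 1)
    (hW : ∑ π ∈ (univ.filter fun π : Perm (Fin n) => ccT * (n : ℝ) < (sp π : ℝ)),
        rho π ^ 2 * |nu π| ≤ 1 / 16) :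
    0 < ∑ π, rho π ^ 2 * nu π := by
  obtain ⟨hK, hA16, hq, hAK⟩ := num_K K₁ A hA hA2
  obtain ⟨hn3, hKn⟩ := num_n K₁ hK hn
  have hA20 : 1 ≤ A ^ 2 := by nlinarith
  have hn5000 : 5000 ≤ n := hK.trans hKn
  have hnR : (5000 : ℝ) ≤ n := by exact_mod_cast hn5000
  have hn0 : (0 : ℝ) < n := by linarith
  have hKb : (5000 : ℝ) ≤ (K₁ : ℝ) := by exact_mod_cast hK
  have hK0 : (0 : ℝ) < (K₁ : ℝ) := by linarith
  have HN : NumHyp n K₁ := ⟨hK, by
    have h0 : (0 : ℝ) ≤ (K₁ : ℝ) ^ 7 := by positivity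
    have h1 : (10 : ℝ) ^ 40 ≤ 10 ^ 80 := by norm_num
    nlinarith⟩
  have hx₃ := R.hx₃
  have hcr := R.cm
  have hr1 := R.one
  obtain ⟨D, hD⟩ : ∃ D : ℝ, D = (n : ℝ) - 2 := ⟨_, rfl⟩
  have hD5 : (4998 : ℝ) ≤ D := by
    rw [hD]
    linarith
  have hnD : (n : ℝ) = D + 2 := by
    rw [hD]
    ring
  obtain ⟨K, hKdef⟩ : ∃ K : ℝ, K = max ((n : ℝ) * |nu x₃|) 1 := ⟨_, rfl⟩
  have hK1 : 1 ≤ K := by
    rw [hKdef]
    exact le_max_right _ _
  have hK00 : 0 ≤ K := by linarith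
  have hβK : (n : ℝ) * |nu x₃| ≤ K := by
    rw [hKdef]
    exact le_max_left _ _
  have hK432 : K ≤ 432 * A ^ 2 := by
    rw [hKdef]
    refine max_le ?_ (by linarith)
    exact nu_three_le A hA (by omega) nu hnu x₃ hx₃
  have hK324 : K ≤ 324 * (K₁ : ℝ) := by linarith
  have h3ν : ∀ x : Perm (Fin n), x.cycleType = {3} → |nu x| ≤ K / n := by
    intro x hx
    have e : nu x = nu x₃ := hcn.1 _ _ (hx.trans hx₃.symm)
    rw [e, le_div_iff₀ hn0]
    linarith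
  have Hν := sharp_nu A hA hA16 HN nu hnu hcn K hK1 hK324 h3ν
  obtain ⟨y, hydef⟩ : ∃ y : ℝ, y = (n : ℝ) ^ 3 / 3 * rho x₃ ^ 2 * (K / n) := ⟨_, rfl⟩
  obtain ⟨X, hXdef⟩ : ∃ X : ℝ, X = (n : ℝ) ^ 3 / 3 * rho x₃ ^ 2 * nu x₃ := ⟨_, rfl⟩
  have hmain := core_mainT rho nu HN hn3 hKn hcr hcn hr1 hn1 K _ _ _ hK00 hK1 Hν x₃ R.own R.eta hx₃
    (h3ν x₃ hx₃)
  rw [← hydef, ← hXdef] at hmain
  obtain ⟨hy0, hyK⟩ := y_boundT (n : ℝ) (rho x₃) K y hn0 hK00 R.k3u hydef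
  -- the small numbers
  obtain ⟨hv, h169, hs1, hSe1⟩ := num_small HN hn uB R.huB R.uB_le
  obtain ⟨s, hs⟩ : ∃ s : ℝ, s = 2 * n * ((n : ℝ) * (uB ^ 2 * uNu n K₁)) ^ 4 := ⟨_, rfl⟩
  have hs0 : 0 ≤ s := by
    rw [hs]
    positivity
  rw [← hs] at hs1
  have hSe0 : 0 ≤ Se n (uNu n K₁) := by
    unfold Se
    refine Finset.sum_nonneg fun j _ => ?_
    have := uNu_pos HN
    positivity
  have hSe2 : Se n (uNu n K₁) ≤ 1 / (K₁ : ℝ) :=
    (Se_le n (by omega) _ (uNu_pos HN).le h169).trans hSe1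
  have h1K : 1 / (K₁ : ℝ) ≤ 1 / 5000 := by
    apply one_div_le_one_div_of_le (by norm_num) hKb
  -- the exponent with the uniform parameters
  obtain ⟨yG, hyGdef⟩ : ∃ yG : ℝ, yG = (n : ℝ) ^ 3 / 3 * ((uB ^ 2 * θB) ^ 2 *
      (uNu n K₁ ^ 2 * (K / (324 * K₁)))) := ⟨_, rfl⟩
  have hyG : yG ≤ y + 1 / 8 := by
    have hθν : uNu n K₁ ^ 2 * (K / (324 * K₁)) = K / n := Hν.hθ
    rw [hyGdef, hθν]
    have hKn0 : 0 ≤ K / (n : ℝ) := by positivity
    have h1 : (n : ℝ) ^ 3 / 3 * ((uB ^ 2 * θB) ^ 2 * (K / n)) ≤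
        (n : ℝ) ^ 3 / 3 * (((1 + η) * rho x₃ ^ 2) * (K / n)) := by
      apply mul_le_mul_of_nonneg_left _ (by positivity)
      exact mul_le_mul_of_nonneg_right R.close hKn0
    have e : (n : ℝ) ^ 3 / 3 * (((1 + η) * rho x₃ ^ 2) * (K / n)) = (1 + η) * y := by
      rw [hydef]
      ring
    rw [e] at h1
    have h2 : η * y ≤ η * (K / 8) := mul_le_mul_of_nonneg_left hyK R.hη
    have h3 : η * (K / 8) ≤ η * (432 * A ^ 2) / 8 := by
      have := mul_le_mul_of_nonneg_left hK432 R.hη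
      linarith
    linarith
  -- the sharp bound for `nu`
  have hνb : ∀ π : Perm (Fin n), sp π ≤ K₁ → |nu π| ≤ Bd (uNu n K₁) (K / (324 * K₁)) (gam K₁) π :=
    fun π hπ => sharp_bound Hν π hπ
  have hG := gam_pow_le hK
  have hG1 := gam_one_le K₁
  -- the permutations with a long cycle and no even cycle
  have hF1 : ∑ π ∈ (univ.filter fun π : Perm (Fin n) => sp π ≤ K₁ ∧ (∃ j ∈ π.cycleType, 5 ≤ j) ∧
      ¬ ∃ j ∈ π.cycleType, Even j), rho π ^ 2 * |nu π| ≤ 2 * s * Real.exp (yG + s) := by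
    obtain ⟨rho₀, hrho₀⟩ : ∃ rho₀ : Perm (Fin n) → ℝ,
        rho₀ = fun π => if ∃ j ∈ π.cycleType, Even j then 0 else rho π := ⟨_, rfl⟩
    have hev₀ : ∀ π : Perm (Fin n), (∃ j ∈ π.cycleType, Even j) → rho₀ π = 0 := by
      intro π h
      rw [hrho₀]
      simp only [if_pos h]
    have hodd₀ : ∀ π : Perm (Fin n), (¬ ∃ j ∈ π.cycleType, Even j) → rho₀ π = rho π := by
      intro π h
      rw [hrho₀]
      simp only [if_neg h]
    have hb₀ : ∀ π : Perm (Fin n), sp π ≤ K₁ → |rho₀ π| ≤ Bd uB θB (gam K₁) π := by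
      intro π hπ
      by_cases h : ∃ j ∈ π.cycleType, Even j
      · rw [hev₀ π h, abs_zero]
        have h1 := R.huB
        have h2 := R.hθB
        unfold Bd
        positivity
      · rw [hodd₀ π h]
        have h2 := R.sharp π 0 π.cycleType hπ (by simp) (by simp) (by
          intro j hj
          by_contra hno
          exact h ⟨j, hj, Nat.not_odd_iff_even.1 hno⟩)
        simpa [BdM, Bd, sp, rk, c3] using h2
    have hfive := five_sharp K₁ (by omega) rho₀ nu hev₀ uB θB (uNu n K₁) (K / (324 * K₁)) (gam K₁)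
      R.huB R.hθB Hν.hu0 Hν.hθ0 hG1 hG hv hb₀ hνb
    rw [← hs, ← hyGdef] at hfive
    refine le_trans ?_ hfive
    calc ∑ π ∈ (univ.filter fun π : Perm (Fin n) => sp π ≤ K₁ ∧ (∃ j ∈ π.cycleType, 5 ≤ j) ∧
          ¬ ∃ j ∈ π.cycleType, Even j), rho π ^ 2 * |nu π|
        = ∑ π ∈ (univ.filter fun π : Perm (Fin n) => sp π ≤ K₁ ∧ (∃ j ∈ π.cycleType, 5 ≤ j) ∧
          ¬ ∃ j ∈ π.cycleType, Even j), rho₀ π ^ 2 * |nu π| := by
          refine Finset.sum_congr rfl fun π hπ => ?_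
          rw [hodd₀ π (Finset.mem_filter.1 hπ).2.2.2]
      _ ≤ _ := by
          refine Finset.sum_le_sum_of_subset_of_nonneg ?_ (fun _ _ _ => by positivity)
          intro π hπ
          have h := (Finset.mem_filter.1 hπ).2
          exact Finset.mem_filter.2 ⟨Finset.mem_univ _, h.1, h.2.1⟩
  -- the permutations with an even cycle
  have hGe : ∑ π ∈ (univ.filter fun π : Perm (Fin n) => sp π ≤ K₁ ∧ ∃ j ∈ π.cycleType, Even j),
      rho π ^ 2 * |nu π| ≤ 2 * Se n (uNu n K₁) * Real.exp (yG + s + Se n (uNu n K₁)) := by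
    have h := even_sumT K₁ (by omega) rho nu uB θB (uNu n K₁) (K / (324 * K₁)) (gam K₁)
      R.huB R.hθB Hν.hu0 Hν.hθ0 hG1 hG hv R.sharp hνb
    rw [← hs, ← hyGdef] at h
    exact h
  -- the rest
  have hST := core_farT K₁ A hA hA2 hK hn rho nu R.gen hnu
  have hey0 : 0 < Real.exp y := Real.exp_pos y
  have hE1 : Real.exp (yG + s) ≤ 2 * Real.exp y := by
    have h1 : yG + s ≤ y + 1 / 2 := by linarith
    calc Real.exp (yG + s) ≤ Real.exp (y + 1 / 2) := Real.exp_le_exp.2 h1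
      _ = Real.exp y * Real.exp (1 / 2) := Real.exp_add _ _
      _ ≤ Real.exp y * 2 := mul_le_mul_of_nonneg_left exp_half_le hey0.le
      _ = 2 * Real.exp y := by ring
  have hE2 : Real.exp (yG + s + Se n (uNu n K₁)) ≤ 2 * Real.exp y := by
    have h1 : yG + s + Se n (uNu n K₁) ≤ y + 1 / 2 := by linarith
    calc Real.exp (yG + s + Se n (uNu n K₁)) ≤ Real.exp (y + 1 / 2) := Real.exp_le_exp.2 h1
      _ = Real.exp y * Real.exp (1 / 2) := Real.exp_add _ _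
      _ ≤ Real.exp y * 2 := mul_le_mul_of_nonneg_left exp_half_le hey0.le
      _ = 2 * Real.exp y := by ring
  have hF1' : ∑ π ∈ (univ.filter fun π : Perm (Fin n) => sp π ≤ K₁ ∧ (∃ j ∈ π.cycleType, 5 ≤ j) ∧
      ¬ ∃ j ∈ π.cycleType, Even j), rho π ^ 2 * |nu π| ≤ 4 / (K₁ : ℝ) * Real.exp y := by
    refine hF1.trans ?_
    calc 2 * s * Real.exp (yG + s) ≤ (2 * (1 / (K₁ : ℝ))) * (2 * Real.exp y) :=
          mul_le_mul (by linarith) hE1 (Real.exp_pos _).le (by positivity)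
      _ = 4 / (K₁ : ℝ) * Real.exp y := by
          field_simp
          ring
  have hGe' : ∑ π ∈ (univ.filter fun π : Perm (Fin n) => sp π ≤ K₁ ∧ ∃ j ∈ π.cycleType, Even j),
      rho π ^ 2 * |nu π| ≤ 4 / (K₁ : ℝ) * Real.exp y := by
    refine hGe.trans ?_
    calc 2 * Se n (uNu n K₁) * Real.exp (yG + s + Se n (uNu n K₁))
        ≤ (2 * (1 / (K₁ : ℝ))) * (2 * Real.exp y) :=
          mul_le_mul (by linarith) hE2 (Real.exp_pos _).le (by positivity)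
      _ = 4 / (K₁ : ℝ) * Real.exp y := by
          field_simp
          ring
  -- the decomposition
  have hdec := core_decompT K₁ ccT (fun π => rho π ^ 2 * nu π)
  have e : ∀ π : Perm (Fin n), |rho π ^ 2 * nu π| = rho π ^ 2 * |nu π| := by
    intro π
    simp only [abs_mul, abs_pow, sq_abs]
  simp only [e] at hdec
  have hlow := three_lower nu hcn hn1 (by omega) x₃ hx₃
  rw [← hD] at hlow
  have hMR : (K₁ : ℝ) ≤ 3 * (((K₁ / 3 : ℕ) : ℝ) + 1) := by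
    have h3 : K₁ < 3 * (K₁ / 3 + 1) := by omega
    have : (K₁ : ℝ) < ((3 * (K₁ / 3 + 1) : ℕ) : ℝ) := by exact_mod_cast h3
    push_cast at this
    push_cast
    linarith
  refine core_final K₁ (K₁ / 3) hK hMR (n : ℝ) D A K X y (nu x₃) (rho x₃) _ hnD hD5 hA hAK hKdef
    hK432 hydef hXdef hy0 hyK hlow ?_
  have e2 : 20 / (K₁ : ℝ) * Real.exp y =
      12 / (K₁ : ℝ) * Real.exp y + 4 / (K₁ : ℝ) * Real.exp y + 4 / (K₁ : ℝ) * Real.exp y := by
    field_simp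
    ring
  rw [e2]
  linarith

end Vale.Agent.Lib.P197T
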