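import Vale.Agent.Lib.P197T.EvenMN

/-!
# P197T: the dimensions of the family (blueprint Sec A3)
-/

open Equiv Finset

namespace Vale.Agent.Lib.P197T

open Vale.Agent.Lib.P197 Vale.Agent.Lib.P197W Vale.Agent.Lib.P197X

/-- The dimension of `AF m a b`, as the value of the Frobenius sum at the identity. -/
noncomputable def ddim (m a b : ℕ) : ℝ :=
  (frobF (m + b) (AF m a b) (1 : Perm (Fin (NN m + a + b))) : ℝ)

theorem exists_fillingAF (m a b n : ℕ) (hm : 1 ≤ m) (hn : NN m + a + b = n) :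
    Nonempty (Filling n (AF m a b)) :=
  exists_filling n _ (by rw [card_AF m a b hm, hn])

theorem ff_eq_ddim {n : ℕ} (m a b : ℕ) (hm : 1 ≤ m) (hn : NN m + a + b = n)
    (T : Filling n (AF m a b)) : (ff T : ℝ) = ddim m a b := by
  subst hn
  have h := ff_rr_eq_frobF T (m + b) (le_of_eq (colLen_AF_zero m a b hm)) 1
  rw [rr_one, mul_one] at h
  exact h

theorem ddim_pos (m a b : ℕ) (hm : 1 ≤ m) : 0 < ddim m a b := by
  obtain ⟨T⟩ := exists_fillingAF m a b _ hm rfl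
  rw [← ff_eq_ddim m a b hm rfl T]
  exact_mod_cast ff_pos T

/-- The Frobenius sum at `π` with any number of rows (`ff_rr_eq_frobF`). -/
theorem frobF_eq_mul_rr {n : ℕ} (m a b N : ℕ) (hm : 1 ≤ m) (hN : m + b ≤ N) (hn : NN m + a + b = n)
    (T : Filling n (AF m a b)) (π : Perm (Fin n)) :
    (frobF N (AF m a b) π : ℝ) = ddim m a b * rr T π := by
  rw [← ff_eq_ddim m a b hm hn T]
  exact (ff_rr_eq_frobF T N ((le_of_eq (colLen_AF_zero m a b hm)).trans hN) π).symm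

/-- Conjugate diagrams have the same dimension (`rr_tFill` and `rr_norm`). -/
theorem ddim_symm (m a b : ℕ) (hm : 1 ≤ m) : ddim m a b = ddim m b a := by
  obtain ⟨T⟩ := exists_fillingAF m a b _ hm rfl
  have hcast : ∀ (μ' : YoungDiagram) (_ : μ' = AF m b a) (T' : Filling (NN m + a + b) μ'),
      (ff T' : ℝ) = ddim m b a := by
    intro μ' hμ T'
    subst hμ
    exact ff_eq_ddim m b a hm (by omega) T'
  rw [← ff_eq_ddim m a b hm rfl T, ← hcast _ (transpose_AF m a b) (tFill T)]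
  have hS : ∑ π : Perm (Fin (NN m + a + b)), (rr (tFill T) π) ^ 2 =
      ∑ π : Perm (Fin (NN m + a + b)), (rr T π) ^ 2 := by
    refine Finset.sum_congr rfl fun π _ => ?_
    rw [rr_tFill]
    have hs : (sgnZ π : ℝ) * (sgnZ π : ℝ) = 1 := by
      have := sgnZ_mul_sgnZ_self π
      exact_mod_cast this
    calc ((sgnZ π : ℝ) * rr T π) ^ 2 = ((sgnZ π : ℝ) * (sgnZ π : ℝ)) * rr T π ^ 2 := by ring
      _ = rr T π ^ 2 := by rw [hs, one_mul]
  have h1 := rr_norm T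
  have h2 := rr_norm (tFill T)
  rw [hS] at h2
  have hne : (((NN m + a + b).factorial : ℕ) : ℝ)⁻¹ * ∑ π : Perm (Fin (NN m + a + b)), (rr T π) ^ 2
      ≠ 0 := by
    intro h0
    rw [mul_assoc, h0, mul_zero] at h1
    exact zero_ne_one h1
  have h3 : (ff T : ℝ) ^ 2 = (ff (tFill T) : ℝ) ^ 2 := by
    refine mul_right_cancel₀ hne ?_
    rw [← mul_assoc, ← mul_assoc, h1, h2]
  exact (sq_eq_sq₀ (Nat.cast_nonneg _) (Nat.cast_nonneg _)).1 h3

/-- The dimension as a Vandermonde quotient (`frobF_formula` at the identity). -/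
theorem ddim_formula (m a b : ℕ) (hm : 1 ≤ m) :
    ddim m a b = dimX (NN m + a + b) (betaZ (m + b) (AF m a b)) := by
  unfold ddim
  have hc : (AF m a b).card = NN m + a + b := card_AF m a b hm
  have hN : (AF m a b).colLen 0 ≤ m + b := by rw [colLen_AF_zero m a b hm]
  rw [frobF_formula (m + b) hc hN (1 : Perm (Fin (NN m + a + b)))]
  have hinv : P197.invOn (m + b) (1 : Perm (Fin (NN m + a + b))) = {fun x => absurd x.2 (by simp)} := by
    ext φ
    simp only [P197.invOn, mem_filter, mem_univ, true_and, mem_singleton]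
    constructor
    · intro _
      funext x
      exact absurd x.2 (by simp)
    · intro _ x
      exact absurd x.2 (by simp)
  rw [hinv, Finset.sum_singleton]
  have hsp : sp (1 : Perm (Fin (NN m + a + b))) = 0 := by simp [sp]
  rw [hsp, Nat.sub_zero]
  have hcont : ∀ (φ : {x // x ∈ (1 : Perm (Fin (NN m + a + b))).support} → Fin (m + b))
      (i : Fin (m + b)), contOn φ i = 0 := by
    intro φ i
    simp only [contOn]
    have : (univ.filter fun x => φ x = i) = ∅ := by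
      ext x
      exact absurd x.2 (by simp)
    rw [this]
    simp
  congr 1
  funext i
  rw [hcont]
  simp [betaZ]

private lemma vdm_succ {k : ℕ} (x : Fin (k + 1) → ℤ) :
    vdm x = (∏ j : Fin k, (x 0 - x j.succ)) * vdm (fun j : Fin k => x j.succ) := by
  unfold vdm
  rw [Fin.prod_univ_succ]
  congr 1
  · rw [Fin.prod_Ioi_zero]
  · refine Finset.prod_congr rfl fun i _ => ?_
    rw [Fin.prod_Ioi_succ]

/-- The quotient with the first bead split off. -/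
private lemma dimX_split (N k f : ℕ) (h : N = k + 1) (X : ℕ → ℤ) (hX : ∀ i, 0 ≤ X i) :
    dimX f (fun i : Fin N => X i) =
      (f.factorial : ℝ) * (((∏ j ∈ range k, (X 0 - X (j + 1)) : ℤ)) : ℝ) *
          ((vdm (fun j : Fin k => X (j + 1)) : ℤ) : ℝ) /
        (((X 0).toNat.factorial : ℝ) * ∏ j : Fin k, (((X (j + 1)).toNat.factorial : ℕ) : ℝ)) := by
  subst h
  unfold dimX
  rw [if_pos (fun i => hX _)]
  rw [vdm_succ, Fin.prod_univ_succ]
  have e1 : (∏ j : Fin k, ((fun i : Fin (k + 1) => X i) 0 - (fun i : Fin (k + 1) => X i) j.succ)) =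
      ∏ j ∈ range k, (X 0 - X (j + 1)) := by
    rw [← Fin.prod_univ_eq_prod_range (fun j => X 0 - X (j + 1)) k]
    refine Finset.prod_congr rfl fun j _ => ?_
    simp
  rw [e1]
  push_cast
  simp only [Fin.val_succ, Fin.val_zero]
  rw [mul_assoc]

/-- Telescoping along the staircase part. -/
private lemma tele_one (c : ℤ) (k : ℕ) :
    (∏ j ∈ range k, (c + 2 + 2 * (j : ℤ))) * c = (∏ j ∈ range k, (c + 2 * (j : ℤ))) * (c + 2 * k) := by
  induction k with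
  | zero => simp
  | succ k ih =>
    rw [Finset.prod_range_succ, Finset.prod_range_succ]
    push_cast
    linear_combination (c + 2 + 2 * (k : ℤ)) * ih

/-- Telescoping along the leg. -/
private lemma tele_two (c : ℤ) (b : ℕ) :
    (∏ x ∈ range b, (c + 2 + (x : ℤ))) * (c * (c + 1)) =
      (∏ x ∈ range b, (c + (x : ℤ))) * ((c + b) * (c + b + 1)) := by
  induction b with
  | zero => simp
  | succ b ih =>
    rw [Finset.prod_range_succ, Finset.prod_range_succ]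
    push_cast
    linear_combination (c + 2 + (b : ℤ)) * ih

/-- The beads of `AF`. -/
private def XX (m a b : ℕ) (i : ℕ) : ℤ := ((AF m a b).rowLen i : ℤ) + ((m + b - 1 - i : ℕ) : ℤ)

private def RR (m b : ℕ) (j : ℕ) : ℤ :=
  (((if j + 1 < m then m - (j + 1) else if j + 1 < m + b then 1 else 0 : ℕ)) : ℤ) +
    ((m + b - 1 - (j + 1) : ℕ) : ℤ)

private lemma XX_succ (m a b j : ℕ) (hm : 1 ≤ m) : XX m a b (j + 1) = RR m b j := by
  unfold XX RR
  rw [rowLen_AF_pos m a b (j + 1) hm (by omega)]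

private lemma XX_zero (m a b : ℕ) (hm : 1 ≤ m) : XX m a b 0 = 2 * (m : ℤ) + a + b - 1 := by
  unfold XX
  rw [rowLen_AF_zero m a b hm]
  have : ((m + b - 1 - 0 : ℕ) : ℤ) = (m : ℤ) + b - 1 := by omega
  rw [this]
  push_cast
  ring

private lemma XX_nonneg (m a b i : ℕ) : 0 ≤ XX m a b i := by
  unfold XX
  positivity

private lemma prod_split (m a b : ℕ) (hm : 1 ≤ m) :
    ∏ j ∈ range (m - 1 + b), ((2 * (m : ℤ) + a + b - 1) - RR m b j) =
      (∏ j ∈ range (m - 1), ((a : ℤ) + 2 + 2 * (j : ℤ))) *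
        ∏ x ∈ range b, ((2 * (m : ℤ) + a - 1) + (x : ℤ)) := by
  rw [Finset.prod_range_add]
  congr 1
  · refine Finset.prod_congr rfl fun j hj => ?_
    have hj' := Finset.mem_range.1 hj
    unfold RR
    rw [if_pos (by omega)]
    have e1 : ((m - (j + 1) : ℕ) : ℤ) = (m : ℤ) - j - 1 := by omega
    have e2 : ((m + b - 1 - (j + 1) : ℕ) : ℤ) = (m : ℤ) + b - j - 2 := by omega
    rw [e1, e2]
    ring
  · refine Finset.prod_congr rfl fun x hx => ?_
    have hx' := Finset.mem_range.1 hx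
    unfold RR
    rw [if_neg (by omega), if_pos (by omega)]
    have e2 : ((m + b - 1 - (m - 1 + x + 1) : ℕ) : ℤ) = (b : ℤ) - x - 1 := by omega
    rw [e2]
    push_cast
    ring

/-- **Ratio along the first row**. -/
theorem ddim_row (m a b : ℕ) (hm : 1 ≤ m) :
    ddim m a b * (((2 * m + a + b + 1 : ℕ) : ℝ) - 2) * ((NN m + a + b + 2 : ℕ) : ℝ) *
        (((NN m + a + b + 2 : ℕ) : ℝ) - 1) =
      ddim m (a + 2) b * ((a : ℝ) + 2) * ((a : ℝ) + 2 * m - 1) * ((2 * m + a + b + 1 : ℕ) : ℝ) := by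
  obtain ⟨k, hk⟩ : ∃ k, k = m - 1 + b := ⟨_, rfl⟩
  have hNk : m + b = k + 1 := by omega
  have hform : ∀ a' : ℕ, ddim m a' b =
      ((NN m + a' + b).factorial : ℝ) *
        (((∏ j ∈ range k, ((2 * (m : ℤ) + a' + b - 1) - RR m b j) : ℤ)) : ℝ) *
          ((vdm (fun j : Fin k => RR m b (j : ℕ)) : ℤ) : ℝ) /
        (((2 * m + a' + b - 1).factorial : ℝ) *
          ∏ j : Fin k, (((RR m b (j : ℕ)).toNat.factorial : ℕ) : ℝ)) := by
    intro a'
    rw [ddim_formula m a' b hm]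
    have e : betaZ (m + b) (AF m a' b) = fun i : Fin (m + b) => XX m a' b i := by
      funext i
      rfl
    rw [e, dimX_split (m + b) k _ hNk (XX m a' b) (XX_nonneg m a' b)]
    have e0 : (XX m a' b 0).toNat = 2 * m + a' + b - 1 := by
      rw [XX_zero m a' b hm]
      omega
    rw [e0]
    have e1 : (∏ j ∈ range k, (XX m a' b 0 - XX m a' b (j + 1))) =
        ∏ j ∈ range k, ((2 * (m : ℤ) + a' + b - 1) - RR m b j) := by
      refine Finset.prod_congr rfl fun j _ => ?_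
      rw [XX_zero m a' b hm, XX_succ m a' b j hm]
    rw [e1]
    have e2 : (fun j : Fin k => XX m a' b ((j : ℕ) + 1)) = fun j : Fin k => RR m b (j : ℕ) := by
      funext j
      rw [XX_succ m a' b j hm]
    rw [e2]
    have e3 : (∏ j : Fin k, (((XX m a' b ((j : ℕ) + 1)).toNat.factorial : ℕ) : ℝ)) =
        ∏ j : Fin k, (((RR m b (j : ℕ)).toNat.factorial : ℕ) : ℝ) := by
      refine Finset.prod_congr rfl fun j _ => ?_
      rw [XX_succ m a' b j hm]
    rw [e3]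
  rw [hform a, hform (a + 2)]
  rw [hk, prod_split m a b hm, prod_split m (a + 2) b hm, ← hk]
  set W : ℝ := ((vdm (fun j : Fin k => RR m b (j : ℕ)) : ℤ) : ℝ) with hW
  set F : ℝ := ∏ j : Fin k, (((RR m b (j : ℕ)).toNat.factorial : ℕ) : ℝ) with hF
  have hFpos : F ≠ 0 := by
    rw [hF]
    exact Finset.prod_ne_zero_iff.2 fun j _ => by positivity
  -- the two telescoping identities
  have h1 := tele_one ((a : ℤ) + 2) (m - 1)
  have h2 := tele_two (2 * (m : ℤ) + a - 1) b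
  have hmc : ((m - 1 : ℕ) : ℤ) = (m : ℤ) - 1 := by omega
  rw [hmc] at h1
  have h1' : (∏ j ∈ range (m - 1), ((((a + 2 : ℕ) : ℤ)) + 2 + 2 * (j : ℤ))) * ((a : ℤ) + 2) =
      (∏ j ∈ range (m - 1), ((a : ℤ) + 2 + 2 * (j : ℤ))) * ((a : ℤ) + 2 + 2 * ((m : ℤ) - 1)) := by
    push_cast
    exact h1
  have h2' : (∏ x ∈ range b, ((2 * (m : ℤ) + ((a + 2 : ℕ) : ℤ) - 1) + (x : ℤ))) *
      ((2 * (m : ℤ) + a - 1) * ((2 * (m : ℤ) + a - 1) + 1)) =
      (∏ x ∈ range b, ((2 * (m : ℤ) + a - 1) + (x : ℤ))) *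
        (((2 * (m : ℤ) + a - 1) + b) * ((2 * (m : ℤ) + a - 1) + b + 1)) := by
    rw [← h2]
    congr 1
    refine Finset.prod_congr rfl fun x _ => ?_
    push_cast
    ring
  set A2 : ℤ := ∏ j ∈ range (m - 1), ((((a + 2 : ℕ) : ℤ)) + 2 + 2 * (j : ℤ)) with hA2
  set A1 : ℤ := ∏ j ∈ range (m - 1), ((a : ℤ) + 2 + 2 * (j : ℤ)) with hA1
  set B2 : ℤ := ∏ x ∈ range b, ((2 * (m : ℤ) + ((a + 2 : ℕ) : ℤ) - 1) + (x : ℤ)) with hB2
  set B1 : ℤ := ∏ x ∈ range b, ((2 * (m : ℤ) + a - 1) + (x : ℤ)) with hB1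
  have h1R : (A2 : ℝ) * ((a : ℝ) + 2) = (A1 : ℝ) * ((a : ℝ) + 2 + 2 * ((m : ℝ) - 1)) := by
    exact_mod_cast h1'
  have h2R : (B2 : ℝ) * ((2 * (m : ℝ) + a - 1) * ((2 * (m : ℝ) + a - 1) + 1)) =
      (B1 : ℝ) * (((2 * (m : ℝ) + a - 1) + b) * ((2 * (m : ℝ) + a - 1) + b + 1)) := by
    exact_mod_cast h2'
  obtain ⟨T, hT⟩ : ∃ T, T = 2 * m + a + b - 1 := ⟨_, rfl⟩
  have hT1 : 2 * m + (a + 2) + b - 1 = T + 2 := by omega
  have hT2 : 2 * m + a + b + 1 = T + 2 := by omega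
  have hn : NN m + (a + 2) + b = NN m + a + b + 2 := by omega
  obtain ⟨n, hn0⟩ : ∃ n, n = NN m + a + b := ⟨_, rfl⟩
  rw [hn, ← hn0, hT1, hT2, ← hT]
  have hTR : (T : ℝ) = 2 * (m : ℝ) + a + b - 1 := by
    have : T + 1 = 2 * m + a + b := by omega
    have h3 : ((T + 1 : ℕ) : ℝ) = ((2 * m + a + b : ℕ) : ℝ) := by rw [this]
    push_cast at h3
    linarith
  have hf1 : ((T + 2).factorial : ℝ) = ((T : ℝ) + 2) * ((T : ℝ) + 1) * (T.factorial : ℝ) := by
    rw [Nat.factorial_succ, Nat.factorial_succ]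
    push_cast
    ring
  have hf2 : ((n + 2).factorial : ℝ) = ((n : ℝ) + 2) * ((n : ℝ) + 1) * (n.factorial : ℝ) := by
    rw [Nat.factorial_succ, Nat.factorial_succ]
    push_cast
    ring
  rw [hf1, hf2]
  have hTf : (T.factorial : ℝ) ≠ 0 := by positivity
  have hnf : (n.factorial : ℝ) ≠ 0 := by positivity
  have hT0 : ((T : ℝ) + 2) ≠ 0 := by positivity
  have hT01 : ((T : ℝ) + 1) ≠ 0 := by positivity
  have hc : (2 * (m : ℝ) + a) ≠ 0 := by
    have : (1 : ℝ) ≤ m := by exact_mod_cast hm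
    positivity
  -- key identity
  have key : (A2 : ℝ) * (B2 : ℝ) * ((a : ℝ) + 2) * ((a : ℝ) + 2 * m - 1) =
      (A1 : ℝ) * (B1 : ℝ) * (T : ℝ) * ((T : ℝ) + 1) := by
    apply mul_right_cancel₀ hc
    have e1 : ((a : ℝ) + 2 + 2 * ((m : ℝ) - 1)) = 2 * (m : ℝ) + a := by ring
    rw [e1] at h1R
    have e2 : ((2 * (m : ℝ) + a - 1) + 1) = 2 * (m : ℝ) + a := by ring
    rw [e2] at h2R
    have e3 : ((2 * (m : ℝ) + a - 1) + b) = (T : ℝ) := by rw [hTR]; ring
    rw [e3] at h2R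
    have e4 : ((a : ℝ) + 2 * m - 1) = 2 * (m : ℝ) + a - 1 := by ring
    rw [e4]
    calc (A2 : ℝ) * (B2 : ℝ) * ((a : ℝ) + 2) * (2 * (m : ℝ) + a - 1) * (2 * (m : ℝ) + a)
        = ((A2 : ℝ) * ((a : ℝ) + 2)) * ((B2 : ℝ) * ((2 * (m : ℝ) + a - 1) * (2 * (m : ℝ) + a))) := by
          ring
      _ = ((A1 : ℝ) * (2 * (m : ℝ) + a)) * ((B1 : ℝ) * ((T : ℝ) * ((T : ℝ) + 1))) := by
          rw [h1R, h2R]
      _ = (A1 : ℝ) * (B1 : ℝ) * (T : ℝ) * ((T : ℝ) + 1) * (2 * (m : ℝ) + a) := by ring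
  push_cast
  have hA : ((A1 * B1 : ℤ) : ℝ) = (A1 : ℝ) * (B1 : ℝ) := by push_cast; ring
  have hA' : ((A2 * B2 : ℤ) : ℝ) = (A2 : ℝ) * (B2 : ℝ) := by push_cast; ring
  field_simp
  linear_combination (-(W * ((n : ℝ) + 1))) * key

theorem ddim_col (m a b : ℕ) (hm : 1 ≤ m) :
    ddim m a b * (((2 * m + a + b + 1 : ℕ) : ℝ) - 2) * ((NN m + a + b + 2 : ℕ) : ℝ) *
        (((NN m + a + b + 2 : ℕ) : ℝ) - 1) =
      ddim m a (b + 2) * ((b : ℝ) + 2) * ((b : ℝ) + 2 * m - 1) * ((2 * m + a + b + 1 : ℕ) : ℝ) := by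
  have h := ddim_row m b a hm
  rw [ddim_symm m b a hm, ddim_symm m (b + 2) a hm] at h
  have e1 : 2 * m + b + a + 1 = 2 * m + a + b + 1 := by omega
  have e2 : NN m + b + a + 2 = NN m + a + b + 2 := by omega
  rw [e1, e2] at h
  exact h

/-- the scalar estimate behind one step -/
private theorem step_scalar (m a b : ℕ) (hm : 10 ≤ m) (ha : a + 2 ≤ 5 * m) (hb : b ≤ 5 * m) :
    ((a : ℝ) + 2) * ((a : ℝ) + 2 * m - 1) * ((2 * m + a + b + 1 : ℕ) : ℝ) * (m : ℝ) ^ 2 ≤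
      300 * ((((2 * m + a + b + 1 : ℕ) : ℝ) - 2) * ((NN m + a + b + 2 : ℕ) : ℝ) *
        (((NN m + a + b + 2 : ℕ) : ℝ) - 1)) := by
  have hm' : (10 : ℝ) ≤ m := by exact_mod_cast hm
  have ha' : (a : ℝ) + 2 ≤ 5 * m := by exact_mod_cast ha
  have ha0 : (0 : ℝ) ≤ a := Nat.cast_nonneg a
  have hb0 : (0 : ℝ) ≤ b := Nat.cast_nonneg b
  set g : ℝ := ((2 * m + a + b + 1 : ℕ) : ℝ) with hg
  have hg' : g = 2 * m + a + b + 1 := by rw [hg]; push_cast; ring
  have hg21 : (21 : ℝ) ≤ g := by rw [hg']; linarith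
  set n2 : ℝ := ((NN m + a + b + 2 : ℕ) : ℝ) with hn2
  have hNN : (2 : ℝ) * (NN m : ℝ) = m * (m + 1) := by
    have h : 2 * NN m = m * (m + 1) := Nat.two_mul_div_two_of_even (Nat.even_mul_succ_self m)
    exact_mod_cast h
  have hn2' : n2 = NN m + a + b + 2 := by rw [hn2]; push_cast; ring
  have hn2low : (m : ℝ) ^ 2 / 2 ≤ n2 - 1 := by
    have : (0 : ℝ) ≤ (NN m : ℝ) := Nat.cast_nonneg _
    rw [hn2']
    nlinarith
  have h1 : ((a : ℝ) + 2) * ((a : ℝ) + 2 * m - 1) ≤ 35 * (m : ℝ) ^ 2 := by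
    have h2 : (a : ℝ) + 2 * m - 1 ≤ 7 * m := by linarith
    have h3 : (0 : ℝ) ≤ (a : ℝ) + 2 * m - 1 := by linarith
    calc ((a : ℝ) + 2) * ((a : ℝ) + 2 * m - 1) ≤ (5 * m) * (7 * m) :=
          mul_le_mul ha' h2 h3 (by linarith)
      _ = 35 * (m : ℝ) ^ 2 := by ring
  have h4 : g ≤ 2 * (g - 2) := by linarith
  have h5 : (m : ℝ) ^ 2 / 2 * ((m : ℝ) ^ 2 / 2) ≤ n2 * (n2 - 1) := by
    have h6 : (m : ℝ) ^ 2 / 2 ≤ n2 := by linarith
    exact mul_le_mul h6 hn2low (by positivity) (by linarith [sq_nonneg (m : ℝ)])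
  have hg2 : 0 ≤ g - 2 := by linarith
  have hm2 : (0 : ℝ) ≤ (m : ℝ) ^ 2 := sq_nonneg _
  calc ((a : ℝ) + 2) * ((a : ℝ) + 2 * m - 1) * g * (m : ℝ) ^ 2
      ≤ (35 * (m : ℝ) ^ 2) * (2 * (g - 2)) * (m : ℝ) ^ 2 := by
        apply mul_le_mul_of_nonneg_right _ hm2
        exact mul_le_mul h1 h4 (by linarith) (by positivity)
    _ = 280 * ((g - 2) * ((m : ℝ) ^ 2 / 2 * ((m : ℝ) ^ 2 / 2))) := by ring
    _ ≤ 280 * ((g - 2) * (n2 * (n2 - 1))) := by
        apply mul_le_mul_of_nonneg_left _ (by norm_num)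
        exact mul_le_mul_of_nonneg_left h5 hg2
    _ ≤ 300 * ((g - 2) * n2 * (n2 - 1)) := by
        have h7 : 0 ≤ (g - 2) * n2 * (n2 - 1) := by
          have : 0 ≤ n2 - 1 := by linarith [sq_nonneg (m : ℝ)]
          have h8 : 0 ≤ n2 := by linarith
          positivity
        nlinarith

/-- the positivity of the denominator of one step -/
private theorem step_den_pos (m a b : ℕ) (hm : 10 ≤ m) :
    0 < ((((2 * m + a + b + 1 : ℕ) : ℝ) - 2) * ((NN m + a + b + 2 : ℕ) : ℝ) *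
        (((NN m + a + b + 2 : ℕ) : ℝ) - 1)) := by
  have hm' : (10 : ℝ) ≤ m := by exact_mod_cast hm
  have ha0 : (0 : ℝ) ≤ a := Nat.cast_nonneg a
  have hb0 : (0 : ℝ) ≤ b := Nat.cast_nonneg b
  have h0 : (0 : ℝ) ≤ (NN m : ℝ) := Nat.cast_nonneg _
  have h1 : 0 < (((2 * m + a + b + 1 : ℕ) : ℝ) - 2) := by
    push_cast; linarith
  have h2 : 0 < ((NN m + a + b + 2 : ℕ) : ℝ) := by
    push_cast; linarith
  have h3 : 0 < (((NN m + a + b + 2 : ℕ) : ℝ) - 1) := by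
    push_cast; linarith
  positivity

/-- One step in the first row costs `300 / m²`. -/
theorem ddim_row_le (m a b : ℕ) (hm : 10 ≤ m) (ha : a + 2 ≤ 5 * m) (hb : b ≤ 5 * m) :
    ddim m a b ≤ ddim m (a + 2) b * (300 / (m : ℝ) ^ 2) := by
  have hm1 : 1 ≤ m := by omega
  have hrow := ddim_row m a b hm1
  have hsc := step_scalar m a b hm ha hb
  have hden := step_den_pos m a b hm
  have hd := (ddim_pos m (a + 2) b hm1).le
  have hm2 : (0 : ℝ) < (m : ℝ) ^ 2 := by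
    have : (0 : ℝ) < m := by exact_mod_cast (by omega : 0 < m)
    positivity
  set Y : ℝ := ((((2 * m + a + b + 1 : ℕ) : ℝ) - 2) * ((NN m + a + b + 2 : ℕ) : ℝ) *
        (((NN m + a + b + 2 : ℕ) : ℝ) - 1)) with hY
  set X : ℝ := ((a : ℝ) + 2) * ((a : ℝ) + 2 * m - 1) * ((2 * m + a + b + 1 : ℕ) : ℝ) with hX
  have h1 : ddim m a b * Y = ddim m (a + 2) b * X := by
    rw [hY, hX]
    linear_combination hrow
  rw [← mul_div_assoc, le_div_iff₀ hm2]
  have h2 : ddim m a b * (m : ℝ) ^ 2 * Y ≤ (ddim m (a + 2) b * 300) * Y := by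
    calc ddim m a b * (m : ℝ) ^ 2 * Y = ddim m (a + 2) b * (X * (m : ℝ) ^ 2) := by
          linear_combination (m : ℝ) ^ 2 * h1
      _ ≤ ddim m (a + 2) b * (300 * Y) := mul_le_mul_of_nonneg_left hsc hd
      _ = (ddim m (a + 2) b * 300) * Y := by ring
  exact le_of_mul_le_mul_right h2 hden

theorem ddim_col_le (m a b : ℕ) (hm : 10 ≤ m) (ha : a ≤ 5 * m) (hb : b + 2 ≤ 5 * m) :
    ddim m a b ≤ ddim m a (b + 2) * (300 / (m : ℝ) ^ 2) := by
  have hm1 : 1 ≤ m := by omega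
  rw [ddim_symm m a b hm1, ddim_symm m a (b + 2) hm1]
  exact ddim_row_le m b a hm hb ha

theorem ddim_row_even (m a b L : ℕ) (hm : 10 ≤ m) (ha : a ≤ 5 * m) (hb : b ≤ 5 * m) (hL : Even L)
    (hLa : L ≤ a) : ddim m (a - L) b ≤ ddim m a b * (300 / (m : ℝ) ^ 2) ^ (L / 2) := by
  obtain ⟨k, rfl⟩ := hL
  have hm1 : 1 ≤ m := by omega
  have hc : (0 : ℝ) ≤ 300 / (m : ℝ) ^ 2 := by positivity
  have e : (k + k) / 2 = k := by omega
  rw [e]
  induction k with
  | zero => simp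
  | succ k ih =>
    have h1 := ih (by omega) (by omega)
    have e1 : a - (k + 1 + (k + 1)) + 2 = a - (k + k) := by omega
    have h2 := ddim_row_le m (a - (k + 1 + (k + 1))) b hm (by omega) hb
    rw [e1] at h2
    calc ddim m (a - (k + 1 + (k + 1))) b
        ≤ ddim m (a - (k + k)) b * (300 / (m : ℝ) ^ 2) := h2
      _ ≤ (ddim m a b * (300 / (m : ℝ) ^ 2) ^ k) * (300 / (m : ℝ) ^ 2) :=
          mul_le_mul_of_nonneg_right h1 hc
      _ = ddim m a b * (300 / (m : ℝ) ^ 2) ^ (k + 1) := by rw [pow_succ]; ring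

theorem ddim_col_even (m a b L : ℕ) (hm : 10 ≤ m) (ha : a ≤ 5 * m) (hb : b ≤ 5 * m) (hL : Even L)
    (hLb : L ≤ b) : ddim m a (b - L) ≤ ddim m a b * (300 / (m : ℝ) ^ 2) ^ (L / 2) := by
  have hm1 : 1 ≤ m := by omega
  rw [ddim_symm m a (b - L) hm1, ddim_symm m a b hm1]
  exact ddim_row_even m b a L hm hb ha hL hLb

end Vale.Agent.Lib.P197T
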