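import Vale.Agent.Lib.P197T.WindowE

/-!
# P197T: the double peeling step and the step which keeps the arms (blueprint Sec 4)
-/

open Equiv Finset

namespace Vale.Agent.Lib.P197T

open Vale.Agent.Lib.P197 Vale.Agent.Lib.P197W Vale.Agent.Lib.P197X

/-- **Double peeling.** Both arms `a` shrink to an even `c < 2 h`. -/
theorem double_peel (m a h : ℕ) (hh : 1 ≤ h) (ν : YoungDiagram) (P : Multiset ℕ)
    (hP : P ≤ colsOf ν) (hb : ∀ b ∈ P, b ≤ h) (hm : 2000 * h ≤ m) (ha : Even a) (ha5 : a ≤ 5 * m)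
    (hs : 40 * h * m ≤ P.sum) :
    ∃ t c B₁ B₂, 7 * h ≤ t ∧ t ≤ 11 * h ∧ Even c ∧ c < 2 * h ∧ B₁ + B₂ ≤ P ∧
      B₁.sum + c = stairS m t + a ∧ B₂.sum + c = stairS (m - t) t + a ∧
      (KP (AF (m - t - t) c c) (AF (m - t - t) c c) (ofCols (colsOf ν - (B₁ + B₂))) →
        KP (AF m a a) (AF m a a) ν) := by
  have hpos : ∀ b ∈ P, 1 ≤ b := fun b hb' => pos_of_mem_colsOf (Multiset.mem_of_le hP hb')
  have hcardP : P.sum ≤ h * Multiset.card P := by
    have := Multiset.sum_le_card_nsmul P h hb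
    simpa [mul_comm] using this
  have hc : 10000 * h ≤ Multiset.card P := by
    have h1 : h * (40 * m) ≤ h * Multiset.card P := by
      calc h * (40 * m) = 40 * h * m := by ring
        _ ≤ P.sum := hs
        _ ≤ _ := hcardP
    have h2 := Nat.le_of_mul_le_mul_left h1 (by omega)
    omega
  obtain ⟨q, lo, hq1, hqh, hlo, hwin⟩ :=
    window_even h hh P (fun b hb' => ⟨hpos b hb', hb b hb'⟩) hc
  -- the number of rows
  obtain ⟨j, hj⟩ : ∃ j, j = (7 * h + 4 * q - 1) / (4 * q) := ⟨_, rfl⟩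
  have hq4 : 0 < 4 * q := by omega
  have hj1 : 7 * h + 4 * q - 1 < (j + 1) * (4 * q) := by
    have := Nat.lt_succ_iff.mpr (le_refl ((7 * h + 4 * q - 1) / (4 * q)))
    exact (Nat.div_lt_iff_lt_mul hq4).mp (by simp [hj])
  have hj2 : j * (4 * q) ≤ 7 * h + 4 * q - 1 := by
    rw [hj]; exact Nat.div_mul_le_self _ _
  obtain ⟨t, ht⟩ : ∃ t, t = 2 * (2 * q) * j := ⟨_, rfl⟩
  have ht1 : 7 * h ≤ t := by
    have e : (j + 1) * (4 * q) = t + 4 * q := by rw [ht]; ring
    rw [e] at hj1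
    omega
  have ht2 : t ≤ 11 * h := by
    have e : j * (4 * q) = t := by rw [ht]; ring
    rw [e] at hj2
    omega
  obtain ⟨r, hr⟩ : ∃ r, m = t + t + r := ⟨m - t - t, by omega⟩
  have hm1 : m - t = t + r := by omega
  have hm2 : m - t - t = r := by omega
  have hr1 : 1 ≤ r := by omega
  have htm : t ≤ m := by omega
  obtain ⟨S1, hS1d⟩ : ∃ S1, S1 = stairS m t := ⟨_, rfl⟩
  obtain ⟨S2, hS2d⟩ : ∃ S2, S2 = stairS (m - t) t := ⟨_, rfl⟩
  have hS1 : 2 * S1 = t * (3 * t + 2 * r + 1) := by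
    rw [hS1d, two_stairS m t htm]
    congr 1
    omega
  have hS2 : 2 * S2 = t * (t + 2 * r + 1) := by
    rw [hS2d, two_stairS (m - t) t (by omega)]
    congr 1
    omega
  have hS12 : S1 = S2 + t * t := by
    have : 2 * S1 = 2 * (S2 + t * t) := by
      rw [Nat.mul_add, hS1, hS2]; ring
    omega
  have hd1 : 2 * q ∣ S1 := by
    rw [hS1d, ht]
    exact dvd_stairS m (2 * q) j (by rw [← ht]; exact htm)
  have hd2 : 2 * q ∣ S2 := by
    have e := dvd_stairS (m - t) (2 * q) j (by rw [← ht]; omega)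
    rw [hS2d, ht]
    rw [← ht] at e ⊢
    exact e
  -- the numerics
  obtain ⟨U, hU⟩ : ∃ U, U = h * m := ⟨_, rfl⟩
  obtain ⟨V, hV⟩ : ∃ V, V = h * h := ⟨_, rfl⟩
  obtain ⟨W, hW⟩ : ∃ W, W = h * r := ⟨_, rfl⟩
  have hUV : 2000 * V ≤ U := by
    rw [hU, hV]
    calc 2000 * (h * h) = h * (2000 * h) := by ring
      _ ≤ h * m := Nat.mul_le_mul_left _ hm
  have hmU : m ≤ U := by
    rw [hU]
    exact Nat.le_mul_of_pos_left m (by omega)
  have hUW : U ≤ W + 22 * V := by
    rw [hU, hW, hV]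
    calc h * m ≤ h * (r + 22 * h) := Nat.mul_le_mul_left _ (by omega)
      _ = h * r + 22 * (h * h) := by ring
  have hS2lo : 14 * W ≤ 2 * S2 := by
    rw [hS2, hW]
    calc 14 * (h * r) = (7 * h) * (2 * r) := by ring
      _ ≤ t * (t + 2 * r + 1) := Nat.mul_le_mul ht1 (by omega)
  have hS1up : 2 * S1 ≤ 22 * U := by
    rw [hS1, hU]
    calc t * (3 * t + 2 * r + 1) ≤ (11 * h) * (2 * m) := Nat.mul_le_mul ht2 (by omega)
      _ = 22 * (h * m) := by ring
  have htt : 49 * V ≤ t * t := by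
    rw [hV]
    calc 49 * (h * h) = (7 * h) * (7 * h) := by ring
      _ ≤ t * t := Nat.mul_le_mul ht1 ht1
  have hh2 : h ^ 2 = V := by rw [hV]; ring
  have hs' : 40 * U ≤ P.sum := by
    rw [hU]
    calc 40 * (h * m) = 40 * h * m := by ring
      _ ≤ P.sum := hs
  rw [hh2] at hlo
  have hhU : 2000 * h ≤ U := by omega
  obtain ⟨Y, hY⟩ : ∃ Y, Y = S2 + a := ⟨_, rfl⟩
  obtain ⟨B₂, hB2P, hqB2, hevB2, hB2le, hB2lt, hex⟩ := hwin Y (by rw [hh2]; omega)
  obtain ⟨c, hcd⟩ : ∃ c, c = Y - B₂.sum := ⟨_, rfl⟩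
  have hB2c : B₂.sum + c = S2 + a := by omega
  have hclt : c < 2 * h := by omega
  have hcev : Even c := by
    have hS2ev : Even S2 := even_iff_two_dvd.2 (dvd_trans (Dvd.intro _ rfl) hd2)
    have hYev : Even Y := by rw [hY]; exact hS2ev.add ha
    rw [hcd]
    exact (Nat.even_sub hB2le).2 (iff_of_true hYev hevB2)
  have hqt : q ∣ t := ⟨4 * j, by rw [ht]; ring⟩
  obtain ⟨x, hx⟩ : ∃ x, x = t * t + B₂.sum := ⟨_, rfl⟩
  have hqx : q ∣ x := by
    rw [hx]
    exact dvd_add (Dvd.dvd.mul_right hqt t) hqB2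
  obtain ⟨B₁, hB12, hB1s⟩ := hex x hqx (by omega) (by rw [hh2]; omega)
  refine ⟨t, c, B₁, B₂, ht1, ht2, hcev, hclt, hB12, ?_, ?_, fun h0 => ?_⟩
  · rw [← hS1d]; omega
  · rw [← hS2d]; exact hB2c
  · have hbm : h * (m + a) ≤ 6 * U := by
      rw [hU]
      calc h * (m + a) ≤ h * (6 * m) := Nat.mul_le_mul_left _ (by omega)
        _ = 6 * (h * m) := by ring
    have hbm2 : h * (m - t + a) ≤ 6 * U := by
      refine le_trans (Nat.mul_le_mul_left _ ?_) hbm
      omega
    have hB1 : B₁ ≤ colsOf ν := (le_trans (Multiset.le_add_right _ _) hB12).trans hP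
    have hBB : B₁ + B₂ ≤ colsOf ν := hB12.trans hP
    have hν1 : colsOf (ofCols (colsOf ν - B₁)) = colsOf ν - B₁ :=
      colsOf_ofCols _ (fun c hc =>
        pos_of_mem_colsOf (Multiset.mem_of_le (Multiset.sub_le_self _ _) hc))
    have h2 : KP (AF (m - t) c a) (AF (m - t) c a) (ofCols (colsOf ν - B₁)) := by
      refine col_step (m - t) (m - t - t) c a c h hh (by omega) (by omega)
        (ofCols (colsOf ν - B₁)) B₂ ?_ (fun b hb' => hb b (Multiset.mem_of_le
          (le_trans (Multiset.le_add_left _ _) hB12) hb')) ?_ ?_ ?_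
      · rw [hν1]
        exact le_tsub_of_add_le_left hBB
      · have e : m - t - (m - t - t) = t := by omega
        rw [e, ← hS2d]
        exact hB2c
      · omega
      · have e : colsOf ν - B₁ - B₂ = colsOf ν - (B₁ + B₂) := tsub_tsub _ _ _
        rw [hν1, e]
        exact h0
    refine col_step m (m - t) a a c h hh (by omega) (by omega) ν B₁ hB1
      (fun b hb' => hb b (Multiset.mem_of_le (le_trans (Multiset.le_add_right _ _) hB12) hb'))
      ?_ ?_ (KP_swap h2)
    · have e : m - (m - t) = t := by omega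
      rw [e, ← hS1d]
      omega
    · omega

/-- Peeling with the same arms and an exactly given number of removed rows. -/
theorem peel_ms_c (m c t h : ℕ) (hh : 1 ≤ h) (ht : t ≤ m) (hmt : 1 ≤ m - t) (hc : c < t)
    (ν : YoungDiagram) (B : Multiset ℕ) (hB : B ≤ colsOf ν) (hBh : ∀ b ∈ B, b ≤ h)
    (hsum : B.sum = stairS m t) (hbig : h * (m + c) ≤ B.sum)
    (h0 : KP (AF (m - t) c c) (AF (m - t) c c) (ofCols (colsOf ν - B))) :
    KP (AF m c c) (AF m c c) ν := by
  have e : m - (m - t) = t := by omega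
  refine col_step m (m - t) c c c h hh hmt (by omega) ν B hB hBh ?_ hbig h0
  rw [e, hsum]

/-- Peeling with the same arms. `T` is a lower bound for the number of removed rows. -/
theorem peel_pool_c (m c h T : ℕ) (hh : 1 ≤ h) (ν : YoungDiagram) (P : Multiset ℕ)
    (hP : P ≤ colsOf ν) (hb : ∀ b ∈ P, b ≤ h) (hm : 2000 * h ≤ m) (hT : 3 * h ≤ T) (hT2 : T ≤ 17 * h)
    (hc : c < T) (hs : (T + 3 * h) * m ≤ P.sum) :
    ∃ t B, T ≤ t ∧ t ≤ T + 2 * h ∧ B ≤ P ∧ B.sum = stairS m t ∧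
      (KP (AF (m - t) c c) (AF (m - t) c c) (ofCols (colsOf ν - B)) →
        KP (AF m c c) (AF m c c) ν) := by
  have hpos : ∀ b ∈ P, 1 ≤ b := fun b hb' => pos_of_mem_colsOf (Multiset.mem_of_le hP hb')
  -- the pool has many elements
  have hcardP : P.sum ≤ h * Multiset.card P := by
    have := Multiset.sum_le_card_nsmul P h hb
    simpa [mul_comm] using this
  have hsix : 6 * h * m ≤ (T + 3 * h) * m := Nat.mul_le_mul_right m (by omega)
  have hc' : 10000 * h ≤ Multiset.card P := by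
    have h1 : h * (6 * m) ≤ h * Multiset.card P := by
      calc h * (6 * m) = 6 * h * m := by ring
        _ ≤ P.sum := hsix.trans hs
        _ ≤ _ := hcardP
    have h2 := Nat.le_of_mul_le_mul_left h1 (by omega)
    omega
  obtain ⟨q, lo, hq1, hqh, hlo, hwin⟩ := window_ms h hh P (fun b hb' => ⟨hpos b hb', hb b hb'⟩) hc'
  -- the number of rows
  set j := (T + 2 * q - 1) / (2 * q) with hj
  have hq2 : 0 < 2 * q := by omega
  have hj1 : T + 2 * q - 1 < (j + 1) * (2 * q) := by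
    have := Nat.lt_succ_iff.mpr (le_refl ((T + 2 * q - 1) / (2 * q)))
    exact (Nat.div_lt_iff_lt_mul hq2).mp (by simp [hj])
  have hj2 : j * (2 * q) ≤ T + 2 * q - 1 := Nat.div_mul_le_self _ _
  set t := 2 * q * j with ht
  have ht1 : T ≤ t := by
    have e : (j + 1) * (2 * q) = t + 2 * q := by rw [ht]; ring
    rw [e] at hj1
    omega
  have ht2 : t ≤ T + 2 * h := by
    have e : j * (2 * q) = t := by rw [ht]; ring
    rw [e] at hj2
    omega
  have htm : t ≤ m := by omega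
  have htwo := two_stairS m t htm
  set x := stairS m t with hx
  have hmt : m ≤ 2 * m + 1 - t := by omega
  have hle1 : t * m ≤ 2 * x := by
    rw [htwo]
    exact Nat.mul_le_mul_left _ hmt
  have hle2 : 2 * x ≤ t * (2 * m) := by
    rw [htwo]
    exact Nat.mul_le_mul_left _ (by omega)
  have h3hm : 3 * h * m ≤ 2 * x := (Nat.mul_le_mul_right m (by omega)).trans hle1
  have hhm : h * h * 2000 ≤ h * m := by
    calc h * h * 2000 = h * (2000 * h) := by ring
      _ ≤ h * m := Nat.mul_le_mul_left _ hm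
  have hcm : 5 * c ≤ m := by omega
  have hbig : h * (m + c) ≤ x := by
    have h5 : 5 * (h * c) ≤ h * m := by
      calc 5 * (h * c) = h * (5 * c) := by ring
        _ ≤ h * m := Nat.mul_le_mul_left _ hcm
    have h6 : h * (m + c) = h * m + h * c := by ring
    have h7 : 3 * h * m = 3 * (h * m) := by ring
    omega
  have hlox : lo ≤ x := by
    have : h ^ 2 = h * h := by ring
    have h7 : 3 * h * m = 3 * (h * m) := by ring
    omega
  have hxup : x ≤ (T + 2 * h) * m := by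
    have h8 : t * (2 * m) ≤ (T + 2 * h) * (2 * m) := Nat.mul_le_mul_right _ ht2
    have h9 : (T + 2 * h) * (2 * m) = 2 * ((T + 2 * h) * m) := by ring
    omega
  have hsum : x + 11 * h ^ 2 ≤ P.sum := by
    have e : h ^ 2 = h * h := by ring
    have h5 : (T + 3 * h) * m = (T + 2 * h) * m + h * m := by ring
    rw [e]
    omega
  have hdvd : q ∣ x := dvd_stairS m q j (by rw [← ht]; exact htm)
  obtain ⟨B, hBP, hBs⟩ := hwin x hdvd hlox hsum
  refine ⟨t, B, ht1, ht2, hBP, hBs, fun h0 => ?_⟩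
  exact peel_ms_c m c t h hh htm (by omega) (by omega) ν B (hBP.trans hP)
    (fun b hb' => hb b (Multiset.mem_of_le hBP hb')) hBs (by rw [hBs]; exact hbig) h0

end Vale.Agent.Lib.P197T
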