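import Vale.Agent.Lib.P197T.Dims

/-!
# P197T: the even cycles cost almost nothing (blueprint Sec A4)
-/

open Equiv Finset

namespace Vale.Agent.Lib.P197T

open Vale.Agent.Lib.P197 Vale.Agent.Lib.P197W Vale.Agent.Lib.P197X

/-- One even cycle of length `L`. -/
theorem rr_even_step {n n' : ℕ} (m a b L : ℕ) (hm : 10 ≤ m) (ha : Even a) (hb : Even b)
    (hL : Even L) (hL2 : 2 ≤ L) (ha5 : a ≤ 5 * m) (hb5 : b ≤ 5 * m) (hn : NN m + a + b = n)
    (hn' : n' + L = n) (T : Filling n (AF m a b)) (π : Perm (Fin n)) (σ : Perm (Fin n'))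
    (hc : π.cycleType = L ::ₘ σ.cycleType) (B : ℝ) (hB : 0 ≤ B)
    (h₁ : ∀ (_ : L ≤ a) (T' : Filling n' (AF m (a - L) b)), |rr T' σ| ≤ B)
    (h₂ : ∀ (_ : L ≤ b) (T' : Filling n' (AF m a (b - L))), |rr T' σ| ≤ B) :
    |rr T π| ≤ 2 * (300 / (m : ℝ) ^ 2) ^ (L / 2) * B := by
  subst hn'
  have hm1 : 1 ≤ m := by omega
  have hmn := evenMN m a b b L (by omega) ha hb hb hL le_rfl hL2 π σ hc hn
  have hd : 0 < ddim m a b := ddim_pos m a b hm1
  have hq : 0 ≤ (300 / (m : ℝ) ^ 2) ^ (L / 2) := by positivity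
  -- the first term
  have t1 : |((if L ≤ a then frobF (m + b) (AF m (a - L) b) σ else 0 : ℤ) : ℝ)| ≤
      ddim m a b * (300 / (m : ℝ) ^ 2) ^ (L / 2) * B := by
    by_cases hLa : L ≤ a
    · rw [if_pos hLa]
      have hs : NN m + (a - L) + b = n' := by omega
      obtain ⟨T'⟩ := exists_fillingAF m (a - L) b n' hm1 hs
      have h3 := frobF_eq_mul_rr m (a - L) b (m + b) hm1 le_rfl hs T' σ
      rw [h3, abs_mul, abs_of_pos (ddim_pos m (a - L) b hm1)]
      have h4 := ddim_row_even m a b L hm ha5 hb5 hL hLa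
      have h5 := h₁ hLa T'
      calc ddim m (a - L) b * |rr T' σ|
          ≤ (ddim m a b * (300 / (m : ℝ) ^ 2) ^ (L / 2)) * B :=
            mul_le_mul h4 h5 (abs_nonneg _) (by positivity)
        _ = _ := rfl
    · rw [if_neg hLa]
      simp only [Int.cast_zero, abs_zero]
      positivity
  have t2 : |((if L ≤ b then frobF (m + b) (AF m a (b - L)) σ else 0 : ℤ) : ℝ)| ≤
      ddim m a b * (300 / (m : ℝ) ^ 2) ^ (L / 2) * B := by
    by_cases hLb : L ≤ b
    · rw [if_pos hLb]
      have hs : NN m + a + (b - L) = n' := by omega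
      obtain ⟨T'⟩ := exists_fillingAF m a (b - L) n' hm1 hs
      have h3 := frobF_eq_mul_rr m a (b - L) (m + b) hm1 (by omega) hs T' σ
      rw [h3, abs_mul, abs_of_pos (ddim_pos m a (b - L) hm1)]
      have h4 := ddim_col_even m a b L hm ha5 hb5 hL hLb
      have h5 := h₂ hLb T'
      calc ddim m a (b - L) * |rr T' σ|
          ≤ (ddim m a b * (300 / (m : ℝ) ^ 2) ^ (L / 2)) * B :=
            mul_le_mul h4 h5 (abs_nonneg _) (by positivity)
        _ = _ := rfl
    · rw [if_neg hLb]
      simp only [Int.cast_zero, abs_zero]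
      positivity
  have h0 := frobF_eq_mul_rr m a b (m + b) hm1 le_rfl hn T π
  have h1 : ddim m a b * rr T π =
      ((if L ≤ a then frobF (m + b) (AF m (a - L) b) σ else 0 : ℤ) : ℝ) -
      ((if L ≤ b then frobF (m + b) (AF m a (b - L)) σ else 0 : ℤ) : ℝ) := by
    rw [← h0, hmn]
    push_cast
    rfl
  have h2 : ddim m a b * |rr T π| ≤
      ddim m a b * (2 * (300 / (m : ℝ) ^ 2) ^ (L / 2) * B) := by
    rw [← abs_of_pos hd, ← abs_mul, abs_of_pos hd, h1]
    have := abs_sub (((if L ≤ a then frobF (m + b) (AF m (a - L) b) σ else 0 : ℤ) : ℝ))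
      (((if L ≤ b then frobF (m + b) (AF m a (b - L)) σ else 0 : ℤ) : ℝ))
    linarith
  exact le_of_mul_le_mul_left h2 hd

/-- The cost of an even cycle. -/
noncomputable def evenC (m j : ℕ) : ℝ := 2 * (300 / (m : ℝ) ^ 2) ^ (j / 2)

theorem evenC_nonneg (m j : ℕ) : 0 ≤ evenC m j := by
  unfold evenC; positivity

theorem prod_evenC_nonneg (m : ℕ) (E : Multiset ℕ) : 0 ≤ (E.map (evenC m)).prod := by
  apply Multiset.prod_nonneg
  intro x hx
  obtain ⟨j, _, rfl⟩ := Multiset.mem_map.1 hx
  exact evenC_nonneg m j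

/-- Remove all even cycles (induction on `E`; the smaller permutation comes from
`Perm.exists_with_cycleType_iff`). -/
theorem even_bound (m : ℕ) (hm : 10 ≤ m) (E : Multiset ℕ) :
    ∀ {n : ℕ} (a b : ℕ), Even a → Even b → a ≤ 5 * m → b ≤ 5 * m → NN m + a + b = n →
      ∀ (T : Filling n (AF m a b)) (π : Perm (Fin n)) (O : Multiset ℕ),
        (∀ j ∈ E, Even j ∧ 2 ≤ j) → π.cycleType = E + O → ∀ B : ℝ, 0 ≤ B →
        (∀ (a' b' n' : ℕ), Even a' → Even b' → a' ≤ a → b' ≤ b → NN m + a' + b' = n' →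
          ∀ (T' : Filling n' (AF m a' b')) (σ : Perm (Fin n')), σ.cycleType = O → |rr T' σ| ≤ B) →
        |rr T π| ≤ (E.map (evenC m)).prod * B := by
  induction E using Multiset.induction_on with
  | empty =>
    intro n a b ha hb ha5 hb5 hn T π O _ hc B _ hbase
    have hc' : π.cycleType = O := by simpa using hc
    simpa using hbase a b n ha hb le_rfl le_rfl hn T π hc'
  | cons L E' ih =>
    intro n a b ha hb ha5 hb5 hn T π O hE hc B hB hbase
    have hL := hE L (Multiset.mem_cons_self L E')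
    have hE' : ∀ j ∈ E', Even j ∧ 2 ≤ j := fun j hj => hE j (Multiset.mem_cons_of_mem hj)
    have hc2 : π.cycleType = L ::ₘ (E' + O) := by
      rw [hc, Multiset.cons_add]
    have hsum : (L ::ₘ (E' + O)).sum ≤ n := by
      rw [← hc2]
      have := Equiv.Perm.sum_cycleType π
      have h2 := (π.support).card_le_univ
      rw [this]
      simpa using h2
    have hsum' : L + (E' + O).sum ≤ n := by simpa using hsum
    have hex : ∃ σ : Perm (Fin (n - L)), σ.cycleType = E' + O := by
      rw [Equiv.Perm.exists_with_cycleType_iff]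
      refine ⟨?_, ?_⟩
      · simp only [Fintype.card_fin]
        omega
      · intro x hx
        have : x ∈ π.cycleType := by
          rw [hc2]
          exact Multiset.mem_cons_of_mem hx
        exact Equiv.Perm.two_le_of_mem_cycleType this
    obtain ⟨σ, hσ⟩ := hex
    have hLn : n - L + L = n := by omega
    have hB' : 0 ≤ (E'.map (evenC m)).prod * B := mul_nonneg (prod_evenC_nonneg m E') hB
    have hstep := rr_even_step (n' := n - L) m a b L hm ha hb hL.1 hL.2 ha5 hb5 hn hLn T π σ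
      (by rw [hσ]; exact hc2) ((E'.map (evenC m)).prod * B) hB'
      (fun hLa T' => by
        have hs : NN m + (a - L) + b = n - L := by omega
        exact ih (a - L) b ((Nat.even_sub hLa).2 ⟨fun _ => hL.1, fun _ => ha⟩) hb (by omega) hb5 hs T' σ O hE' hσ B hB
          (fun a' b' n' ha' hb' haa hbb hs' T'' σ' hσ' =>
            hbase a' b' n' ha' hb' (by omega) hbb hs' T'' σ' hσ'))
      (fun hLb T' => by
        have hs : NN m + a + (b - L) = n - L := by omega
        exact ih a (b - L) ha ((Nat.even_sub hLb).2 ⟨fun _ => hL.1, fun _ => hb⟩) ha5 (by omega) hs T' σ O hE' hσ B hB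
          (fun a' b' n' ha' hb' haa hbb hs' T'' σ' hσ' =>
            hbase a' b' n' ha' hb' haa (by omega) hs' T'' σ' hσ'))
    rw [Multiset.map_cons, Multiset.prod_cons]
    unfold evenC at *
    calc |rr T π| ≤ 2 * (300 / (m : ℝ) ^ 2) ^ (L / 2) * ((E'.map (fun j => 2 * (300 / (m : ℝ) ^ 2) ^ (j / 2))).prod * B) := hstep
      _ = _ := by ring

end Vale.Agent.Lib.P197T
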