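import Vale.Agent.Lib.P197T.SO

/-!
# P197T: removing an even cycle (blueprint Sec A2)
-/

open Equiv Finset

namespace Vale.Agent.Lib.P197T

open Vale.Agent.Lib.P197 Vale.Agent.Lib.P197W Vale.Agent.Lib.P197X

/-- The beads of `AF m a b` with `m + b₀` rows. -/
theorem betaZ_AF (m a b b₀ : ℕ) (hm : 1 ≤ m) (hbb : b ≤ b₀) (i : Fin (m + b₀)) :
    betaZ (m + b₀) (AF m a b) i =
      if (i : ℕ) = 0 then 2 * (m : ℤ) + a + b₀ - 1
      else if (i : ℕ) < m then 2 * (m : ℤ) + b₀ - 1 - 2 * (i : ℕ)
      else if (i : ℕ) < m + b then (m : ℤ) + b₀ - (i : ℕ)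
      else (m : ℤ) + b₀ - 1 - (i : ℕ) := by
  unfold betaZ
  have hi := i.2
  have hN : ((m + b₀ - 1 - (i : ℕ) : ℕ) : ℤ) = (m : ℤ) + b₀ - 1 - (i : ℕ) := by
    omega
  rw [hN]
  by_cases h0 : (i : ℕ) = 0
  · rw [if_pos h0, h0, rowLen_AF_zero m a b hm]
    push_cast
    ring
  · rw [if_neg h0, rowLen_AF_pos m a b i hm (by omega)]
    by_cases h1 : (i : ℕ) < m
    · rw [if_pos h1, if_pos h1]
      have : (((m - (i : ℕ) : ℕ)) : ℤ) = (m : ℤ) - (i : ℕ) := by omega
      rw [this]
      ring
    · rw [if_neg h1, if_neg h1]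
      by_cases h2 : (i : ℕ) < m + b
      · rw [if_pos h2, if_pos h2]
        push_cast
        ring
      · rw [if_neg h2, if_neg h2]
        push_cast
        ring

/-- The rotation of a block of coordinates. -/
private def rotV (Y : ℕ → ℤ) (p r : ℕ) (j : ℕ) : ℤ :=
  if j = p then Y (p + r) else if p < j ∧ j ≤ p + r then Y (j - 1) else Y j

/-- An alternating function changes by `(-1)^r` under the rotation. -/
private theorem alt_rotV {N : ℕ} (H : (Fin N → ℤ) → ℝ)
    (hAlt : ∀ (τ : Perm (Fin N)) (x : Fin N → ℤ), H (x ∘ τ) = ((((Perm.sign τ : ℤˣ) : ℤ)) : ℝ) * H x)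
    (Y : ℕ → ℤ) (r : ℕ) : ∀ p, p + r < N →
    H (fun j : Fin N => rotV Y p r j) = (-1) ^ r * H (fun j : Fin N => Y j) := by
  induction r with
  | zero =>
    intro p _
    have : (fun j : Fin N => rotV Y p 0 j) = fun j : Fin N => Y j := by
      funext j
      unfold rotV
      by_cases h : (j : ℕ) = p
      · simp [h]
      · rw [if_neg h, if_neg (by omega)]
    rw [this]
    simp
  | succ r ih =>
    intro p hp
    have hpN : p < N := by omega
    have hp1 : p + 1 < N := by omega
    have hne : (⟨p, hpN⟩ : Fin N) ≠ ⟨p + 1, hp1⟩ := by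
      intro h
      have := congrArg Fin.val h
      simp at this
    have hcomp : (fun j : Fin N => rotV Y p (r + 1) j) =
        (fun j : Fin N => rotV Y (p + 1) r j) ∘ (Equiv.swap ⟨p, hpN⟩ ⟨p + 1, hp1⟩ : Perm (Fin N)) := by
      funext j
      simp only [Function.comp_apply]
      by_cases h₁ : j = ⟨p, hpN⟩
      · subst h₁
        rw [Equiv.swap_apply_left]
        unfold rotV
        simp only [if_true]
        congr 1
        omega
      · by_cases h₂ : j = ⟨p + 1, hp1⟩
        · subst h₂
          rw [Equiv.swap_apply_right]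
          unfold rotV
          simp
        · rw [Equiv.swap_apply_of_ne_of_ne h₁ h₂]
          have hj₁ : (j : ℕ) ≠ p := fun h => h₁ (Fin.ext h)
          have hj₂ : (j : ℕ) ≠ p + 1 := fun h => h₂ (Fin.ext h)
          unfold rotV
          rw [if_neg hj₁, if_neg hj₂]
          by_cases h₃ : p + 1 < (j : ℕ) ∧ (j : ℕ) ≤ p + 1 + r
          · rw [if_pos (by omega), if_pos h₃]
          · rw [if_neg (by omega), if_neg h₃]
    rw [hcomp, hAlt, ih (p + 1) (by omega), Perm.sign_swap hne]
    push_cast
    ring

/-- **Even Murnaghan-Nakayama step** for the family (Sec A2 of the blueprint). All beads except the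
largest one and the even tail cancel. -/
theorem evenMN {n' : ℕ} (m a b b₀ L : ℕ) (hm : 2 ≤ m) (ha : Even a) (hb : Even b) (hb₀ : Even b₀)
    (hL : Even L) (hbb : b ≤ b₀) (hL2 : 2 ≤ L) (π : Perm (Fin (n' + L))) (σ : Perm (Fin n'))
    (hc : π.cycleType = L ::ₘ σ.cycleType) (hs : NN m + a + b = n' + L) :
    frobF (m + b₀) (AF m a b) π =
      (if L ≤ a then frobF (m + b₀) (AF m (a - L) b) σ else 0) -
        (if L ≤ b then frobF (m + b₀) (AF m a (b - L)) σ else 0) := by
  have hm1 : 1 ≤ m := by omega
  have ha2 : a % 2 = 0 := Nat.even_iff.1 ha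
  have hb2 : b % 2 = 0 := Nat.even_iff.1 hb
  have hb₀2 : b₀ % 2 = 0 := Nat.even_iff.1 hb₀
  have hL₂ : L % 2 = 0 := Nat.even_iff.1 hL
  set N := m + b₀ with hN
  set f := n' - sp σ with hf
  set H : (Fin N → ℤ) → ℝ := SOm (dimX f) σ.cycleType with hH
  have hAlt : ∀ (τ : Perm (Fin N)) (x : Fin N → ℤ),
      H (x ∘ τ) = ((((Perm.sign τ : ℤˣ) : ℤ)) : ℝ) * H x :=
    fun τ x => SOm_comp_perm (dimX f) (dimX_comp_perm f) σ.cycleType τ x
  have hTie : ∀ (x : Fin N → ℤ) (i j : Fin N), i ≠ j → x i = x j → H x = 0 :=
    fun x i j hij h => SOm_tie (dimX f) (dimX_comp_perm f) σ.cycleType x i j hij h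
  have hNeg : ∀ (x : Fin N → ℤ) (i : Fin N), x i < 0 → H x = 0 :=
    fun x i h => SOm_neg (dimX f) (dimX_neg f) σ.cycleType x i h
  set β := betaZ N (AF m a b) with hβdef
  have hβ : ∀ i : Fin N, β i =
      if (i : ℕ) = 0 then 2 * (m : ℤ) + a + b₀ - 1
      else if (i : ℕ) < m then 2 * (m : ℤ) + b₀ - 1 - 2 * (i : ℕ)
      else if (i : ℕ) < m + b then (m : ℤ) + b₀ - (i : ℕ)
      else (m : ℤ) + b₀ - 1 - (i : ℕ) := fun i => betaZ_AF m a b b₀ hm1 hbb i
  -- the left side
  have hcard : (AF m a b).card = n' + L := by rw [card_AF m a b hm1]; exact hs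
  have hcol : (AF m a b).colLen 0 ≤ N := by rw [colLen_AF_zero m a b hm1]; omega
  have hsp : n' + L - sp π = f := by
    have : sp π = L + sp σ := by
      unfold sp
      rw [hc, Multiset.sum_cons]
    rw [this, hf]
    omega
  have hleft : (frobF N (AF m a b) π : ℝ) = ∑ i, H (subAt β L i) := by
    rw [frobF_eq_SOm N hcard hcol π, hsp, hc, SOm_cons]
  -- the vanishing criterion
  have hzero : ∀ i : Fin N, (β i - L < 0 ∨ ∃ j, β j = β i - L) → H (subAt β L i) = 0 := by
    intro i h
    rcases h with h | ⟨j, hj⟩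
    · refine hNeg _ i ?_
      simpa [subAt] using h
    · have hji : i ≠ j := by
        rintro rfl
        have : (L : ℤ) = 0 := by linarith
        omega
      refine hTie _ i j hji ?_
      simp only [subAt, Function.update_self, Function.update_of_ne hji.symm]
      exact hj.symm
  -- tail beads
  have hE1 : ∀ v : ℤ, 0 ≤ v → v ≤ b₀ → v ≠ (b₀ : ℤ) - b → ∃ j : Fin N, β j = v := by
    intro v h0 h1 h2
    by_cases hv : (b₀ : ℤ) - b < v
    · obtain ⟨k, hk⟩ : ∃ k : ℕ, (k : ℤ) = (m : ℤ) + b₀ - v := ⟨((m : ℤ) + b₀ - v).toNat, by omega⟩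
      refine ⟨⟨k, by omega⟩, ?_⟩
      rw [hβ]
      simp only
      rw [if_neg (by omega), if_neg (by omega), if_pos (by omega)]
      omega
    · obtain ⟨k, hk⟩ : ∃ k : ℕ, (k : ℤ) = (m : ℤ) + b₀ - 1 - v :=
        ⟨((m : ℤ) + b₀ - 1 - v).toNat, by omega⟩
      refine ⟨⟨k, by omega⟩, ?_⟩
      rw [hβ]
      simp only
      rw [if_neg (by omega), if_neg (by omega), if_neg (by omega)]
      omega
  -- odd beads
  have hE2 : ∀ v : ℤ, v % 2 = 1 → (b₀ : ℤ) + 1 ≤ v → v ≤ 2 * (m : ℤ) + b₀ - 3 →
      ∃ j : Fin N, β j = v := by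
    intro v h0 h1 h2
    obtain ⟨k, hk⟩ : ∃ k : ℕ, 2 * (k : ℤ) = 2 * (m : ℤ) + b₀ - 1 - v :=
      ⟨((2 * (m : ℤ) + b₀ - 1 - v) / 2).toNat, by omega⟩
    refine ⟨⟨k, by omega⟩, ?_⟩
    rw [hβ]
    simp only
    rw [if_neg (by omega), if_pos (by omega)]
    omega
  -- odd values vanish
  have hodd : ∀ i : Fin N, (β i - L) % 2 = 1 → β i - L ≤ 2 * (m : ℤ) + b₀ - 3 →
      H (subAt β L i) = 0 := by
    intro i h1 h2
    apply hzero
    by_cases h3 : β i - L < 0
    · exact Or.inl h3
    · right
      by_cases h4 : β i - L ≤ b₀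
      · exact hE1 _ (by omega) h4 (by omega)
      · exact hE2 _ h1 (by omega) h2
  have hN2 : 0 < N := by omega
  let i0 : Fin N := ⟨0, hN2⟩
  -- all other beads vanish
  have hother : ∀ i : Fin N, i ≠ i0 → ¬ (L ≤ b ∧ (i : ℕ) = m + b - L) → H (subAt β L i) = 0 := by
    intro i hi hi'
    have hi0 : (i : ℕ) ≠ 0 := fun h => hi (Fin.ext h)
    have hiN := i.2
    have hb := hβ i
    rw [if_neg hi0] at hb
    by_cases h1 : (i : ℕ) < m
    · rw [if_pos h1] at hb
      apply hodd
      · omega
      · omega
    · rw [if_neg h1] at hb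
      apply hzero
      by_cases h3 : β i - L < 0
      · exact Or.inl h3
      · right
        by_cases h2 : (i : ℕ) < m + b
        · rw [if_pos h2] at hb
          refine hE1 _ (by omega) (by omega) ?_
          intro hcon
          apply hi'
          constructor <;> omega
        · rw [if_neg h2] at hb
          refine hE1 _ (by omega) (by omega) ?_
          omega
  -- the first bead
  have hfirst : (if L ≤ a then ((frobF N (AF m (a - L) b) σ : ℤ) : ℝ) else 0) =
      H (subAt β L i0) := by
    have hb0 := hβ i0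
    rw [if_pos rfl] at hb0
    by_cases hLa : L ≤ a
    · rw [if_pos hLa]
      have hcard' : (AF m (a - L) b).card = n' := by
        rw [card_AF m _ b hm1]
        omega
      have hcol' : (AF m (a - L) b).colLen 0 ≤ N := by
        rw [colLen_AF_zero m _ b hm1]
        omega
      rw [frobF_eq_SOm N hcard' hcol' σ]
      congr 1
      funext j
      have hj := betaZ_AF m (a - L) b b₀ hm1 hbb j
      by_cases hj0 : j = i0
      · subst hj0
        simp only [subAt, Function.update_self]
        rw [hj, hb0, if_pos rfl]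
        omega
      · have hj0' : (j : ℕ) ≠ 0 := fun h => hj0 (Fin.ext h)
        have hjb := hβ j
        simp only [subAt]
        rw [Function.update_of_ne hj0, hj, hjb, if_neg hj0', if_neg hj0']
    · rw [if_neg hLa]
      symm
      apply hodd
      · omega
      · omega
  -- assemble
  have hright : ((frobF N (AF m a b) π : ℤ) : ℝ) =
      (if L ≤ a then ((frobF N (AF m (a - L) b) σ : ℤ) : ℝ) else 0) -
        (if L ≤ b then ((frobF N (AF m a (b - L)) σ : ℤ) : ℝ) else 0) := by
    rw [hleft, hfirst]
    by_cases hLb : L ≤ b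
    · rw [if_pos hLb]
      have hi₁ : m + b - L < N := by omega
      let i₁ : Fin N := ⟨m + b - L, hi₁⟩
      have hne : i0 ≠ i₁ := by
        intro h
        have := congrArg Fin.val h
        simp only [i0, i₁] at this
        omega
      rw [Finset.sum_eq_add i0 i₁ hne ?_ (fun h => absurd (Finset.mem_univ _) h)
        (fun h => absurd (Finset.mem_univ _) h)]
      · have hcard' : (AF m a (b - L)).card = n' := by
          rw [card_AF m a _ hm1]
          omega
        have hcol' : (AF m a (b - L)).colLen 0 ≤ N := by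
          rw [colLen_AF_zero m a _ hm1]
          omega
        rw [frobF_eq_SOm N hcard' hcol' σ]
        -- the rotation
        let Y : ℕ → ℤ := fun j =>
          if j = 0 then 2 * (m : ℤ) + a + b₀ - 1
          else if j < m then 2 * (m : ℤ) + b₀ - 1 - 2 * (j : ℕ)
          else if j < m + (b - L) then (m : ℤ) + b₀ - (j : ℕ)
          else (m : ℤ) + b₀ - 1 - (j : ℕ)
        have hYv : betaZ N (AF m a (b - L)) = fun j : Fin N => Y j := by
          funext j
          exact betaZ_AF m a (b - L) b₀ hm1 (by omega) j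
        have hrot : subAt β L i₁ = fun j : Fin N => rotV Y (m + b - L) (L - 1) j := by
          funext j
          by_cases hj : j = i₁
          · subst hj
            simp only [subAt, Function.update_self]
            have hb1 := hβ i₁
            simp only [i₁] at hb1 ⊢
            rw [if_neg (by omega), if_neg (by omega), if_pos (by omega)] at hb1
            rw [hb1]
            unfold rotV
            rw [if_pos rfl]
            have : Y (m + b - L + (L - 1)) = (m : ℤ) + b₀ - 1 - ((m + b - L + (L - 1) : ℕ) : ℤ) := by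
              simp only [Y]
              rw [if_neg (by omega), if_neg (by omega), if_neg (by omega)]
            rw [this]
            omega
          · have hj' : (j : ℕ) ≠ m + b - L := fun h => hj (Fin.ext h)
            simp only [subAt]
            rw [Function.update_of_ne hj, hβ j]
            unfold rotV
            rw [if_neg hj']
            by_cases hj2 : m + b - L < (j : ℕ) ∧ (j : ℕ) ≤ m + b - L + (L - 1)
            · rw [if_pos hj2]
              simp only [Y]
              rw [if_neg (by omega), if_neg (by omega), if_pos (by omega)]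
              by_cases hj3 : (j : ℕ) - 1 = 0
              · omega
              · rw [if_neg hj3]
                rw [if_neg (by omega), if_neg (by omega)]
                omega
            · rw [if_neg hj2]
              simp only [Y]
              by_cases hj0 : (j : ℕ) = 0
              · rw [if_pos hj0, if_pos hj0]
              · rw [if_neg hj0, if_neg hj0]
                by_cases hj1 : (j : ℕ) < m
                · rw [if_pos hj1, if_pos hj1]
                · rw [if_neg hj1, if_neg hj1]
                  by_cases hj4 : (j : ℕ) < m + b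
                  · rw [if_pos hj4, if_pos (by omega)]
                  · rw [if_neg hj4, if_neg (by omega)]
        rw [hrot, alt_rotV H hAlt Y (L - 1) (m + b - L) (by omega), hYv]
        have hoddL : Odd (L - 1) := by
          rw [Nat.odd_iff]
          omega
        rw [hoddL.neg_one_pow]
        show _ = _
        ring
      · intro c _ hc'
        refine hother c hc'.1 ?_
        rintro ⟨_, h⟩
        exact hc'.2 (Fin.ext h)
    · rw [if_neg hLb, sub_zero]
      rw [Finset.sum_eq_single i0]
      · intro c _ hc'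
        exact hother c hc' (fun h => hLb h.1)
      · exact fun h => absurd (Finset.mem_univ _) h
  rw [← Int.cast_inj (α := ℝ), hright]
  push_cast
  split_ifs <;> simp

end Vale.Agent.Lib.P197T
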