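import Vale.Agent.Lib.P197X.Saxl

/-!
# P197T: the staircase with two even arms (blueprint Sec 1)

`AF m a b` has rows `m + a, m - 1, ..., 1, 1^b` and columns `m + b, m - 1, ..., 1, 1^a`.
-/

open Equiv Finset

namespace Vale.Agent.Lib.P197T

open Vale.Agent.Lib.P197 Vale.Agent.Lib.P197W Vale.Agent.Lib.P197X

/-- The staircase `ρ_m` with `a` more cells in the first row and `b` more in the first column. -/
def AF (m a b : ℕ) : YoungDiagram where
  cells := (range (m + b + 1) ×ˢ range (m + a + 1)).filter fun c =>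
    c.1 + c.2 < m ∨ (c.1 = 0 ∧ c.2 < m + a) ∨ (c.2 = 0 ∧ c.1 < m + b)
  isLowerSet := by
    intro x y hxy hx
    simp only [coe_filter, mem_product, mem_range, Set.mem_ofPred_eq] at hx ⊢
    have h1 := hxy.1
    have h2 := hxy.2
    omega

theorem mem_AF (m a b : ℕ) (c : ℕ × ℕ) :
    c ∈ AF m a b ↔ c.1 + c.2 < m ∨ (c.1 = 0 ∧ c.2 < m + a) ∨ (c.2 = 0 ∧ c.1 < m + b) := by
  rw [← YoungDiagram.mem_cells]
  unfold AF
  simp only [Finset.mem_filter, Finset.mem_product, Finset.mem_range]
  constructor
  · rintro ⟨_, h⟩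
    exact h
  · intro h
    refine ⟨⟨?_, ?_⟩, h⟩ <;> omega

theorem rowLen_AF_zero (m a b : ℕ) (hm : 1 ≤ m) : (AF m a b).rowLen 0 = m + a := by
  apply eq_of_forall_lt_iff
  intro j
  rw [← YoungDiagram.mem_iff_lt_rowLen, mem_AF]
  simp only
  constructor
  · rintro (h | ⟨_, h⟩ | ⟨h, _⟩) <;> omega
  · intro h
    exact Or.inr (Or.inl ⟨trivial, h⟩)

theorem colLen_AF_zero (m a b : ℕ) (hm : 1 ≤ m) : (AF m a b).colLen 0 = m + b := by
  apply eq_of_forall_lt_iff
  intro i
  rw [← YoungDiagram.mem_iff_lt_colLen, mem_AF]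
  simp only
  constructor
  · rintro (h | ⟨h, _⟩ | ⟨_, h⟩) <;> omega
  · intro h
    exact Or.inr (Or.inr ⟨trivial, h⟩)

theorem rowLen_AF_pos (m a b i : ℕ) (hm : 1 ≤ m) (hi : 1 ≤ i) :
    (AF m a b).rowLen i = if i < m then m - i else if i < m + b then 1 else 0 := by
  apply eq_of_forall_lt_iff
  intro j
  rw [← YoungDiagram.mem_iff_lt_rowLen, mem_AF]
  simp only
  split_ifs <;> omega

theorem colLen_AF_pos (m a b j : ℕ) (hm : 1 ≤ m) (hj : 1 ≤ j) :
    (AF m a b).colLen j = if j < m then m - j else if j < m + a then 1 else 0 := by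
  apply eq_of_forall_lt_iff
  intro i
  rw [← YoungDiagram.mem_iff_lt_colLen, mem_AF]
  simp only
  split_ifs <;> omega

theorem transpose_AF (m a b : ℕ) : (AF m a b).transpose = AF m b a := by
  ext c
  rw [YoungDiagram.mem_cells, YoungDiagram.mem_cells, YoungDiagram.mem_transpose, mem_AF, mem_AF]
  simp only [Prod.fst_swap, Prod.snd_swap]
  omega

theorem card_AF (m a b : ℕ) (hm : 1 ≤ m) : (AF m a b).card = NN m + a + b := by
  have hc : (AF m a b).cells = (staircase m).cells ∪
      ((range a).image (fun j => ((0 : ℕ), m + j))) ∪ ((range b).image (fun i => (m + i, (0 : ℕ)))) := by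
    ext c
    rw [YoungDiagram.mem_cells, mem_AF]
    simp only [Finset.mem_union, Finset.mem_image, Finset.mem_range, YoungDiagram.mem_cells]
    rw [mem_st]
    constructor
    · rintro (h | ⟨h1, h2⟩ | ⟨h1, h2⟩)
      · exact Or.inl (Or.inl h)
      · by_cases h3 : c.2 < m
        · exact Or.inl (Or.inl (by omega))
        · refine Or.inl (Or.inr ⟨c.2 - m, by omega, ?_⟩)
          apply Prod.ext
          · exact h1.symm
          · simp only
            omega
      · by_cases h3 : c.1 < m
        · exact Or.inl (Or.inl (by omega))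
        · refine Or.inr ⟨c.1 - m, by omega, ?_⟩
          apply Prod.ext
          · simp only
            omega
          · exact h1.symm
    · rintro ((h | ⟨j, hj, rfl⟩) | ⟨i, hi, rfl⟩)
      · exact Or.inl h
      · exact Or.inr (Or.inl ⟨rfl, by simp only; omega⟩)
      · exact Or.inr (Or.inr ⟨rfl, by simp only; omega⟩)
  have hcard : (AF m a b).card = (AF m a b).cells.card := rfl
  rw [hcard, hc, Finset.card_union_of_disjoint, Finset.card_union_of_disjoint,
    Finset.card_image_of_injective, Finset.card_image_of_injective, Finset.card_range,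
    Finset.card_range]
  · have h1 : (staircase m).cells.card = (staircase m).card := rfl
    rw [h1, staircase_card]
  · intro x y h
    simpa using h
  · intro x y h
    simpa using h
  · rw [Finset.disjoint_left]
    intro c hc1 hc2
    obtain ⟨j, _, rfl⟩ := Finset.mem_image.1 hc2
    rw [YoungDiagram.mem_cells, mem_st] at hc1
    simp only at hc1
    omega
  · rw [Finset.disjoint_left]
    intro c hc1 hc2
    obtain ⟨i, _, rfl⟩ := Finset.mem_image.1 hc2
    rcases Finset.mem_union.1 hc1 with h | h
    · rw [YoungDiagram.mem_cells, mem_st] at h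
      simp only at h
      omega
    · obtain ⟨j, _, h2⟩ := Finset.mem_image.1 h
      simp only [Prod.mk.injEq] at h2
      omega

private lemma map_sub_range (m : ℕ) (hm : 1 ≤ m) :
    (Multiset.Ico 1 m : Multiset ℕ) = (Multiset.range (m - 1)).map (fun j => m - (j + 1)) := by
  apply (Multiset.Nodup.ext (Multiset.nodup_Ico) ?_).2
  · intro x
    simp only [Multiset.mem_Ico, Multiset.mem_map, Multiset.mem_range]
    constructor
    · rintro ⟨h1, h2⟩
      exact ⟨m - x - 1, by omega, by omega⟩
    · rintro ⟨j, h1, rfl⟩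
      omega
  · refine Multiset.Nodup.map_on ?_ (Multiset.nodup_range _)
    intro x hx y hy h
    have h1 := Multiset.mem_range.1 hx
    have h2 := Multiset.mem_range.1 hy
    omega

/-- The columns of `AF`. -/
theorem colsOf_AF (m a b : ℕ) (hm : 1 ≤ m) :
    colsOf (AF m a b) = (m + b) ::ₘ (Multiset.Ico 1 m + Multiset.replicate a 1) := by
  unfold colsOf
  rw [rowLen_AF_zero m a b hm, Multiset.range_add, Multiset.map_add, map_sub_range m hm]
  obtain ⟨k, rfl⟩ : ∃ k, m = k + 1 := ⟨m - 1, by omega⟩
  have e1 : (Multiset.range (k + 1)).map (AF (k + 1) a b).colLen =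
      (k + 1 + b) ::ₘ (Multiset.range k).map (fun j => k + 1 - (j + 1)) := by
    have hr : Multiset.range (k + 1) = 0 ::ₘ (Multiset.range k).map (fun j => j + 1) := by
      apply (Multiset.Nodup.ext (Multiset.nodup_range _) ?_).2
      · intro x
        simp only [Multiset.mem_range, Multiset.mem_cons, Multiset.mem_map]
        constructor
        · intro h
          rcases Nat.eq_zero_or_pos x with h0 | h0
          · exact Or.inl h0
          · exact Or.inr ⟨x - 1, by omega, by omega⟩
        · rintro (h | ⟨j, h1, rfl⟩) <;> omega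
      · refine Multiset.nodup_cons.2 ⟨?_, ?_⟩
        · simp
        · refine Multiset.Nodup.map ?_ (Multiset.nodup_range _)
          intro x y h
          simpa using h
    rw [hr, Multiset.map_cons, colLen_AF_zero _ _ _ hm, Multiset.map_map]
    congr 1
    apply Multiset.map_congr rfl
    intro j hj
    have hj' := Multiset.mem_range.1 hj
    simp only [Function.comp]
    rw [colLen_AF_pos _ _ _ _ hm (by omega), if_pos (by omega)]
  have e2 : (Multiset.map (AF (k + 1) a b).colLen
      (Multiset.map (fun x => k + 1 + x) (Multiset.range a))) = Multiset.replicate a 1 := by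
    rw [Multiset.map_map, Multiset.eq_replicate]
    refine ⟨by simp, ?_⟩
    intro x hx
    obtain ⟨j, hj, rfl⟩ := Multiset.mem_map.1 hx
    have hj' := Multiset.mem_range.1 hj
    simp only [Function.comp]
    rw [colLen_AF_pos _ _ _ _ hm (by omega), if_neg (by omega), if_pos (by omega)]
  rw [e1, e2]
  simp only [Nat.add_sub_cancel, Multiset.cons_add]

/-- `AF m a 0` has pairwise different rows. -/
theorem strict_AF (m a : ℕ) (hm : 1 ≤ m) : StrictDiag (AF m a 0) := by
  intro i
  rcases Nat.eq_zero_or_pos i with rfl | hi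
  · left
    rw [rowLen_AF_zero _ _ _ hm, rowLen_AF_pos _ _ _ _ hm (by omega)]
    split_ifs <;> omega
  · rw [rowLen_AF_pos _ _ _ _ hm hi, rowLen_AF_pos _ _ _ _ hm (by omega)]
    split_ifs <;> omega

end Vale.Agent.Lib.P197T
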