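import Vale.Agent.Lib.P197T.LightArithT

/-!
# P197T: the regime of a bounded square (blueprint Sec 6)
-/

open Equiv Finset

namespace Vale.Agent.Lib.P197T

open Vale.Agent.Lib.P197 Vale.Agent.Lib.P197W Vale.Agent.Lib.P197X

private theorem anti_avgD (a : ℕ → ℕ) (ha : ∀ i j, i ≤ j → a j ≤ a i) {k D : ℕ} (hk : k ≤ D) :
    k * ∑ i ∈ range D, a i ≤ D * ∑ i ∈ range k, a i := by
  induction D, hk using Nat.le_induction with
  | base => exact le_rfl
  | succ D hkD ih =>
    rw [sum_range_succ]
    have h1 : k * a D ≤ ∑ i ∈ range k, a i := by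
      calc k * a D = ∑ _i ∈ range k, a D := by simp
        _ ≤ ∑ i ∈ range k, a i := sum_le_sum (fun i hi => ha i D (by have := mem_range.1 hi; omega))
    nlinarith

private theorem two_NND (m : ℕ) : 2 * NN m = m * (m + 1) :=
  Nat.two_mul_div_two_of_even (Nat.even_mul_succ_self m)

private theorem rowLen_le_of_not_memD {ν : YoungDiagram} {D i : ℕ} (hD : (D, D) ∉ ν) (hi : D ≤ i) :
    ν.rowLen i ≤ D := by
  by_contra hcon
  have h1 : (i, D) ∈ ν := YoungDiagram.mem_iff_lt_rowLen.2 (by omega)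
  exact hD (ν.up_left_mem hi le_rfl h1)

private theorem rowLen_zero_of_leD {ν : YoungDiagram} {i : ℕ} (hi : ν.colLen 0 ≤ i) :
    ν.rowLen i = 0 := by
  by_contra hcon
  have h1 : (i, 0) ∈ ν := YoungDiagram.mem_iff_lt_rowLen.2 (by omega)
  have h2 := YoungDiagram.mem_iff_lt_colLen.1 h1
  omega

private theorem tail_leD {ν : YoungDiagram} {D k m : ℕ} (hD : (D, D) ∉ ν) (hk : D ≤ k) :
    ∑ i ∈ Ico k m, ν.rowLen i ≤ D * (ν.colLen 0 - k) := by
  classical
  have h1 : ∑ i ∈ Ico k m, ν.rowLen i ≤ ∑ i ∈ Ico k m, (if i < ν.colLen 0 then D else 0) := by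
    apply sum_le_sum
    intro i hi
    have hi' := mem_Ico.1 hi
    split_ifs with h
    · exact rowLen_le_of_not_memD hD (by omega)
    · rw [rowLen_zero_of_leD (by omega)]
  have h2 : ∑ i ∈ Ico k m, (if i < ν.colLen 0 then D else 0) ≤ D * (ν.colLen 0 - k) := by
    rw [← sum_filter, sum_const, smul_eq_mul, mul_comm]
    apply Nat.mul_le_mul_left
    calc ((Ico k m).filter fun i => i < ν.colLen 0).card ≤ (Ico k (ν.colLen 0)).card := by
          apply card_le_card
          intro i hi
          simp only [mem_filter, mem_Ico] at hi ⊢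
          omega
      _ = ν.colLen 0 - k := by simp
  exact h1.trans h2

private theorem total_rowsD {ν : YoungDiagram} {m : ℕ} (hm : ν.colLen 0 ≤ m) :
    ∑ i ∈ range m, ν.rowLen i = ν.card := by
  have h := card_top_rows ν m
  have h0 : farE ν.transpose m = 0 := by
    unfold farE farCols
    have : (Multiset.range (ν.transpose.rowLen 0)).filter (fun j => m ≤ j) = 0 := by
      apply Multiset.filter_eq_nil.2
      intro j hj
      have hj' : j < ν.transpose.rowLen 0 := Multiset.mem_range.1 hj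
      rw [YoungDiagram.rowLen_transpose] at hj'
      omega
    rw [this]
    simp
  omega

private theorem rowLen_AF_eqD (m c i : ℕ) (hm : 1 ≤ m) :
    (AF m c 0).rowLen i = (m - i) + (if i = 0 then c else 0) := by
  by_cases hi : i = 0
  · subst hi
    rw [rowLen_AF_zero m c 0 hm]
    simp
  · rw [rowLen_AF_pos m c 0 i hm (by omega)]
    simp only [hi, if_false, add_zero]
    split_ifs with h
    · rfl
    · omega

private theorem sum_rowLen_AFD (m c k : ℕ) (hm : 1 ≤ m) (hk : 1 ≤ k) :
    ∑ i ∈ range k, (AF m c 0).rowLen i = stairS m k + c := by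
  have h1 : ∑ i ∈ range k, (AF m c 0).rowLen i
      = ∑ i ∈ range k, (m - i) + ∑ i ∈ range k, (if i = 0 then c else 0) := by
    rw [← sum_add_distrib]
    exact sum_congr rfl (fun i _ => rowLen_AF_eqD m c i hm)
  rw [h1]
  have h2 : ∑ i ∈ range k, (if i = 0 then c else 0) = c := by
    rw [sum_ite_eq' (range k) 0 (fun _ => c)]
    simp only [mem_range]
    rw [if_pos (by omega)]
  rw [h2]
  rfl

/-- Comparison with the strict diagram `AF m c 0`. -/
theorem dom_AF (ν : YoungDiagram) (m c D : ℕ) (hD1 : 1 ≤ D) (hm : 1 ≤ m) (hν : ν.card = NN m + c)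
    (hD : (D, D) ∉ ν) (hcol : ν.colLen 0 + D ≤ m) (hR : D * (m + c) ≤ ∑ i ∈ range D, ν.rowLen i) :
    Dom ν (AF m c 0) := by
  intro k
  by_cases hk0 : k = 0
  · subst hk0
    simp
  have hk1 : 1 ≤ k := by omega
  rw [sum_rowLen_AFD m c k hm hk1]
  have htot : ∑ i ∈ range m, ν.rowLen i = NN m + c := by
    rw [total_rowsD (by omega), hν]
  have h2NN := two_NND m
  by_cases hkD : k ≤ D
  · -- the first rows
    have h1 := anti_avgD ν.rowLen (fun i j hij => ν.rowLen_anti i j hij) hkD
    have h2 : k * (m + c) ≤ ∑ i ∈ range k, ν.rowLen i := by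
      have h3 : D * (k * (m + c)) ≤ D * ∑ i ∈ range k, ν.rowLen i := by
        calc D * (k * (m + c)) = k * (D * (m + c)) := by ring
          _ ≤ k * ∑ i ∈ range D, ν.rowLen i := Nat.mul_le_mul_left _ hR
          _ ≤ _ := h1
      exact Nat.le_of_mul_le_mul_left h3 (by omega)
    refine le_trans ?_ h2
    have h3 : stairS m k ≤ k * m := by
      unfold stairS
      calc ∑ i ∈ range k, (m - i) ≤ ∑ _i ∈ range k, m := sum_le_sum (fun i _ => Nat.sub_le _ _)
        _ = k * m := by simp
    have h4 : c ≤ k * c := Nat.le_mul_of_pos_left c hk1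
    rw [Nat.mul_add]
    omega
  · by_cases hkm : m ≤ k
    · -- everything
      have h1 : stairS m k = stairS m m := by
        unfold stairS
        have hsub : range m ⊆ range k := range_mono hkm
        refine (sum_subset hsub ?_).symm
        intro i hi hi'
        simp only [mem_range, not_lt] at hi hi'
        omega
      have h2 : 2 * stairS m m = m * (2 * m + 1 - m) := two_stairS m m le_rfl
      have h3 : 2 * m + 1 - m = m + 1 := by omega
      rw [h3] at h2
      have h4 : ∑ i ∈ range m, ν.rowLen i ≤ ∑ i ∈ range k, ν.rowLen i :=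
        sum_le_sum_of_subset (range_mono hkm)
      rw [h1]
      omega
    · -- the tail
      have hkm' : k < m := by omega
      have htail := tail_leD (m := m) hD (show D ≤ k by omega)
      have hsplit : ∑ i ∈ range k, ν.rowLen i + ∑ i ∈ Ico k m, ν.rowLen i = ∑ i ∈ range m, ν.rowLen i := by
        rw [range_eq_Ico, range_eq_Ico]
        exact sum_Ico_consecutive _ (Nat.zero_le _) hkm'.le
      have h2 : 2 * stairS m k = k * (2 * m + 1 - k) := two_stairS m k hkm'.le
      obtain ⟨u, hu⟩ : ∃ u, m = k + u := ⟨m - k, by omega⟩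
      have h5 : ν.colLen 0 - k ≤ u - D := by omega
      have h6 : 2 * (D * (u - D)) ≤ u * u + u := by
        by_cases hDu : D ≤ u
        · obtain ⟨v, hv⟩ : ∃ v, u = D + v := ⟨u - D, by omega⟩
          subst hv
          have : D + v - D = v := by omega
          rw [this]
          nlinarith [sq_nonneg ((D : ℤ) - v), mul_self_nonneg (D - v), Nat.mul_self_le_mul_self (Nat.zero_le D)]
        · have : u - D = 0 := by omega
          rw [this]; simp
      have h7 : D * (ν.colLen 0 - k) ≤ D * (u - D) := Nat.mul_le_mul_left _ h5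
      have h8 : k * (2 * m + 1 - k) + u * u + u = m * (m + 1) := by
        subst hu
        have : 2 * (k + u) + 1 - k = k + 2 * u + 1 := by omega
        rw [this]
        ring
      omega


/-- A window of residues. -/
private theorem exists_congr_window_EC (a b q : ℕ) (hq : 1 ≤ q) :
    ∃ t, a ≤ t ∧ t < a + q ∧ t % q = b % q := by
  have hlt := Nat.mod_lt (b + q * a - a) hq
  refine ⟨a + (b + q * a - a) % q, by omega, by omega, ?_⟩
  have h1 : a ≤ q * a := Nat.le_mul_of_pos_left a hq
  rw [Nat.add_mod_mod]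
  have h2 : a + (b + q * a - a) = b + q * a := by omega
  rw [h2, Nat.add_mul_mod_self_left]

/-- Bounds for `stairS`. -/
private theorem stairS_bounds_EC (m t : ℕ) : t * (m - t) ≤ stairS m t ∧ stairS m t ≤ t * m := by
  unfold stairS
  constructor
  · have h : ∑ _i ∈ range t, (m - t) ≤ ∑ i ∈ range t, (m - i) := by
      refine Finset.sum_le_sum fun i hi => ?_
      have := Finset.mem_range.1 hi
      omega
    simpa using h
  · have h : ∑ i ∈ range t, (m - i) ≤ ∑ _i ∈ range t, m :=
      Finset.sum_le_sum fun i _ => Nat.sub_le _ _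
    simpa using h

/-- The residue of `stairS m t` for `t = 1 mod 2q`. -/
private theorem stairS_odd_EC (m t q j : ℕ) (ht : t = 1 + 2 * q * j) (htm : t ≤ m) :
    stairS m t + q * (j * t) = m * t := by
  have h := two_stairS m t htm
  have h1 : 2 * m + 1 - t + t = 2 * m + 1 := Nat.sub_add_cancel (by omega)
  have h2 : t * (2 * m + 1 - t) + t * t = t * (2 * m + 1) := by
    rw [← Nat.mul_add, h1]
  have h3 : t * t = t * (1 + 2 * q * j) := by rw [← ht]
  have h4 : 2 * (stairS m t + q * (j * t)) = 2 * (m * t) := by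
    have : t * (1 + 2 * q * j) = t + 2 * (q * (j * t)) := by ring
    nlinarith
  omega

/-- **End of the regime**: kill one arm, end in a strict diagram. -/
theorem end_case (m c D : ℕ) (hD1 : 1 ≤ D) (ν : YoungDiagram) (hν : ν.card = NN m + 2 * c)
    (hc : c < 2 * D) (hD : (D, D) ∉ ν) (h2000 : 2000 * D ≤ m) (hcol : ν.colLen 0 + 18 * D ≤ m)
    (hpool : 40 * D * m ≤ farE ν D) (hC : farE ν.transpose D + 20 * D * m ≤ NN m) :
    KP (AF m c c) (AF m c c) ν := by
  classical
  set P := farCols ν D with hP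
  have hPsum : P.sum = farE ν D := rfl
  have hb : ∀ b ∈ P, 1 ≤ b ∧ b ≤ D := fun b hb => ⟨far_pos hb, far_le hD hb⟩
  -- atoms for the arithmetic
  set A := D * m with hA
  set DD := D * D with hDD
  have hDDA : 2000 * DD ≤ A := by
    have : D * (2000 * D) ≤ D * m := Nat.mul_le_mul_left _ h2000
    nlinarith
  have hDleDD : D ≤ DD := Nat.le_mul_of_pos_left D (by omega)
  have hpool' : 40 * A ≤ P.sum := by
    rw [hPsum]
    have : 40 * D * m = 40 * A := by rw [hA]; ring
    omega
  have hsq : D ^ 2 = DD := by rw [hDD]; ring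
  have hcardP : 10000 * D ≤ Multiset.card P := by
    have h1 : P.sum ≤ Multiset.card P • D :=
      Multiset.sum_le_card_nsmul P D (fun x hx => (hb x hx).2)
    rw [smul_eq_mul] at h1
    by_contra hlt
    push Not at hlt
    have h2 : Multiset.card P * D ≤ 10000 * D * D := Nat.mul_le_mul_right _ hlt.le
    have h3 : 10000 * D * D = 10000 * DD := by rw [hDD]; ring
    omega
  obtain ⟨q, lo, hq1, hq2, hlo, hwin⟩ := window_even D hD1 P hb hcardP
  rw [hsq] at hlo
  -- the two numbers of removed rows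
  obtain ⟨t₃, ht₃1, ht₃2, ht₃3⟩ := exists_congr_window_EC (7 * D) (m + c) q hq1
  obtain ⟨t₄, ht₄1, ht₄2, ht₄3⟩ := exists_congr_window_EC (7 * D) 1 (2 * q) (by omega)
  have ht₃4 : t₃ ≤ 8 * D := by omega
  have ht₄4 : t₄ ≤ 9 * D := by omega
  set m₄ := m - t₃ with hm₄
  set m₅ := m₄ - t₄ with hm₅
  have hm₄t : m₄ + t₃ = m := by omega
  have hm₅t : m₅ + t₄ = m₄ := by omega
  have hm₅big : m₅ + 17 * D ≥ m := by omega
  have hm₅1 : 1 ≤ m₅ := by omega
  have hm₄1 : 1 ≤ m₄ := by omega
  set S₃ := stairS m t₃ with hS₃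
  set S₄ := stairS m₄ t₄ with hS₄
  obtain ⟨hS₃l, hS₃u⟩ := stairS_bounds_EC m t₃
  obtain ⟨hS₄l, hS₄u⟩ := stairS_bounds_EC m₄ t₄
  have hS₃u' : S₃ ≤ 8 * A := by
    calc S₃ ≤ t₃ * m := hS₃u
      _ ≤ (8 * D) * m := Nat.mul_le_mul_right _ ht₃4
      _ = 8 * A := by rw [hA]; ring
  have hS₄u' : S₄ ≤ 9 * A := by
    calc S₄ ≤ t₄ * m₄ := hS₄u
      _ ≤ (9 * D) * m := Nat.mul_le_mul ht₄4 (by omega)
      _ = 9 * A := by rw [hA]; ring
  have hS₃l' : 7 * A ≤ S₃ + 56 * DD := by
    have h1 : (7 * D) * (m - 8 * D) ≤ t₃ * (m - t₃) :=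
      Nat.mul_le_mul ht₃1 (by omega)
    have h2 : (7 * D) * (m - 8 * D) + (7 * D) * (8 * D) = (7 * D) * m := by
      rw [← Nat.mul_add]
      congr 1
      omega
    have h3 : (7 * D) * m = 7 * A := by rw [hA]; ring
    have h4 : (7 * D) * (8 * D) = 56 * DD := by rw [hDD]; ring
    omega
  have hS₄l' : 7 * A ≤ S₄ + 119 * DD := by
    have h1 : (7 * D) * (m - 17 * D) ≤ t₄ * (m₄ - t₄) :=
      Nat.mul_le_mul ht₄1 (by omega)
    have h2 : (7 * D) * (m - 17 * D) + (7 * D) * (17 * D) = (7 * D) * m := by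
      rw [← Nat.mul_add]
      congr 1
      omega
    have h3 : (7 * D) * m = 7 * A := by rw [hA]; ring
    have h4 : (7 * D) * (17 * D) = 119 * DD := by rw [hDD]; ring
    omega
  -- the greedy part
  set Y := S₃ + c with hY
  obtain ⟨B₃, hB₃, hB₃q, _, hB₃Y, hB₃Y2, hexact⟩ := hwin Y (by rw [hsq]; omega)
  set c₁ := Y - B₃.sum with hc₁
  have hc₁lt : c₁ < 2 * D := by omega
  have hB₃sum : B₃.sum + c₁ = S₃ + c := by omega
  -- the residue
  have hq0 : 0 < 2 * q := by omega
  have hj : t₄ = 1 + 2 * q * (t₄ / (2 * q)) := by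
    have h1 := Nat.div_add_mod t₄ (2 * q)
    have h2 : 1 % (2 * q) = 1 := Nat.mod_eq_of_lt (by omega)
    rw [ht₄3, h2] at h1
    omega
  have hS₄res := stairS_odd_EC m₄ t₄ q (t₄ / (2 * q)) hj (by omega)
  have hmc : (m₄ + c) % q = 0 := by
    have h1 : (m₄ + c) + t₃ ≡ 0 + t₃ [MOD q] := by
      have h2 : (m₄ + c) + t₃ = m + c := by omega
      rw [h2, zero_add]
      exact ht₃3.symm
    exact (Nat.ModEq.add_right_cancel' t₃ h1)
  have hdvd : q ∣ S₄ + c := by
    have h1 : S₄ + c + q * (t₄ / (2 * q) * t₄) = (m₄ + c) + q * (2 * (t₄ / (2 * q)) * m₄) := by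
      have h2 : m₄ * t₄ = m₄ + q * (2 * (t₄ / (2 * q)) * m₄) := by
        conv_lhs => rw [hj]
        ring_nf
      omega
    have h3 : q ∣ (m₄ + c) + q * (2 * (t₄ / (2 * q)) * m₄) :=
      Dvd.dvd.add (Nat.dvd_of_mod_eq_zero hmc) (dvd_mul_right _ _)
    rw [← h1] at h3
    exact (Nat.dvd_add_left (dvd_mul_right _ _)).1 h3
  obtain ⟨B₄, hB₄, hB₄sum⟩ := hexact (S₄ + c) hdvd (by omega) (by rw [hsq]; omega)
  -- first removal
  have hB₃le : B₃ ≤ B₄ + B₃ := Multiset.le_add_left _ _
  have hB₃P : B₃ ≤ P := hB₃le.trans hB₄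
  have hB₃c : B₃ ≤ colsOf ν := hB₃P.trans (farCols_le ν D)
  have hDc : D * c ≤ 2 * DD := by
    have : D * c ≤ D * (2 * D) := Nat.mul_le_mul_left _ hc.le
    have h2 : D * (2 * D) = 2 * DD := by rw [hDD]; ring
    omega
  have hDc₁ : D * c₁ ≤ 2 * DD := by
    have : D * c₁ ≤ D * (2 * D) := Nat.mul_le_mul_left _ hc₁lt.le
    have h2 : D * (2 * D) = 2 * DD := by rw [hDD]; ring
    omega
  have hstep1 : m - m₄ = t₃ := by omega
  refine col_step m m₄ c c c₁ D hD1 hm₄1 (by omega) ν B₃ hB₃c
    (fun x hx => far_le hD (Multiset.mem_of_le hB₃P hx)) (by rw [hstep1]; exact hB₃sum)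
    (by rw [Nat.mul_add]; omega) ?_
  apply KP_swap
  set ν₃ := ofCols (colsOf ν - B₃) with hν₃
  have hν₃card : ν₃.card + B₃.sum = ν.card := card_remove hB₃c
  have hν₃D : (D, D) ∉ ν₃ := fun h => hD (remove_subset D D h hB₃c)
  have hfar₃ : farCols ν₃ D = P - B₃ := farCols_remove hD hB₃P
  have hfar₃t : farCols ν₃.transpose D = farCols ν.transpose D := farCols_transpose_remove hD hB₃P
  have hB₄P : B₄ ≤ farCols ν₃ D := by
    rw [hfar₃]
    exact le_tsub_of_add_le_right hB₄
  have hB₄c : B₄ ≤ colsOf ν₃ := hB₄P.trans (farCols_le ν₃ D)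
  have hstep2 : m₄ - m₅ = t₄ := by omega
  refine col_step m₄ m₅ c₁ c 0 D hD1 hm₅1 (by omega) ν₃ B₄ hB₄c
    (fun x hx => far_le hν₃D (Multiset.mem_of_le hB₄P hx)) (by rw [hstep2, hB₄sum]; omega)
    (by
      rw [Nat.mul_add, hB₄sum]
      have : D * m₄ ≤ A := Nat.mul_le_mul_left _ (by omega)
      omega) ?_
  set ν₅ := ofCols (colsOf ν₃ - B₄) with hν₅
  have hν₅card : ν₅.card + B₄.sum = ν₃.card := card_remove hB₄c
  have hν₅D : (D, D) ∉ ν₅ := fun h => hν₃D (remove_subset D D h hB₄c)
  have hfar₅t : farCols ν₅.transpose D = farCols ν₃.transpose D :=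
    farCols_transpose_remove hν₃D hB₄P
  have hNN₁ : NN m = NN m₄ + S₃ := NN_eq m t₃ (by omega)
  have hNN₂ : NN m₄ = NN m₅ + S₄ := NN_eq m₄ t₄ (by omega)
  have hcard₅ : ν₅.card = NN m₅ + c₁ := by omega
  have hcardAF : (AF m₅ c₁ 0).card = ν₅.card := by
    rw [card_AF m₅ c₁ 0 hm₅1, hcard₅]
    rfl
  refine KP_strict (strict_AF m₅ c₁ hm₅1) hcardAF ?_
  -- the comparison
  have hcol₅ : ν₅.colLen 0 ≤ ν.colLen 0 := by
    by_contra hlt
    push Not at hlt
    have h1 : (ν.colLen 0, 0) ∈ ν₅ := YoungDiagram.mem_iff_lt_colLen.2 hlt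
    have h2 := remove_subset _ _ (remove_subset _ _ h1 hB₄c) hB₃c
    exact lt_irrefl _ (YoungDiagram.mem_iff_lt_colLen.1 h2)
  have htop := card_top_rows ν₅ D
  have hfarC : farE ν₅.transpose D = farE ν.transpose D := by
    show (farCols ν₅.transpose D).sum = (farCols ν.transpose D).sum
    rw [hfar₅t, hfar₃t]
  have hCA : 20 * D * m = 20 * A := by rw [hA]; ring
  have hDm₅ : D * m₅ ≤ A := Nat.mul_le_mul_left _ (by omega)
  refine dom_AF ν₅ m₅ c₁ D hD1 hm₅1 hcard₅ hν₅D (by omega) ?_
  rw [Nat.mul_add]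
  omega

private theorem two_NN_L (m : ℕ) : 2 * NN m = m * (m + 1) := by
  have h : Even (m * (m + 1)) := Nat.even_mul_succ_self m
  obtain ⟨k, hk⟩ := h
  have : NN m = k := by
    show m * (m + 1) / 2 = k
    omega
  omega

private theorem card_transpose_L (ν : YoungDiagram) : ν.transpose.card = ν.card := by
  show ν.transpose.cells.card = ν.cells.card
  refine Finset.card_bij (fun c _ => c.swap) ?_ ?_ ?_
  · intro c hc
    have h1 : c ∈ ν.transpose := hc
    exact (YoungDiagram.mem_transpose (μ := ν) (c := c)).1 h1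
  · intro a _ b _ h
    exact Prod.swap_injective h
  · intro c hc
    refine ⟨c.swap, ?_, by simp⟩
    have h1 : c ∈ ν := hc
    exact (YoungDiagram.mem_transpose (μ := ν) (c := c.swap)).2 (by simpa using h1)

private theorem not_mem_transpose_L {ν : YoungDiagram} {D : ℕ} (hD : (D, D) ∉ ν) :
    (D, D) ∉ ν.transpose := by
  intro h
  exact hD (by simpa using (YoungDiagram.mem_transpose (μ := ν) (c := (D, D))).1 h)

/-- The light case. -/
theorem light_case_T (m c D : ℕ) (hD1 : 1 ≤ D) (ν : YoungDiagram) (hν : ν.card = NN m + 2 * c)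
    (hc : c < 2 * D) (hD : (D, D) ∉ ν) (hm : 40000 * (D + 1) ^ 3 ≤ m)
    (hCE : farE ν.transpose D ≤ farE ν D) (hcol : m < ν.colLen 0 + D)
    (hCu : farE ν.transpose D < 8 * D * m) : KP (AF m c c) (AF m c c) ν := by
  classical
  have hDt : (D, D) ∉ ν.transpose := not_mem_transpose_L hD
  set C := farE ν.transpose D with hC
  set E := farE ν D with hE
  have hCl : m < C + 2 * D := by
    have h1 := rowLen_le_far ν.transpose D
    rw [YoungDiagram.rowLen_transpose] at h1
    omega
  obtain ⟨box, hbox, hsplit⟩ := card_split hD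
  have hcube1 : D ^ 2 + 1 + D ≤ (D + 1) ^ 3 := by nlinarith [sq_nonneg D, Nat.zero_le D]
  have hmD2 : 40000 * (D ^ 2 + 1 + D) ≤ m := by
    have : 40000 * (D ^ 2 + 1 + D) ≤ 40000 * (D + 1) ^ 3 := Nat.mul_le_mul_left _ hcube1
    omega
  -- `E` is large compared to `c`
  have hX : m ≤ NN m := by
    have h1 := two_NN_L m
    have h2 : m * 2 ≤ m * (m + 1) := Nat.mul_le_mul_left _ (by omega)
    omega
  have h2c : 2 * c ≤ E := by
    have hDsq : D ^ 2 ≤ m := by omega
    omega
  have hsum : box + C + (E - 2 * c) = NN m := by omega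
  set P₁ := farCols ν D with hP₁
  set P₂ := farCols ν.transpose D with hP₂
  have hP₁sum : P₁.sum = E := rfl
  have hP₂sum : P₂.sum = C := rfl
  have hb₁ : ∀ b ∈ P₁, 1 ≤ b ∧ b ≤ D := fun b hb => ⟨far_pos hb, far_le hD hb⟩
  have hb₂ : ∀ b ∈ P₂, 1 ≤ b ∧ b ≤ D := fun b hb => ⟨far_pos hb, far_le hDt hb⟩
  have hD3 : 40000 * (D ^ 2 + 1) + 2 * D ≤ m := by omega
  have hDsq : D * D = D ^ 2 := by ring
  have hcard : ∀ P : Multiset ℕ, (∀ b ∈ P, 1 ≤ b ∧ b ≤ D) → m < P.sum + 2 * D →
      10000 * D ≤ Multiset.card P := by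
    intro P hb hs
    have h1 : P.sum ≤ Multiset.card P • D :=
      Multiset.sum_le_card_nsmul P D (fun x hx => (hb x hx).2)
    rw [smul_eq_mul] at h1
    by_contra hlt
    push Not at hlt
    have h2 : Multiset.card P * D ≤ 10000 * D * D := Nat.mul_le_mul_right _ hlt.le
    nlinarith
  obtain ⟨q₁, lo₁, hq₁1, hq₁2, hlo₁, hwin₁⟩ := window_ms D hD1 P₁ hb₁ (hcard P₁ hb₁ (by omega))
  obtain ⟨q₂, lo₂, hq₂1, hq₂2, hlo₂, hwin₂⟩ := window_ms D hD1 P₂ hb₂ (hcard P₂ hb₂ (by omega))
  obtain ⟨t₂, mp, ht₂, ht₂mp, hmp, hdvd₂, hdvd₁, hx₂lo, hx₂up, hx₂C, hx₁lo, hx₁up, hDm, hDmp, hm₃,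
    hNN₃, h12, hmp2, hm1000, hDmc, hDmpc⟩ :=
    light_arith_T D m C (E - 2 * c) box q₁ q₂ hD1 hm ⟨hq₁1, hq₁2⟩ ⟨hq₂1, hq₂2⟩ hCl hCu hsum hbox
  -- first removal
  obtain ⟨BR, hBR, hBRsum⟩ := hwin₁ (stairS m (m - mp)) hdvd₁ (by omega) (by omega)
  have hBRc : BR ≤ colsOf ν := hBR.trans (farCols_le ν D)
  have hsubm : m - (m - mp) = mp := Nat.sub_sub_self hmp
  have hmulc : D * (m + c) ≤ D * (m + 2 * D) := Nat.mul_le_mul_left _ (by omega)
  refine peel_ms_c m c (m - mp) D hD1 (Nat.sub_le _ _) (by omega) (by omega) ν BR hBRc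
    (fun b hb => far_le hD (Multiset.mem_of_le hBR hb)) hBRsum (by rw [hBRsum]; omega) ?_
  rw [hsubm]
  set ν₁ := ofCols (colsOf ν - BR) with hν₁
  have hν₁card : ν₁.card = NN mp + 2 * c := by
    have h1 := card_remove hBRc
    have h2 := NN_eq m (m - mp) (Nat.sub_le _ _)
    rw [hsubm] at h2
    rw [← hν₁, hBRsum] at h1
    omega
  have hν₁D : (D, D) ∉ ν₁ := fun h => hD (remove_subset D D h hBRc)
  -- pass to the transpose
  suffices h : KP (AF mp c c) (AF mp c c) ν₁.transpose by
    have h' := KP_conj3F h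
    rwa [YoungDiagram.transpose_transpose] at h'
  set μ₁ := ν₁.transpose with hμ₁
  have hμ₁D : (D, D) ∉ μ₁ := not_mem_transpose_L hν₁D
  have hμ₁far : farCols μ₁ D = P₂ := farCols_transpose_remove hD hBR
  have hμ₁card : μ₁.card = NN mp + 2 * c := by rw [hμ₁, card_transpose_L, hν₁card]
  -- second removal
  obtain ⟨BG, hBG, hBGsum⟩ := hwin₂ (stairS mp t₂) hdvd₂ (by omega) (by omega)
  have hBG' : BG ≤ farCols μ₁ D := by rw [hμ₁far]; exact hBG
  have hBGc : BG ≤ colsOf μ₁ := hBG'.trans (farCols_le μ₁ D)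
  have hmulc2 : D * (mp + c) ≤ D * (mp + 2 * D) := Nat.mul_le_mul_left _ (by omega)
  refine peel_ms_c mp c t₂ D hD1 ht₂mp (by omega) (by omega) μ₁ BG hBGc
    (fun b hb => far_le hμ₁D (Multiset.mem_of_le hBG' hb)) hBGsum (by rw [hBGsum]; omega) ?_
  set ν₃' := ofCols (colsOf μ₁ - BG) with hν₃'
  have hν₃'card : ν₃'.card = NN (mp - t₂) + 2 * c := by
    have h1 := card_remove hBGc
    have h2 := NN_eq mp t₂ ht₂mp
    rw [← hν₃', hBGsum] at h1
    omega
  have hν₃'D : (D, D) ∉ ν₃' := fun h => hμ₁D (remove_subset D D h hBGc)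
  have hfar₃ : farE ν₃' D + stairS mp t₂ = C := by
    have h1 : farCols ν₃' D = farCols μ₁ D - BG := farCols_remove hμ₁D hBG'
    have h2 : farCols μ₁ D - BG + BG = farCols μ₁ D := tsub_add_cancel_of_le hBG'
    have h3 := congrArg Multiset.sum h2
    rw [Multiset.sum_add, hμ₁far, hP₂sum, hBGsum] at h3
    show (farCols ν₃' D).sum + stairS mp t₂ = C
    rw [h1, hμ₁far]
    exact h3
  have hfar₃' : farE ν₃' D < 39 * D ^ 2 := by omega
  -- transpose once more and finish with the end of the regime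
  suffices h : KP (AF (mp - t₂) c c) (AF (mp - t₂) c c) ν₃'.transpose by
    have h' := KP_conj3F h
    rwa [YoungDiagram.transpose_transpose] at h'
  have hν₃card : ν₃'.transpose.card = NN (mp - t₂) + 2 * c := by rw [card_transpose_L, hν₃'card]
  have hν₃D : (D, D) ∉ ν₃'.transpose := not_mem_transpose_L hν₃'D
  set m₃ := mp - t₂ with hm₃def
  obtain ⟨box₃, hbox₃, hsplit₃⟩ := card_split hν₃D
  rw [YoungDiagram.transpose_transpose] at hsplit₃
  have hsq : (D + 1) ^ 2 = D ^ 2 + 2 * D + 1 := by ring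
  have hNN₃2 := two_NN_L m₃
  have hD1sq : D + 1 ≤ (D + 1) ^ 2 := Nat.le_self_pow (by norm_num) _
  have hm3 : 1000 * (D + 1) ≤ m₃ := by omega
  have hbig : 1000 * (D * m₃) + 1000 * m₃ ≤ m₃ * (m₃ + 1) := by
    have h1 : (1000 * (D + 1)) * m₃ ≤ m₃ * m₃ := Nat.mul_le_mul_right _ hm3
    have h2 : m₃ * m₃ ≤ m₃ * (m₃ + 1) := Nat.mul_le_mul_left _ (by omega)
    have h3 : (1000 * (D + 1)) * m₃ = 1000 * (D * m₃) + 1000 * m₃ := by ring
    omega
  have hDsqm : D ^ 2 ≤ m₃ := by omega
  refine end_case m₃ c D hD1 _ hν₃card hc hν₃D (by omega) ?_ ?_ ?_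
  · rw [YoungDiagram.colLen_transpose]
    have h1 := rowLen_le_far ν₃' D
    omega
  · have e1 : 40 * D * m₃ = 40 * (D * m₃) := by ring
    rw [e1]
    omega
  · rw [YoungDiagram.transpose_transpose]
    have e1 : 20 * D * m₃ = 20 * (D * m₃) := by ring
    rw [e1]
    omega

/-- Twice a triangular number. -/
private theorem two_NN_Q (m : ℕ) : 2 * NN m = m * (m + 1) := by
  have h : Even (m * (m + 1)) := Nat.even_mul_succ_self m
  obtain ⟨k, hk⟩ := h
  have : NN m = k := by
    show m * (m + 1) / 2 = k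
    omega
  omega

private theorem card_transpose_Q (ν : YoungDiagram) : ν.transpose.card = ν.card := by
  show ν.transpose.cells.card = ν.cells.card
  refine Finset.card_bij (fun c _ => c.swap) ?_ ?_ ?_
  · intro c hc
    have h1 : c ∈ ν.transpose := hc
    exact (YoungDiagram.mem_transpose (μ := ν) (c := c)).1 h1
  · intro a _ b _ h
    exact Prod.swap_injective h
  · intro c hc
    refine ⟨c.swap, ?_, by simp⟩
    have h1 : c ∈ ν := hc
    exact (YoungDiagram.mem_transpose (μ := ν) (c := c.swap)).2 (by simpa using h1)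

private theorem not_mem_transpose_Q {ν : YoungDiagram} {D : ℕ} (hD : (D, D) ∉ ν) :
    (D, D) ∉ ν.transpose := by
  intro h
  exact hD (by simpa using (YoungDiagram.mem_transpose (μ := ν) (c := (D, D))).1 h)

/-- Size of `m` in the main induction. -/
private theorem m_big_Q (m c D E : ℕ) (hE : E ≤ NN m + 2 * c) (hc : c < 2 * D)
    (hbig : 10 ^ 10 * (D + 1) ^ 6 ≤ E) : 40000 * (D + 1) ^ 3 + 19 * D ≤ m := by
  by_contra hlt
  push Not at hlt
  have h2 := two_NN_Q m
  have hD3 : D ≤ (D + 1) ^ 3 := by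
    calc D ≤ (D + 1) ^ 1 := by rw [pow_one]; omega
      _ ≤ (D + 1) ^ 3 := Nat.pow_le_pow_right (by omega) (by norm_num)
  have hD6 : D ≤ (D + 1) ^ 6 := by
    calc D ≤ (D + 1) ^ 1 := by rw [pow_one]; omega
      _ ≤ (D + 1) ^ 6 := Nat.pow_le_pow_right (by omega) (by norm_num)
  have h3 : (m + 1) * (m + 1) ≤ (40020 * (D + 1) ^ 3) * (40020 * (D + 1) ^ 3) := by
    apply Nat.mul_le_mul <;> omega
  have h4 : m * (m + 1) ≤ (m + 1) * (m + 1) := Nat.mul_le_mul_right _ (by omega)
  have h5 : (40020 * (D + 1) ^ 3) * (40020 * (D + 1) ^ 3) = 1601600400 * (D + 1) ^ 6 := by ring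
  have hp : 0 < (D + 1) ^ 6 := by positivity
  omega

/-- The first column is not touched when far columns are removed. -/
private theorem colLen_remove_Q {μ : YoungDiagram} {D : ℕ} {B : Multiset ℕ} (hD1 : 1 ≤ D)
    (hD : (D, D) ∉ μ) (hB : B ≤ farCols μ D) :
    (ofCols (colsOf μ - B)).colLen 0 = μ.colLen 0 := by
  have h : ∀ i, i < (ofCols (colsOf μ - B)).colLen 0 ↔ i < μ.colLen 0 := by
    intro i
    rw [← YoungDiagram.mem_iff_lt_colLen, ← YoungDiagram.mem_iff_lt_colLen]
    exact mem_remove_iff hD hB i 0 (by omega)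
  apply le_antisymm
  · by_contra hlt
    push Not at hlt
    exact absurd ((h _).1 hlt) (lt_irrefl _)
  · by_contra hlt
    push Not at hlt
    exact absurd ((h _).2 hlt) (lt_irrefl _)

/-- The main induction. -/
theorem claimQ_T (D : ℕ) (hD1 : 1 ≤ D) : ∀ (m c : ℕ) (ν : YoungDiagram), ν.card = NN m + 2 * c →
    c < 2 * D → (D, D) ∉ ν → farE ν.transpose D ≤ farE ν D → 10 ^ 10 * (D + 1) ^ 6 ≤ farE ν D →
    KP (AF m c c) (AF m c c) ν := by
  intro m
  induction m using Nat.strong_induction_on with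
  | _ m IH =>
  intro c ν hν hc hD hCE hbig
  obtain ⟨box, hbox, hsplit⟩ := card_split (μ := ν) hD
  have hE : farE ν D ≤ NN m + 2 * c := by omega
  have hm := m_big_Q m c D _ hE hc hbig
  have hcube : (D + 1) ≤ (D + 1) ^ 3 := by
    calc D + 1 = (D + 1) ^ 1 := (pow_one _).symm
      _ ≤ (D + 1) ^ 3 := Nat.pow_le_pow_right (by omega) (by norm_num)
  have hm2 : 40000 * (D + 1) ≤ m := by omega
  have hDt : (D, D) ∉ ν.transpose := not_mem_transpose_Q hD
  -- the basic sizes
  have hNN2 := two_NN_Q m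
  have hX : 40000 * (D * m) ≤ m * (m + 1) := by
    calc 40000 * (D * m) = (40000 * D) * m := by ring
      _ ≤ m * m := Nat.mul_le_mul_right _ (by omega)
      _ ≤ m * (m + 1) := Nat.mul_le_mul_left _ (by omega)
  have hDD : D ^ 2 ≤ D * m := by
    rw [pow_two]
    exact Nat.mul_le_mul_left _ (by omega)
  have hDm : D ≤ D * m := Nat.le_mul_of_pos_right _ (by omega)
  have hDD40 : 152 * (D * D) ≤ D * m := by
    calc 152 * (D * D) = D * (152 * D) := by ring
      _ ≤ D * m := Nat.mul_le_mul_left _ (by omega)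
  by_cases hcol : ν.colLen 0 + 18 * D ≤ m
  · -- end of the regime
    refine end_case m c D hD1 ν hν hc hD (by omega) hcol ?_ ?_
    · have e1 : 40 * D * m = 40 * (D * m) := by ring
      rw [e1]
      omega
    · have e1 : 20 * D * m = 20 * (D * m) := by ring
      rw [e1]
      omega
  · push Not at hcol
    by_cases hCu : 7 * D * m ≤ farE ν.transpose D
    · -- peel far rows
      have hP : farCols ν.transpose D ≤ colsOf ν.transpose := farCols_le _ _
      have hb : ∀ b ∈ farCols ν.transpose D, b ≤ D := fun b hb => far_le hDt hb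
      have hs : (3 * D + 3 * D) * m ≤ (farCols ν.transpose D).sum := by
        have h1 : farE ν.transpose D = (farCols ν.transpose D).sum := rfl
        have e1 : (3 * D + 3 * D) * m = 6 * (D * m) := by ring
        have e2 : 7 * D * m = 7 * (D * m) := by ring
        rw [e1]
        rw [e2] at hCu
        omega
      obtain ⟨t, B, ht3, ht5, hBP, hBsum, hKP⟩ :=
        peel_pool_c m c D (3 * D) hD1 ν.transpose _ hP hb (by omega) (le_refl _) (by omega)
          (by omega) hs
      have htm : t ≤ m := by omega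
      have hBc : B ≤ colsOf ν.transpose := hBP.trans hP
      set μ := ofCols (colsOf ν.transpose - B) with hμ
      have hrem := card_remove (μ := ν.transpose) hBc
      have hNNeq := NN_eq m t htm
      have hcardt := card_transpose_Q ν
      have hμcard : μ.card = NN (m - t) + 2 * c := by
        have : μ.card + B.sum = ν.transpose.card := hrem
        omega
      have hμD : (D, D) ∉ μ := fun h =>
        hDt (remove_subset (μ := ν.transpose) D D h hBc)
      have hfar1 : farCols μ.transpose D = farCols ν D := by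
        have := farCols_transpose_remove (μ := ν.transpose) hDt hBP
        rw [YoungDiagram.transpose_transpose] at this
        exact this
      have hfar2 : farCols μ D = farCols ν.transpose D - B :=
        farCols_remove (μ := ν.transpose) hDt hBP
      have hE1 : farE μ.transpose D = farE ν D := by
        show (farCols μ.transpose D).sum = (farCols ν D).sum
        rw [hfar1]
      have hC1 : farE μ D ≤ farE ν.transpose D := by
        show (farCols μ D).sum ≤ (farCols ν.transpose D).sum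
        rw [hfar2]
        have h := Multiset.sub_add_cancel hBP
        have h2 : ((farCols ν.transpose D - B) + B).sum = (farCols ν.transpose D).sum := by rw [h]
        rw [Multiset.sum_add] at h2
        omega
      have hlt : m - t < m := by omega
      have hμtcard : μ.transpose.card = NN (m - t) + 2 * c := by
        rw [card_transpose_Q, hμcard]
      have hμtD : (D, D) ∉ μ.transpose := not_mem_transpose_Q hμD
      have hKμt : KP (AF (m - t) c c) (AF (m - t) c c) μ.transpose := by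
        refine IH (m - t) hlt c μ.transpose hμtcard hc hμtD ?_ ?_
        · rw [YoungDiagram.transpose_transpose, hE1]
          omega
        · rw [hE1]
          exact hbig
      have hKμ : KP (AF (m - t) c c) (AF (m - t) c c) μ := by
        have := KP_conj3F hKμt
        rwa [YoungDiagram.transpose_transpose] at this
      have hKt := hKP hKμ
      have := KP_conj3F hKt
      rwa [YoungDiagram.transpose_transpose] at this
    · push Not at hCu
      -- peel far columns and use the light case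
      have hP : farCols ν D ≤ colsOf ν := farCols_le _ _
      have hb : ∀ b ∈ farCols ν D, b ≤ D := fun b hb => far_le hD hb
      have hCu' : farE ν.transpose D < 7 * (D * m) := by
        have e2 : 7 * D * m = 7 * (D * m) := by ring
        rw [e2] at hCu
        exact hCu
      have hs : (17 * D + 3 * D) * m ≤ (farCols ν D).sum := by
        have h1 : farE ν D = (farCols ν D).sum := rfl
        have e1 : (17 * D + 3 * D) * m = 20 * (D * m) := by ring
        rw [e1]
        omega
      obtain ⟨t, B, ht3, ht5, hBP, hBsum, hKP⟩ :=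
        peel_pool_c m c D (17 * D) hD1 ν _ hP hb (by omega) (by omega) (le_refl _)
          (by omega) hs
      have htm : t ≤ m := by omega
      have hBc : B ≤ colsOf ν := hBP.trans hP
      set μ := ofCols (colsOf ν - B) with hμ
      have hrem := card_remove (μ := ν) hBc
      have hNNeq := NN_eq m t htm
      have hμcard : μ.card = NN (m - t) + 2 * c := by
        have : μ.card + B.sum = ν.card := hrem
        omega
      have hμD : (D, D) ∉ μ := fun h => hD (remove_subset (μ := ν) D D h hBc)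
      have hfar1 : farCols μ.transpose D = farCols ν.transpose D :=
        farCols_transpose_remove (μ := ν) hD hBP
      have hfar2 : farCols μ D = farCols ν D - B := farCols_remove (μ := ν) hD hBP
      have hC1 : farE μ.transpose D = farE ν.transpose D := by
        show (farCols μ.transpose D).sum = (farCols ν.transpose D).sum
        rw [hfar1]
      have hE1 : farE μ D + stairS m t = farE ν D := by
        show (farCols μ D).sum + stairS m t = (farCols ν D).sum
        rw [hfar2, ← hBsum, ← Multiset.sum_add, tsub_add_cancel_of_le hBP]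
      have hcolμ : μ.colLen 0 = ν.colLen 0 := colLen_remove_Q hD1 hD hBP
      -- the size of the removed staircase
      have hS : stairS m t ≤ 19 * (D * m) := by
        have h1 : stairS m t ≤ t * m := by
          unfold stairS
          calc ∑ i ∈ range t, (m - i) ≤ ∑ _i ∈ range t, m :=
                Finset.sum_le_sum (fun i _ => Nat.sub_le _ _)
            _ = t * m := by simp
        calc stairS m t ≤ t * m := h1
          _ ≤ (19 * D) * m := Nat.mul_le_mul_right _ (by omega)
          _ = 19 * (D * m) := by ring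
      obtain ⟨m', hm'⟩ : ∃ m', m = m' + t := ⟨m - t, by omega⟩
      have hmt : m - t = m' := by omega
      have hDm' : D * m = D * m' + D * t := by rw [hm']; ring
      have hDt19 : D * t ≤ 19 * (D * D) := by
        calc D * t ≤ D * (19 * D) := Nat.mul_le_mul_left _ (by omega)
          _ = 19 * (D * D) := by ring
      refine hKP (light_case_T (m - t) c D hD1 μ hμcard hc hμD (by omega) ?_ ?_ ?_)
      · rw [hC1]
        omega
      · rw [hcolμ]
        omega
      · rw [hC1, hmt]
        have e1 : 8 * D * m' = 8 * (D * m') := by ring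
        rw [e1]
        omega

/-- The regime, when the far columns carry more than the far rows. -/
private theorem regimeII_aux (D m a : ℕ) (hD1 : 1 ≤ D) (ν : YoungDiagram)
    (hm : 10 ^ 6 * (D + 1) ^ 3 ≤ m) (ha : Even a) (ha5 : a ≤ 5 * m) (hν : ν.card = NN m + 2 * a)
    (hD : (D, D) ∉ ν) (hCE : farE ν.transpose D ≤ farE ν D) : KP (AF m a a) (AF m a a) ν := by
  obtain ⟨box, hbox, hsplit⟩ := card_split (μ := ν) hD
  have hcube : (D + 1) ≤ (D + 1) ^ 3 := by
    calc D + 1 = (D + 1) ^ 1 := (pow_one _).symm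
      _ ≤ (D + 1) ^ 3 := Nat.pow_le_pow_right (by omega) (by norm_num)
  have hm2 : 10 ^ 6 * (D + 1) ≤ m := by omega
  have hNN2 := two_NN_Q m
  have hX : 10 ^ 6 * (D * m) ≤ m * (m + 1) := by
    calc 10 ^ 6 * (D * m) = (10 ^ 6 * D) * m := by ring
      _ ≤ m * m := Nat.mul_le_mul_right _ (by omega)
      _ ≤ m * (m + 1) := Nat.mul_le_mul_left _ (by omega)
  have hDD : D ^ 2 ≤ D * m := by
    rw [pow_two]
    exact Nat.mul_le_mul_left _ (by omega)
  have hP : farCols ν D ≤ colsOf ν := farCols_le _ _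
  have hb : ∀ b ∈ farCols ν D, b ≤ D := fun b hb => far_le hD hb
  have hs : 40 * D * m ≤ (farCols ν D).sum := by
    have h1 : farE ν D = (farCols ν D).sum := rfl
    have e1 : 40 * D * m = 40 * (D * m) := by ring
    rw [e1]
    omega
  obtain ⟨t, c, B₁, B₂, ht7, ht11, hce, hc2, hB, hB₁, hB₂, hK⟩ :=
    double_peel m a D hD1 ν _ hP hb (by omega) ha ha5 hs
  refine hK ?_
  set B := B₁ + B₂ with hBdef
  have hBc : B ≤ colsOf ν := hB.trans hP
  set ν₂ := ofCols (colsOf ν - B) with hν₂
  have hBsum : B.sum = B₁.sum + B₂.sum := by rw [hBdef, Multiset.sum_add]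
  have hrem := card_remove (μ := ν) hBc
  have ht1 : t ≤ m := by omega
  have ht2 : t ≤ m - t := by omega
  have hNN1 := NN_eq m t ht1
  have hNN3 := NN_eq (m - t) t ht2
  set m₂ := m - t - t with hm₂
  have hν₂card : ν₂.card = NN m₂ + 2 * c := by
    have : ν₂.card + B.sum = ν.card := hrem
    omega
  have hν₂D : (D, D) ∉ ν₂ := fun h => hD (remove_subset (μ := ν) D D h hBc)
  have hfar1 : farCols ν₂.transpose D = farCols ν.transpose D :=
    farCols_transpose_remove (μ := ν) hD hB
  have hC₂ : farE ν₂.transpose D = farE ν.transpose D := by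
    show (farCols ν₂.transpose D).sum = (farCols ν.transpose D).sum
    rw [hfar1]
  -- the size of `m₂`
  obtain ⟨box₂, hbox₂, hsplit₂⟩ := card_split (μ := ν₂) hν₂D
  have hmm₂ : 900000 * (D + 1) ^ 3 ≤ m₂ := by
    have h22 : 22 * D ≤ 22 * (D + 1) ^ 3 := by
      have : D ≤ (D + 1) ^ 3 := by omega
      omega
    have hsub : m₂ + 22 * D ≥ m := by omega
    omega
  have hNN₂ := two_NN_Q m₂
  have hlow : 810000000000 * (D + 1) ^ 6 ≤ m₂ * (m₂ + 1) := by
    calc 810000000000 * (D + 1) ^ 6 = (900000 * (D + 1) ^ 3) * (900000 * (D + 1) ^ 3) := by ring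
      _ ≤ m₂ * m₂ := Nat.mul_le_mul hmm₂ hmm₂
      _ ≤ m₂ * (m₂ + 1) := Nat.mul_le_mul_left _ (by omega)
  have hDD6 : D ^ 2 ≤ (D + 1) ^ 6 := by
    calc D ^ 2 ≤ (D + 1) ^ 2 := Nat.pow_le_pow_left (by omega) _
      _ ≤ (D + 1) ^ 6 := Nat.pow_le_pow_right (by omega) (by norm_num)
  have hp6 : 0 < (D + 1) ^ 6 := by positivity
  have hsum : 2 * (10 ^ 10 * (D + 1) ^ 6) ≤ farE ν₂.transpose D + farE ν₂ D := by omega
  have hc1 : c < 2 * D := hc2
  by_cases hCE₂ : farE ν₂.transpose D ≤ farE ν₂ D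
  · exact claimQ_T D hD1 m₂ c ν₂ hν₂card hc1 hν₂D hCE₂ (by omega)
  · push Not at hCE₂
    have hDt : (D, D) ∉ ν₂.transpose := not_mem_transpose_Q hν₂D
    have hK₂ : KP (AF m₂ c c) (AF m₂ c c) ν₂.transpose := by
      refine claimQ_T D hD1 m₂ c ν₂.transpose (by rw [card_transpose_Q, hν₂card]) hc1 hDt ?_ ?_
      · rw [YoungDiagram.transpose_transpose]
        omega
      · omega
    have := KP_conj3F hK₂
    rwa [YoungDiagram.transpose_transpose] at this

/-- **Regime of a bounded square.** -/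
theorem regimeII_T : ∀ (D m a : ℕ) (ν : YoungDiagram), 10 ^ 6 * (D + 1) ^ 3 ≤ m → Even a → a ≤ 5 * m →
    ν.card = NN m + 2 * a → (D, D) ∉ ν → KP (AF m a a) (AF m a a) ν := by
  intro D m a ν hm ha ha5 hν hD
  have hNN := two_NN_Q m
  have hcube : 1 ≤ (D + 1) ^ 3 := Nat.one_le_pow _ _ (by omega)
  have hm1 : 10 ^ 6 ≤ m := by
    calc 10 ^ 6 = 10 ^ 6 * 1 := by norm_num
      _ ≤ 10 ^ 6 * (D + 1) ^ 3 := Nat.mul_le_mul_left _ hcube
      _ ≤ m := hm
  rcases Nat.eq_zero_or_pos D with h0 | hD1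
  · -- the diagram is empty
    subst h0
    exfalso
    have hcard0 : ν.card = 0 := by
      have : ν.cells = ∅ := by
        apply Finset.eq_empty_of_forall_notMem
        intro c hc
        have hc' : c ∈ ν := hc
        exact hD (ν.isLowerSet (show ((0, 0) : ℕ × ℕ) ≤ c from ⟨Nat.zero_le _, Nat.zero_le _⟩) hc')
      show ν.cells.card = 0
      rw [this]; rfl
    have hpos : 0 < m * (m + 1) := Nat.mul_pos (by omega) (by omega)
    omega
  · by_cases hCE : farE ν.transpose D ≤ farE ν D
    · exact regimeII_aux D m a hD1 ν hm ha ha5 hν hD hCE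
    · push Not at hCE
      have hDt : (D, D) ∉ ν.transpose := not_mem_transpose_Q hD
      have hK : KP (AF m a a) (AF m a a) ν.transpose := by
        refine regimeII_aux D m a hD1 ν.transpose hm ha ha5 (by rw [card_transpose_Q, hν]) hDt ?_
        rw [YoungDiagram.transpose_transpose]
        omega
      have := KP_conj3F hK
      rwa [YoungDiagram.transpose_transpose] at this

end Vale.Agent.Lib.P197T
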