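import Vale.Agent.Lib.P197T.RegimeIT
import Vale.Agent.Lib.P197T.RegimeIIT

/-!
# P197T: the tensor square conjecture for all large `n`, given the balanced theorem (blueprint Sec 7)
-/

open Equiv Finset

namespace Vale.Agent.Lib.P197T

open Vale.Agent.Lib.P197 Vale.Agent.Lib.P197W Vale.Agent.Lib.P197X

theorem NN_succ_tensor (k : ℕ) : NN (k + 1) = NN k + (k + 1) := by
  show (k + 1) * (k + 1 + 1) / 2 = k * (k + 1) / 2 + (k + 1)
  have h : (k + 1) * (k + 1 + 1) = k * (k + 1) + 2 * (k + 1) := by ring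
  rw [h, Nat.add_mul_div_left _ _ (by norm_num)]

theorem NN_mono_tensor {a b : ℕ} (h : a ≤ b) : NN a ≤ NN b := by
  apply Nat.div_le_div_right
  exact Nat.mul_le_mul h (by omega)

theorem NN_add8 (k : ℕ) : NN (k + 8) = NN k + 8 * k + 36 := by
  have h1 : NN (k + 1) = NN k + (k + 1) := NN_succ_tensor k
  have h2 : NN (k + 2) = NN (k + 1) + (k + 2) := NN_succ_tensor (k + 1)
  have h3 : NN (k + 3) = NN (k + 2) + (k + 3) := NN_succ_tensor (k + 2)
  have h4 : NN (k + 4) = NN (k + 3) + (k + 4) := NN_succ_tensor (k + 3)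
  have h5 : NN (k + 5) = NN (k + 4) + (k + 5) := NN_succ_tensor (k + 4)
  have h6 : NN (k + 6) = NN (k + 5) + (k + 6) := NN_succ_tensor (k + 5)
  have h7 : NN (k + 7) = NN (k + 6) + (k + 7) := NN_succ_tensor (k + 6)
  have h8 : NN (k + 8) = NN (k + 7) + (k + 8) := NN_succ_tensor (k + 7)
  omega

/-- All residues modulo `4` in a window of length `8`. -/
theorem NN_window (K r : ℕ) (hr : r < 4) : ∃ j ≤ 7, NN (K + j) % 4 = r := by
  induction K with
  | zero =>
    have h : r = 0 ∨ r = 1 ∨ r = 2 ∨ r = 3 := by omega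
    rcases h with rfl | rfl | rfl | rfl
    · exact ⟨0, by norm_num, by norm_num⟩
    · exact ⟨1, by norm_num, by norm_num⟩
    · exact ⟨3, by norm_num, by norm_num⟩
    · exact ⟨2, by norm_num, by norm_num⟩
  | succ K ih =>
    obtain ⟨j, hj, hjr⟩ := ih
    rcases Nat.eq_zero_or_pos j with h0 | hpos
    · subst h0
      refine ⟨7, by norm_num, ?_⟩
      have h1 := NN_add8 K
      have h2 : K + 1 + 7 = K + 8 := by ring
      rw [h2, h1]
      have h3 : NN K % 4 = r := hjr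
      omega
    · refine ⟨j - 1, by omega, ?_⟩
      have h2 : K + 1 + (j - 1) = K + j := by omega
      rw [h2]
      exact hjr

/-- Every large `n` is `N_m + 2 s` with `s` even and `s ≤ 5 m`: the residues of `N_m` modulo `4`
have period `8` and take all four values. -/
theorem exists_m_s (M : ℕ) : ∃ n₁ : ℕ, ∀ n ≥ n₁, ∃ m s : ℕ, M ≤ m ∧ 1 ≤ m ∧ Even s ∧ s ≤ 5 * m ∧
    NN m + 2 * s = n := by
  refine ⟨NN (M + 36), fun n hn => ?_⟩
  have hex : ∃ k, n < NN (k + 1) := ⟨n, by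
    have h1 := NN_succ_tensor n
    omega⟩
  classical
  set K := Nat.find hex with hK
  have hK1 : n < NN (K + 1) := Nat.find_spec hex
  have hK2 : NN K ≤ n := by
    rcases Nat.eq_zero_or_pos K with h0 | hpos
    · rw [h0]
      exact Nat.le_trans (by decide : NN 0 ≤ 0) (Nat.zero_le n)
    · have h3 := Nat.find_min hex (m := K - 1) (by omega)
      have h4 : K - 1 + 1 = K := by omega
      rw [h4] at h3
      omega
  have hKM : M + 36 ≤ K := by
    by_contra hcon
    have h1 : K + 1 ≤ M + 36 := by omega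
    have h2 := NN_mono_tensor h1
    omega
  obtain ⟨j, hj, hjr⟩ := NN_window (K - 7) (n % 4) (Nat.mod_lt _ (by norm_num))
  set m := K - 7 + j with hm
  have hmK : m ≤ K := by omega
  have hm1 : NN m ≤ n := (NN_mono_tensor hmK).trans hK2
  have hdvd : 4 ∣ n - NN m := by
    have : (n - NN m) % 4 = 0 := by
      have := Nat.sub_mod_eq_zero_of_mod_eq (m := n) (n := NN m) (k := 4) hjr.symm
      exact this
    exact Nat.dvd_of_mod_eq_zero this
  obtain ⟨t, ht⟩ := hdvd
  have hm8 : NN (K + 1) ≤ NN (m + 8) := NN_mono_tensor (by omega)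
  have h8 := NN_add8 m
  refine ⟨m, 2 * t, by omega, by omega, even_two_mul t, by omega, by omega⟩

/-- **Tensor square conjecture for all large `n`** (from the balanced theorem). -/
theorem tensor_of_base (hB : BaseT) : ∃ n₀ : ℕ, ∀ n ≥ n₀, ∃ la : YoungDiagram, la.card = n ∧
    la.transpose = la ∧ ∀ ν : YoungDiagram, ν.card = n →
      ∀ (T₁ T₂ : Filling n la) (T₃ : Filling n ν), 0 < kronecker T₁ T₂ T₃ := by
  obtain ⟨D₀, hD₀⟩ := regimeI_T hB
  obtain ⟨n₁, hn₁⟩ := exists_m_s (10 ^ 6 * (D₀ + 1) ^ 3)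
  refine ⟨n₁, fun n hn => ?_⟩
  obtain ⟨m, s, hM, hm1, hs, hs5, hns⟩ := hn₁ n hn
  refine ⟨AF m s s, ?_, transpose_AF m s s, fun ν hν T₁ T₂ T₃ => ?_⟩
  · rw [card_AF m s s hm1]
    omega
  · have hν' : ν.card = NN m + 2 * s := hν.trans hns.symm
    by_cases hD : (D₀, D₀) ∈ ν
    · exact kronecker_of_KP (hD₀ m s ν hs hs5 hν' hD) T₁ T₂ T₃
    · exact kronecker_of_KP (regimeII_T D₀ m s ν hM hs hs5 hν' hD) T₁ T₂ T₃

end Vale.Agent.Lib.P197T
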