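import Vale.Agent.Lib.P197T.CoreT
import Vale.Agent.Lib.P197T.Tensor

/-!
# P197T: the balanced theorem for the family (blueprint Sec A14)
-/

open Equiv Finset

namespace Vale.Agent.Lib.P197T

open Vale.Agent.Lib.P197 Vale.Agent.Lib.P197S Vale.Agent.Lib.P197W Vale.Agent.Lib.P197X

private theorem LT_oneF : 1 ≤ LT := by
  unfold LT
  norm_num

private theorem ccT_posF : 0 < ccT := by
  have h : 0 < LT := by linarith [LT_oneF]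
  unfold ccT
  positivity

/-- Compare `paramsR`, with `A = n^(1/20)`, `K₁ = ⌊n^(1/8)⌋`. -/
theorem paramsRT : ∃ n₀ : ℕ, ∀ n ≥ n₀,
    1 ≤ (n : ℝ) ^ (1 / 20 : ℝ) ∧
    16 * LT ^ 3 * ((n : ℝ) ^ (1 / 20 : ℝ)) ^ 2 ≤ (⌊(n : ℝ) ^ (1 / 8 : ℝ)⌋₊ : ℝ) ∧
    (10 : ℝ) ^ 80 * (⌊(n : ℝ) ^ (1 / 8 : ℝ)⌋₊ : ℝ) ^ 7 ≤ n ∧
    5 / ccT ≤ n ∧
    (C3T * ((n : ℝ) ^ (1 / 20 : ℝ)) ^ 2) ^ 3 ≤ ccT * (n : ℝ) ^ 2 := by
  have hcc := ccT_posF
  have hLL := LT_oneF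
  have hev : ∀ (p c : ℝ), 0 < p → ∃ n₀ : ℕ, ∀ n ≥ n₀, c ≤ (n : ℝ) ^ p := by
    intro p c hp
    have h := (tendsto_rpow_atTop hp).comp tendsto_natCast_atTop_atTop
    have h2 := h.eventually_ge_atTop c
    obtain ⟨n₀, hn₀⟩ := Filter.eventually_atTop.1 h2
    exact ⟨n₀, fun n hn => hn₀ n hn⟩
  obtain ⟨n₁, h₁⟩ := hev (1 / 40) (32 * LT ^ 3) (by norm_num)
  obtain ⟨n₂, h₂⟩ := hev (1 / 8) ((10 : ℝ) ^ 80) (by norm_num)
  obtain ⟨n₃, h₃⟩ := hev (17 / 10) (C3T ^ 3 / ccT) (by norm_num)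
  obtain ⟨n₄, h₄⟩ := hev 1 (5 / ccT) (by norm_num)
  refine ⟨max (max n₁ n₂) (max n₃ (max n₄ 1)), ?_⟩
  intro n hn
  have hn1 : n₁ ≤ n := le_trans (le_trans (le_max_left _ _) (le_max_left _ _)) hn
  have hn2 : n₂ ≤ n := le_trans (le_trans (le_max_right _ _) (le_max_left _ _)) hn
  have hn34 : max n₃ (max n₄ 1) ≤ n := le_trans (le_max_right _ _) hn
  have hn3 : n₃ ≤ n := le_trans (le_max_left _ _) hn34
  have hn45 : max n₄ 1 ≤ n := le_trans (le_max_right _ _) hn34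
  have hn4 : n₄ ≤ n := le_trans (le_max_left _ _) hn45
  have hn5 : 1 ≤ n := le_trans (le_max_right _ _) hn45
  have hN1 : (1 : ℝ) ≤ (n : ℝ) := by exact_mod_cast hn5
  have hN0 : (0 : ℝ) < (n : ℝ) := by linarith
  have hA1 : 1 ≤ (n : ℝ) ^ (1 / 20 : ℝ) := Real.one_le_rpow hN1 (by norm_num)
  set A : ℝ := (n : ℝ) ^ (1 / 20 : ℝ) with hA
  have hs := h₁ n hn1
  have he := h₂ n hn2
  set E : ℝ := (n : ℝ) ^ (1 / 8 : ℝ) with hE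
  set S : ℝ := (n : ℝ) ^ (1 / 40 : ℝ) with hS
  have hES : E = A ^ 2 * S := by
    rw [hE, hS, hA, ← Real.rpow_natCast, ← Real.rpow_mul hN0.le, ← Real.rpow_add hN0]
    norm_num
  have hE1 : 1 ≤ E := by
    have : (1 : ℝ) ≤ (10 : ℝ) ^ 80 := by norm_num
    linarith
  have hfl : E / 2 ≤ (⌊E⌋₊ : ℝ) := by
    have h1 := Nat.lt_floor_add_one E
    have h2 : (1 : ℝ) ≤ (⌊E⌋₊ : ℝ) := by
      exact_mod_cast Nat.one_le_floor_iff _ |>.2 hE1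
    linarith
  have hfl2 : (⌊E⌋₊ : ℝ) ≤ E := Nat.floor_le (by linarith)
  refine ⟨hA1, ?_, ?_, ?_, ?_⟩
  · have hA20 : 0 ≤ A ^ 2 := by positivity
    have h2 : 16 * LT ^ 3 * A ^ 2 ≤ A ^ 2 * S / 2 := by
      have : A ^ 2 * (32 * LT ^ 3) ≤ A ^ 2 * S := mul_le_mul_of_nonneg_left hs hA20
      linarith
    have hfl' : A ^ 2 * S / 2 ≤ (⌊E⌋₊ : ℝ) := by
      rw [← hES]
      exact hfl
    linarith
  · have h7 : (⌊E⌋₊ : ℝ) ^ 7 ≤ E ^ 7 := pow_le_pow_left₀ (by positivity) hfl2 7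
    have h8 : E ^ 8 = (n : ℝ) := by
      rw [hE, ← Real.rpow_natCast, ← Real.rpow_mul hN0.le]
      norm_num
    have h9 : (10 : ℝ) ^ 80 * E ^ 7 ≤ E * E ^ 7 :=
      mul_le_mul_of_nonneg_right he (by positivity)
    calc (10 : ℝ) ^ 80 * (⌊E⌋₊ : ℝ) ^ 7 ≤ (10 : ℝ) ^ 80 * E ^ 7 :=
          mul_le_mul_of_nonneg_left h7 (by norm_num)
      _ ≤ E * E ^ 7 := h9
      _ = E ^ 8 := by ring
      _ = n := h8
  · have := h₄ n hn4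
    rwa [Real.rpow_one] at this
  · have h17 := h₃ n hn3
    have h2 : (n : ℝ) ^ 2 = (A ^ 2) ^ 3 * (n : ℝ) ^ (17 / 10 : ℝ) := by
      rw [hA, ← pow_mul, ← Real.rpow_natCast ((n : ℝ) ^ (1 / 20 : ℝ)), ← Real.rpow_mul hN0.le,
        ← Real.rpow_add hN0, ← Real.rpow_natCast (n : ℝ) 2]
      norm_num
    have h3 : C3T ^ 3 ≤ ccT * (n : ℝ) ^ (17 / 10 : ℝ) := by
      rw [div_le_iff₀ hcc] at h17
      linarith
    have hA6 : 0 ≤ (A ^ 2) ^ 3 := by positivity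
    calc (C3T * A ^ 2) ^ 3 = (A ^ 2) ^ 3 * C3T ^ 3 := by ring
      _ ≤ (A ^ 2) ^ 3 * (ccT * (n : ℝ) ^ (17 / 10 : ℝ)) := mul_le_mul_of_nonneg_left h3 hA6
      _ = ccT * ((A ^ 2) ^ 3 * (n : ℝ) ^ (17 / 10 : ℝ)) := by ring
      _ = ccT * (n : ℝ) ^ 2 := by rw [← h2]

/-- `η * (432 A²) ≤ 1` for `η = 200000 / m`, `m ≥ √n`, `A = n^(1/20)`. -/
theorem params_eta : ∃ n₀ : ℕ, ∀ n ≥ n₀, ∀ m : ℕ, (n : ℝ) ≤ (m : ℝ) ^ 2 →
    200000 / (m : ℝ) * (432 * ((n : ℝ) ^ (1 / 20 : ℝ)) ^ 2) ≤ 1 := by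
  have h := (tendsto_rpow_atTop (show (0 : ℝ) < 2 / 5 by norm_num)).comp tendsto_natCast_atTop_atTop
  have h2 := h.eventually_ge_atTop ((200000 : ℝ) * 432)
  obtain ⟨n₁, hn₁⟩ := Filter.eventually_atTop.1 h2
  refine ⟨max n₁ 1, ?_⟩
  intro n hn m hm
  have hn1 : n₁ ≤ n := le_trans (le_max_left _ _) hn
  have hn2 : 1 ≤ n := le_trans (le_max_right _ _) hn
  have hN1 : (1 : ℝ) ≤ (n : ℝ) := by exact_mod_cast hn2
  have hN0 : (0 : ℝ) < (n : ℝ) := by linarith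
  have hP : (200000 : ℝ) * 432 ≤ (n : ℝ) ^ (2 / 5 : ℝ) := hn₁ n hn1
  set A : ℝ := (n : ℝ) ^ (1 / 20 : ℝ) with hA
  set P : ℝ := (n : ℝ) ^ (2 / 5 : ℝ) with hPdef
  have hAP : Real.sqrt n = A ^ 2 * P := by
    rw [Real.sqrt_eq_rpow, hPdef, hA, ← Real.rpow_natCast, ← Real.rpow_mul hN0.le,
      ← Real.rpow_add hN0]
    norm_num
  have hA0 : 0 < A := Real.rpow_pos_of_pos hN0 _
  have hS0 : 0 < Real.sqrt n := Real.sqrt_pos.2 hN0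
  have hSm : Real.sqrt n ≤ (m : ℝ) := by
    rw [Real.sqrt_le_left (Nat.cast_nonneg m)]
    exact hm
  have hm0 : (0 : ℝ) < (m : ℝ) := lt_of_lt_of_le hS0 hSm
  rw [div_mul_eq_mul_div, div_le_one hm0]
  have hA20 : 0 ≤ A ^ 2 := by positivity
  calc 200000 * (432 * A ^ 2) = A ^ 2 * ((200000 : ℝ) * 432) := by ring
    _ ≤ A ^ 2 * P := mul_le_mul_of_nonneg_left hP hA20
    _ = Real.sqrt n := hAP.symm
    _ ≤ m := hSm

/-- **The balanced theorem for the family.** -/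
theorem balancedT : BaseT := by
  obtain ⟨n₀, hn₀⟩ := paramsRT
  obtain ⟨n₁, hn₁⟩ := params_eta
  refine ⟨max (max n₀ n₁) 1000000, ?_⟩
  intro m hm a ν ha ha5 hν hr hc
  have hm6 : 1000000 ≤ m := le_trans (le_max_right _ _) hm
  have hm0 : n₀ ≤ m := le_trans (le_trans (le_max_left _ _) (le_max_left _ _)) hm
  have hm1 : n₁ ≤ m := le_trans (le_trans (le_max_right _ _) (le_max_left _ _)) hm
  obtain ⟨n, hn⟩ : ∃ n : ℕ, n = NN m + 2 * a := ⟨_, rfl⟩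
  rw [← hn] at hν hr hc
  have hNN2 : 2 * NN m = m * (m + 1) := Nat.two_mul_div_two_of_even (Nat.even_mul_succ_self m)
  have hNNm : m ≤ NN m := by nlinarith
  have hnm : m ≤ n := by omega
  have hnn : NN m + a + a = n := by omega
  have hn0 : 0 < n := by omega
  have hN0 : (0 : ℝ) < (n : ℝ) := by exact_mod_cast hn0
  obtain ⟨hA, hA2, hK, h5, hnA⟩ := hn₀ n (hm0.trans hnm)
  set A : ℝ := (n : ℝ) ^ (1 / 20 : ℝ) with hAdef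
  set K₁ : ℕ := ⌊(n : ℝ) ^ (1 / 8 : ℝ)⌋₊ with hK₁
  have hsplit : (n : ℝ) ^ (11 / 20 : ℝ) = A * Real.sqrt n := by
    rw [Real.sqrt_eq_rpow, hAdef, ← Real.rpow_add hN0]
    norm_num
  rw [hsplit] at hr hc
  obtain ⟨T₁⟩ := exists_fillingAF m a a n (by omega) hnn
  obtain ⟨T₃⟩ := exists_filling n ν hν
  have hcm : ClassMult n (rr T₃) :=
    ⟨fun π σ h => rr_of_cycleType_eq T₃ π σ h, fun x y => rr_mul T₃ x y⟩
  have hK5000 : 5000 ≤ K₁ := by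
    have hLT : (1000 : ℝ) ≤ LT ^ 3 := by
      unfold LT
      norm_num
    have hA20 : 1 ≤ A ^ 2 := one_le_pow₀ hA
    have h1 : (5000 : ℝ) ≤ (K₁ : ℝ) := by nlinarith
    exact_mod_cast h1
  have H : NumHypT n K₁ := ⟨hK5000, hK⟩
  obtain ⟨x₃, hx₃⟩ : ∃ x : Perm (Fin n), x.cycleType = {3} := by
    apply (Perm.exists_with_cycleType_iff (α := Fin n)).2
    constructor
    · simp only [Multiset.sum_singleton, Fintype.card_fin]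
      omega
    · intro x hx
      simp only [Multiset.mem_singleton] at hx
      omega
  have R := rhoT_AF K₁ m a hm6 ha ha5 hnn H T₁ x₃ hx₃
  have hnm2 : (n : ℝ) ≤ (m : ℝ) ^ 2 := by
    have h1 : n ≤ m ^ 2 := by nlinarith
    exact_mod_cast h1
  have hη := hn₁ n (hm1.trans hnm) m hnm2
  have hW := huge_restrictedT T₃ (rr T₁) R.gen A hA hr hc h5 hnA
  have hpos := assemble_coreT K₁ A hA hA2 hK (rr T₁) (rr T₃) x₃ _ _ _ R hη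
    (nuB_of_shape T₃ hn0 _ hr hc) hcm (rr_one T₃) hW
  refine ⟨n, T₁, T₁, T₃, ?_⟩
  have e : ∑ π : Perm (Fin n), rr T₁ π * rr T₁ π * rr T₃ π = ∑ π, rr T₁ π ^ 2 * rr T₃ π :=
    Finset.sum_congr rfl fun π _ => by ring
  rw [e]
  exact hpos.ne'

end Vale.Agent.Lib.P197T
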