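import Vale.Agent.Lib.P197T.RLemma
import Vale.Agent.Lib.P197T.Dims

/-!
# P197T: the generic character bound for the family (blueprint Sec A7)
-/

open Equiv Finset

namespace Vale.Agent.Lib.P197T

open Vale.Agent.Lib.P197 Vale.Agent.Lib.P197W Vale.Agent.Lib.P197X

namespace GenericAux

variable {n : ℕ}

lemma formula_AF (m a b : ℕ) (hm : 1 ≤ m) (hn : NN m + a + b = n) (π : Perm (Fin n)) :
    (frobF (m + b) (AF m a b) π : ℝ) = ∑ φ ∈ invOn (m + b) π, dimX (n - sp π)
      (fun i => (betaN m a b i : ℤ) - contOn φ i) := by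
  have hc : (AF m a b).card = n := by rw [card_AF m a b hm, hn]
  have hN : (AF m a b).colLen 0 ≤ m + b := by rw [colLen_AF_zero m a b hm]
  rw [frobF_formula (m + b) hc hN π]
  refine Finset.sum_congr rfl fun φ _ => ?_
  rfl

private lemma sp_one : sp (1 : Perm (Fin n)) = 0 := by simp [sp]

/-- The dimension of the family member. -/
lemma ff_AF (m a b : ℕ) (hm : 1 ≤ m) (hn : NN m + a + b = n) (T : Filling n (AF m a b)) :
    (ff T : ℝ) = (n.factorial : ℝ) * (vdm (fun i => (betaN m a b i : ℤ)) : ℝ) /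
      ∏ i, ((betaN m a b i).factorial : ℝ) := by
  have hN : (AF m a b).colLen 0 ≤ m + b := by rw [colLen_AF_zero m a b hm]
  have h1 := ff_rr_eq_frobF T (m + b) hN (1 : Perm (Fin n))
  rw [rr_one, mul_one, formula_AF m a b hm hn] at h1
  rw [h1]
  have hinv : invOn (m + b) (1 : Perm (Fin n)) = {fun x => absurd x.2 (by simp)} := by
    ext φ
    simp only [P197.invOn, mem_filter, mem_univ, true_and, mem_singleton]
    constructor
    · intro _
      funext x
      exact absurd x.2 (by simp)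
    · intro _ x
      exact absurd x.2 (by simp)
  rw [hinv, Finset.sum_singleton, sp_one, Nat.sub_zero]
  have hcont : ∀ (φ : {x // x ∈ (1 : Perm (Fin n)).support} → Fin (m + b)) (i : Fin (m + b)),
      contOn φ i = 0 := by
    intro φ i
    simp only [contOn]
    have : (univ.filter fun x => φ x = i) = ∅ := by
      ext x
      exact absurd x.2 (by simp)
    rw [this]
    simp
  have hv : (fun i : Fin (m + b) => (betaN m a b i : ℤ) -
      contOn (fun x : {x // x ∈ (1 : Perm (Fin n)).support} =>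
        (absurd x.2 (by simp) : Fin (m + b))) i) =
      fun i => (betaN m a b i : ℤ) := by
    funext i
    rw [hcont]
    ring
  rw [hv]
  simp only [dimX]
  rw [if_pos (fun i => by positivity)]
  simp

/-- Bound for one colouring. -/
lemma term_bound (m a b : ℕ) (hm : 10 ≤ m) (ha : a ≤ 5 * m) (hb : b ≤ 5 * m)
    (hn : NN m + a + b = n) (T : Filling n (AF m a b))
    (π : Perm (Fin n)) (φ : {x // x ∈ π.support} → Fin (m + b)) (hφ : φ ∈ invOn (m + b) π) :
    |dimX (n - sp π) (fun i => (betaN m a b i : ℤ) - contOn φ i)| / (ff T : ℝ) ≤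
      ((n - sp π).factorial : ℝ) / (n.factorial : ℝ) *
        ((2 : ℝ) ^ (Multiset.card π.cycleType) * (100 * (m : ℝ)) ^ sp π) := by
  have hm1 : 1 ≤ m := by omega
  have hff : (0 : ℝ) < (ff T : ℝ) := by exact_mod_cast ff_pos T
  have hnf : (0 : ℝ) < (n.factorial : ℝ) := by positivity
  by_cases hnn : ∀ i, 0 ≤ (betaN m a b i : ℤ) - contOn φ i
  swap
  · simp only [dimX]
    rw [if_neg hnn]
    simp only [abs_zero, zero_div]
    positivity
  set x : Fin (m + b) → ℕ := fun i => ((betaN m a b i : ℤ) - contOn φ i).toNat with hxdef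
  have hxcast : ∀ i, ((x i : ℕ) : ℤ) = (betaN m a b i : ℤ) - contOn φ i := fun i =>
    Int.toNat_of_nonneg (hnn i)
  have hcont0 : ∀ i, 0 ≤ contOn φ i := fun i => by
    simp only [contOn]
    positivity
  have hxle : ∀ i, x i ≤ betaN m a b i := by
    intro i
    have h1 := hxcast i
    have h2 := hcont0 i
    omega
  have hinj : Function.Injective (betaN m a b) := (betaN_strictAnti m a b hm1).injective
  have hB := lemmaBG (betaN m a b) hinj x
  have hvec : (fun i => (betaN m a b i : ℤ) - contOn φ i) = fun i => ((x i : ℕ) : ℤ) := by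
    funext i
    exact (hxcast i).symm
  have hdim : dimX (n - sp π) (fun i => (betaN m a b i : ℤ) - contOn φ i) =
      ((n - sp π).factorial : ℝ) * (vdm (fun i => ((x i : ℕ) : ℤ)) : ℝ) /
        ∏ i, ((x i).factorial : ℝ) := by
    rw [hvec]
    simp only [dimX]
    rw [if_pos (fun i => by positivity)]
    simp
  have hffv := ff_AF m a b hm1 hn T
  set Vb : ℝ := (vdm (fun i => (betaN m a b i : ℤ)) : ℝ) with hVb
  set Pb : ℝ := ∏ i, ((betaN m a b i).factorial : ℝ) with hPb
  set Vx : ℝ := (vdm (fun i => ((x i : ℕ) : ℤ)) : ℝ) with hVx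
  set Px : ℝ := ∏ i, ((x i).factorial : ℝ) with hPx
  have hPbpos : 0 < Pb := Finset.prod_pos fun i _ => by positivity
  have hPxpos : 0 < Px := Finset.prod_pos fun i _ => by positivity
  have hVbpos : 0 < Vb := by
    have h1 : 0 < (n.factorial : ℝ) * Vb / Pb := by rw [← hffv]; exact hff
    have h2 : 0 < (n.factorial : ℝ) * Vb := by
      have := mul_pos h1 hPbpos
      rwa [div_mul_cancel₀ _ hPbpos.ne'] at this
    exact (mul_pos_iff_of_pos_left hnf).mp h2
  have hLHS : |dimX (n - sp π) (fun i => (betaN m a b i : ℤ) - contOn φ i)| / (ff T : ℝ) =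
      ((n - sp π).factorial : ℝ) / (n.factorial : ℝ) *
        ((Pb / Px) * |Vx| / |Vb|) := by
    rw [hdim, hffv, abs_div, abs_mul, abs_of_pos hPxpos, abs_of_pos hVbpos,
      abs_of_nonneg (by positivity : (0 : ℝ) ≤ ((n - sp π).factorial : ℝ))]
    field_simp
  rw [hLHS]
  apply mul_le_mul_of_nonneg_left _ (by positivity)
  have hS : (univ.filter fun i => x i ≠ betaN m a b i).card ≤ Multiset.card π.cycleType := by
    refine le_trans (Finset.card_le_card ?_) (invOn_image_card_le (m + b) π φ hφ)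
    intro i hi
    simp only [mem_filter, mem_univ, true_and] at hi ⊢
    intro h0
    apply hi
    have h1 := hxcast i
    rw [h0] at h1
    omega
  have hsum : ∑ i, (betaN m a b i - x i) = sp π := by
    have h1 := contOn_sum (m + b) π φ
    have h2 : ((∑ i, (betaN m a b i - x i) : ℕ) : ℤ) = ∑ i, contOn φ i := by
      push_cast
      refine Finset.sum_congr rfl fun i _ => ?_
      have h3 := hxcast i
      have h4 := hxle i
      omega
    rw [h1] at h2
    exact_mod_cast h2
  have hm' : (0 : ℝ) ≤ 100 * (m : ℝ) := by positivity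
  have hratio : ∏ i, (PsiG (betaN m a b) (x i) / PsiG (betaN m a b) (betaN m a b i)) ≤
      (100 * (m : ℝ)) ^ sp π := by
    rw [← hsum, ← Finset.prod_pow_eq_pow_sum]
    refine Finset.prod_le_prod (fun i _ => (div_pos (PsiG_pos _ _) (PsiG_pos _ _)).le) fun i _ => ?_
    exact psi_ratio m a b hm ha hb _ _ (hxle i) (betaN_le m a b hm1 i)
  have hprodnn : 0 ≤ ∏ i, (PsiG (betaN m a b) (x i) / PsiG (betaN m a b) (betaN m a b i)) :=
    Finset.prod_nonneg fun i _ => (div_pos (PsiG_pos _ _) (PsiG_pos _ _)).le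
  calc (Pb / Px) * |Vx| / |Vb|
      ≤ (2 : ℝ) ^ (univ.filter fun i => x i ≠ betaN m a b i).card *
          ∏ i, (PsiG (betaN m a b) (x i) / PsiG (betaN m a b) (betaN m a b i)) := hB
    _ ≤ (2 : ℝ) ^ (Multiset.card π.cycleType) * (100 * (m : ℝ)) ^ sp π := by
        apply mul_le_mul _ hratio hprodnn (by positivity)
        exact pow_le_pow_right₀ (by norm_num) hS

theorem strong_numeric (l r : ℕ) (hlr : l ≤ r) :
    (7200 : ℝ) ^ l * 432 ^ r ≤ 2000 ^ (l + r) := by
  obtain ⟨e, rfl⟩ : ∃ e, r = l + e := ⟨r - l, by omega⟩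
  have h1 : (7200 : ℝ) ^ l * 432 ^ (l + e) = 3110400 ^ l * 432 ^ e := by
    rw [pow_add, ← mul_assoc, ← mul_pow]
    norm_num
  have h2 : (2000 : ℝ) ^ (l + (l + e)) = 4000000 ^ l * 2000 ^ e := by
    rw [← add_assoc, pow_add, pow_add, ← mul_pow]
    norm_num
  rw [h1, h2]
  exact mul_le_mul (pow_le_pow_left₀ (by norm_num) (by norm_num) l)
    (pow_le_pow_left₀ (by norm_num) (by norm_num) e) (by positivity) (by positivity)

end GenericAux

open GenericAux in
/-- `frobF_formula` with `N = m + b`, `lemmaBG`, `psi_ratio`, `invOn_card_le`,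
`invOn_image_card_le`. Compare `rr_staircase_le`. -/
theorem rr_AF_le {n : ℕ} (m a b : ℕ) (hm : 10 ≤ m) (ha : a ≤ 5 * m) (hb : b ≤ 5 * m)
    (hn : NN m + a + b = n) (T : Filling n (AF m a b)) (π : Perm (Fin n)) :
    |rr T π| ≤ ((n - sp π).factorial : ℝ) / (n.factorial : ℝ) *
      (2 * ((m : ℝ) + b)) ^ (Multiset.card π.cycleType) * (100 * (m : ℝ)) ^ sp π := by
  have hm1 : 1 ≤ m := by omega
  have hff : (0 : ℝ) < (ff T : ℝ) := by exact_mod_cast ff_pos T
  have hN : (AF m a b).colLen 0 ≤ m + b := by rw [colLen_AF_zero m a b hm1]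
  have h1 := ff_rr_eq_frobF T (m + b) hN π
  have h2 : rr T π = (frobF (m + b) (AF m a b) π : ℝ) / (ff T : ℝ) := by
    rw [← h1]
    field_simp
  rw [h2, formula_AF m a b hm1 hn, abs_div, abs_of_pos hff]
  set C : ℝ := ((n - sp π).factorial : ℝ) / (n.factorial : ℝ) *
        ((2 : ℝ) ^ (Multiset.card π.cycleType) * (100 * (m : ℝ)) ^ sp π) with hC
  have h3 : |∑ φ ∈ invOn (m + b) π, dimX (n - sp π) (fun i => (betaN m a b i : ℤ) - contOn φ i)| /
      (ff T : ℝ) ≤ ∑ φ ∈ invOn (m + b) π, C := by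
    rw [div_le_iff₀ hff, Finset.sum_mul]
    refine (Finset.abs_sum_le_sum_abs _ _).trans (Finset.sum_le_sum fun φ hφ => ?_)
    have := term_bound m a b hm ha hb hn T π φ hφ
    rwa [div_le_iff₀ hff] at this
  rw [Finset.sum_const, nsmul_eq_mul] at h3
  have hCnn : 0 ≤ C := by positivity
  have h4 : ((invOn (m + b) π).card : ℝ) ≤ ((m : ℝ) + b) ^ Multiset.card π.cycleType := by
    have := invOn_card_le (m + b) π
    exact_mod_cast this
  calc _ ≤ ((invOn (m + b) π).card : ℝ) * C := h3
    _ ≤ ((m : ℝ) + b) ^ Multiset.card π.cycleType * C := mul_le_mul_of_nonneg_right h4 hCnn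
    _ = _ := by
        have e : (2 * ((m : ℝ) + b)) ^ (Multiset.card π.cycleType) =
            2 ^ (Multiset.card π.cycleType) * ((m : ℝ) + b) ^ (Multiset.card π.cycleType) :=
          mul_pow _ _ _
        rw [hC, e]
        ring

/-- The size of the family against `m²`. -/
theorem NN_bounds (m a b n : ℕ) (ha : a ≤ 5 * m) (hb : b ≤ 5 * m) (hm : 600 ≤ m)
    (hn : NN m + a + b = n) : (m : ℝ) ^ 2 / 2 ≤ n ∧ (n : ℝ) ≤ 0.518 * (m : ℝ) ^ 2 := by
  have h2 : 2 * NN m = m * (m + 1) := Nat.two_mul_div_two_of_even (Nat.even_mul_succ_self m)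
  have h2' : 2 * (NN m : ℝ) = (m : ℝ) * ((m : ℝ) + 1) := by exact_mod_cast h2
  have hn' : (n : ℝ) = (NN m : ℝ) + a + b := by rw [← hn]; push_cast; ring
  have ha' : (a : ℝ) ≤ 5 * m := by exact_mod_cast ha
  have hb' : (b : ℝ) ≤ 5 * m := by exact_mod_cast hb
  have ha0 : (0 : ℝ) ≤ a := Nat.cast_nonneg a
  have hb0 : (0 : ℝ) ≤ b := Nat.cast_nonneg b
  have hm' : (600 : ℝ) ≤ m := by exact_mod_cast hm
  constructor
  · rw [hn']
    nlinarith
  · rw [hn']
    nlinarith

open GenericAux in
/-- The bound in the usual form: `432^r 7200^ℓ ≤ 2000^(r+ℓ)` as `ℓ ≤ r`, `1 / m ≤ 0.72 / √n`. -/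
theorem rr_AF_strong {n : ℕ} (m a b : ℕ) (hm : 600 ≤ m) (ha : a ≤ 5 * m) (hb : b ≤ 5 * m)
    (hn : NN m + a + b = n) (T : Filling n (AF m a b)) (π : Perm (Fin n)) :
    |rr T π| ≤ (2000 : ℝ) ^ sp π * ((Real.sqrt n)⁻¹) ^ rk π := by
  obtain ⟨hn1, -⟩ := NN_bounds m a b n ha hb hm hn
  have hm' : (600 : ℝ) ≤ m := by exact_mod_cast hm
  have hmpos : (0 : ℝ) < m := by linarith
  have hn' : (0 : ℝ) < n := by nlinarith
  have hnpos : 0 < n := by exact_mod_cast hn'
  set k := sp π with hk
  set l := Multiset.card π.cycleType with hl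
  have hrk : rk π = k - l := rfl
  have hlk : 2 * l ≤ k := by
    have h := Multiset.card_nsmul_le_sum (s := π.cycleType) (a := 2)
      (fun x hx => Equiv.Perm.two_le_of_mem_cycleType hx)
    simp only [smul_eq_mul] at h
    have h2 : k = π.cycleType.sum := rfl
    omega
  have hkn : k ≤ n := by
    have h : k = π.support.card := Equiv.Perm.sum_cycleType π
    rw [h]
    simpa using Finset.card_le_univ π.support
  have h0 := rr_AF_le m a b (by omega) ha hb hn T π
  have h1 := fact_ratio_le (n := n) k hnpos hkn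
  set s := Real.sqrt (n : ℝ) with hs
  have hspos : 0 < s := Real.sqrt_pos.mpr hn'
  have hss : s * s = n := Real.mul_self_sqrt hn'.le
  have hms : (m : ℝ) ≤ 1.44 * s := by
    by_contra hcon
    have hcon' := not_le.mp hcon
    nlinarith
  have hb' : (b : ℝ) ≤ 5 * m := by exact_mod_cast hb
  have hb0 : (0 : ℝ) ≤ b := Nat.cast_nonneg b
  set A : ℝ := 3 / (n : ℝ) with hA
  set C : ℝ := 2 * ((m : ℝ) + b) with hC
  set D : ℝ := 100 * (m : ℝ) with hD
  have hA0 : 0 ≤ A := by positivity
  have hC0 : 0 ≤ C := by positivity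
  have hD0 : 0 ≤ D := by positivity
  have hACD : A * C * D ≤ 7200 := by
    have h3 : A * C * D = 3 * C * D / n := by
      rw [hA]
      field_simp
    rw [h3, div_le_iff₀ hn']
    have h4 : C * D ≤ 12 * m * (100 * m) := by
      apply mul_le_mul _ le_rfl hD0 (by positivity)
      rw [hC]
      linarith
    nlinarith
  have hAD : A * D ≤ 432 * s⁻¹ := by
    have h6 : A * D = 300 * (m : ℝ) / (s * s) := by
      rw [hA, hD, hss]
      field_simp
      ring
    have h7 : 432 * s⁻¹ = 432 * s / (s * s) := by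
      field_simp
    rw [h6, h7]
    apply div_le_div_of_nonneg_right _ (by positivity)
    linarith
  obtain ⟨r, hr⟩ : ∃ r, k = l + r := ⟨k - l, by omega⟩
  have hrr : k - l = r := by omega
  have hlr : l ≤ r := by omega
  rw [hrk, hrr]
  have hsinv : 0 ≤ s⁻¹ := by positivity
  calc |rr T π| ≤ ((n - k).factorial : ℝ) / (n.factorial : ℝ) * C ^ l * D ^ k := h0
    _ ≤ A ^ k * C ^ l * D ^ k := by
        apply mul_le_mul_of_nonneg_right _ (by positivity)
        apply mul_le_mul_of_nonneg_right h1 (by positivity)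
    _ = (A * C * D) ^ l * (A * D) ^ r := by
        rw [hr]
        ring_nf
    _ ≤ 7200 ^ l * (432 * s⁻¹) ^ r := by
        apply mul_le_mul
        · exact pow_le_pow_left₀ (by positivity) hACD l
        · exact pow_le_pow_left₀ (by positivity) hAD r
        · positivity
        · positivity
    _ = (7200 ^ l * 432 ^ r) * s⁻¹ ^ r := by
        rw [mul_pow]
        ring
    _ ≤ 2000 ^ (l + r) * s⁻¹ ^ r := by
        apply mul_le_mul_of_nonneg_right (strong_numeric l r hlr) (by positivity)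
    _ = 2000 ^ k * s⁻¹ ^ r := by rw [hr]

end Vale.Agent.Lib.P197T
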