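import Vale.Agent.Lib.P197T.Family

/-!
# P197T: Lemma B for arbitrary beads (blueprint Sec A5)
-/

open Equiv Finset

namespace Vale.Agent.Lib.P197T

open Vale.Agent.Lib.P197 Vale.Agent.Lib.P197W Vale.Agent.Lib.P197X

/-- The product of the distances from `y` to the beads other than `y`. -/
noncomputable def WG {N : ℕ} (β : Fin N → ℕ) (y : ℕ) : ℝ :=
  ∏ t, if β t ≠ y then |(y : ℝ) - (β t : ℝ)| else 1

/-- `WG` divided by the factorial. -/
noncomputable def PsiG {N : ℕ} (β : Fin N → ℕ) (y : ℕ) : ℝ := WG β y / (y.factorial : ℝ)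

theorem WG_pos {N : ℕ} (β : Fin N → ℕ) (y : ℕ) : 0 < WG β y := by
  unfold WG
  refine Finset.prod_pos fun t _ => ?_
  by_cases h : β t ≠ y
  · rw [if_pos h, abs_pos, sub_ne_zero]
    intro h2
    exact h (by exact_mod_cast h2.symm)
  · rw [if_neg h]
    exact one_pos

theorem PsiG_pos {N : ℕ} (β : Fin N → ℕ) (y : ℕ) : 0 < PsiG β y := by
  unfold PsiG
  have h := WG_pos β y
  positivity

namespace LemmaBGAux

lemma range_sum (N : ℕ) :
    ∑ j ∈ range (N + 1), ((((j + 1 : ℕ) : ℝ)) ^ 2)⁻¹ ≤ 2 - ((N : ℝ) + 1)⁻¹ := by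
  induction N with
  | zero => norm_num
  | succ N ih =>
    rw [sum_range_succ]
    have h : (((N + 1 + 1 : ℕ) : ℝ) ^ 2)⁻¹ ≤
        ((N : ℝ) + 1)⁻¹ - (((N + 1 : ℕ) : ℝ) + 1)⁻¹ := by
      push_cast
      have hN : (0 : ℝ) ≤ N := Nat.cast_nonneg N
      have e : ((N : ℝ) + 1)⁻¹ - ((N : ℝ) + 1 + 1)⁻¹ =
          (((N : ℝ) + 1) * ((N : ℝ) + 2))⁻¹ := by
        field_simp
        ring
      rw [e]
      apply inv_anti₀ (by positivity)
      nlinarith
    linarith

lemma pos_sum (C : Finset ℕ) (hC : ∀ c ∈ C, 1 ≤ c) :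
    ∑ c ∈ C, ((c : ℝ) ^ 2)⁻¹ ≤ 2 := by
  set N := C.sup id with hN
  have hsub : C ⊆ (range (N + 1)).image (fun j : ℕ => j + 1) := by
    intro c hc
    have h1 := hC c hc
    refine mem_image.2 ⟨c - 1, ?_, by omega⟩
    have : c ≤ N := Finset.le_sup (f := id) hc
    exact mem_range.2 (by omega)
  calc ∑ c ∈ C, ((c : ℝ) ^ 2)⁻¹
      ≤ ∑ c ∈ (range (N + 1)).image (fun j : ℕ => j + 1), ((c : ℝ) ^ 2)⁻¹ :=
        sum_le_sum_of_subset_of_nonneg hsub (fun _ _ _ => by positivity)
    _ = ∑ j ∈ range (N + 1), (((j + 1 : ℕ) : ℝ) ^ 2)⁻¹ := by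
        rw [sum_image]
        intro a _ b _ h
        have : a + 1 = b + 1 := h
        omega
    _ ≤ 2 - ((N : ℝ) + 1)⁻¹ := range_sum N
    _ ≤ 2 := by
        have : (0 : ℝ) ≤ ((N : ℝ) + 1)⁻¹ := by positivity
        linarith

variable {N : ℕ} (β : Fin N → ℕ)

/-- The row sum at a point which is not a bead. -/
lemma row_sum_nonbead (hβ : Function.Injective β) (x : ℕ) (hx : ∀ t, β t ≠ x) :
    ∑ l : Fin N, (((x : ℝ) - (β l : ℝ)) ^ 2)⁻¹ ≤ 4 := by
  have hsplit := (sum_filter_add_sum_filter_not (univ : Finset (Fin N)) (fun l => β l < x)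
    (fun l => (((x : ℝ) - (β l : ℝ)) ^ 2)⁻¹))
  rw [← hsplit]
  have h1 : ∑ l ∈ univ.filter (fun l : Fin N => β l < x),
      (((x : ℝ) - (β l : ℝ)) ^ 2)⁻¹ ≤ 2 := by
    have hinj : Set.InjOn (fun l : Fin N => x - β l)
        (univ.filter (fun l : Fin N => β l < x) : Finset (Fin N)) := by
      intro a ha b hb hab
      have ha' := (mem_filter.1 (mem_coe.1 ha)).2
      have hb' := (mem_filter.1 (mem_coe.1 hb)).2
      have hab' : x - β a = x - β b := hab
      apply hβ
      omega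
    have := pos_sum ((univ.filter (fun l : Fin N => β l < x)).image
      (fun l : Fin N => x - β l)) (by
        intro c hc
        obtain ⟨l, hl, rfl⟩ := mem_image.1 hc
        have hl' := (mem_filter.1 hl).2
        omega)
    rw [sum_image hinj] at this
    refine le_trans (le_of_eq ?_) this
    refine sum_congr rfl fun l hl => ?_
    have hl' := (mem_filter.1 hl).2
    rw [Nat.cast_sub hl'.le]
  have h2 : ∑ l ∈ univ.filter (fun l : Fin N => ¬ β l < x),
      (((x : ℝ) - (β l : ℝ)) ^ 2)⁻¹ ≤ 2 := by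
    have hinj : Set.InjOn (fun l : Fin N => β l - x)
        (univ.filter (fun l : Fin N => ¬ β l < x) : Finset (Fin N)) := by
      intro a ha b hb hab
      have ha' := (mem_filter.1 (mem_coe.1 ha)).2
      have hb' := (mem_filter.1 (mem_coe.1 hb)).2
      have hab' : β a - x = β b - x := hab
      apply hβ
      omega
    have := pos_sum ((univ.filter (fun l : Fin N => ¬ β l < x)).image
      (fun l : Fin N => β l - x)) (by
        intro c hc
        obtain ⟨l, hl, rfl⟩ := mem_image.1 hc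
        have hl' := (mem_filter.1 hl).2
        have hl2 := hx l
        omega)
    rw [sum_image hinj] at this
    refine le_trans (le_of_eq ?_) this
    refine sum_congr rfl fun l hl => ?_
    have hl' := (mem_filter.1 hl).2
    rw [Nat.cast_sub (not_lt.1 hl')]
    have e : ((x : ℝ) - (β l : ℝ)) ^ 2 = ((β l : ℝ) - (x : ℝ)) ^ 2 := by ring
    rw [e]
  linarith

/-- The Lagrange basis at the beads, evaluated at the points `x i`. -/
noncomputable def lagL (x : Fin N → ℕ) : Matrix (Fin N) (Fin N) ℝ :=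
  fun i l => ∏ t ∈ univ.erase l, (((x i : ℝ) - (β t : ℝ)) / ((β l : ℝ) - (β t : ℝ)))

lemma cast_inj (hβ : Function.Injective β) : Function.Injective (fun t : Fin N => (β t : ℝ)) := by
  intro a b h
  have h' : (β a : ℝ) = (β b : ℝ) := h
  exact hβ (by exact_mod_cast h')

open Polynomial in
lemma vander_eq (hβ : Function.Injective β) (x : Fin N → ℕ) :
    Matrix.vandermonde (fun i => (x i : ℝ)) =
      lagL β x * Matrix.vandermonde (fun t => (β t : ℝ)) := by
  ext i j
  rw [Matrix.mul_apply, Matrix.vandermonde_apply]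
  have hinj : Set.InjOn (fun t : Fin N => (β t : ℝ)) ((univ : Finset (Fin N)) : Set (Fin N)) :=
    (cast_inj β hβ).injOn
  have hdeg : ((X : ℝ[X]) ^ (j : ℕ)).degree < ((univ : Finset (Fin N)).card : WithBot ℕ) := by
    rw [degree_X_pow]
    simp only [card_univ, Fintype.card_fin]
    exact_mod_cast j.2
  have h := Lagrange.eq_interpolate hinj hdeg
  have h2 := congrArg (Polynomial.eval (x i : ℝ)) h
  rw [Lagrange.interpolate_apply, Polynomial.eval_finsetSum] at h2
  rw [Polynomial.eval_pow, Polynomial.eval_X] at h2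
  rw [h2]
  refine sum_congr rfl fun l _ => ?_
  rw [Matrix.vandermonde_apply, Polynomial.eval_mul, Polynomial.eval_C, Polynomial.eval_pow,
    Polynomial.eval_X, mul_comm]
  congr 1
  unfold Lagrange.basis lagL
  rw [Polynomial.eval_prod]
  refine prod_congr rfl fun t _ => ?_
  unfold Lagrange.basisDivisor
  simp only [Polynomial.eval_mul, Polynomial.eval_C, Polynomial.eval_sub, Polynomial.eval_X]
  rw [div_eq_mul_inv, mul_comm]

/-- The normalised matrix. -/
noncomputable def matM (x : Fin N → ℕ) : Matrix (Fin N) (Fin N) ℝ :=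
  fun i l => lagL β x i l * WG β (β l) / WG β (x i)

lemma det_lagL (x : Fin N → ℕ) :
    (lagL β x).det = (∏ i, WG β (x i)) * ((∏ l, (WG β (β l))⁻¹) * (matM β x).det) := by
  rw [← Matrix.det_mul_row, ← Matrix.det_mul_column]
  congr 1
  ext i l
  simp only [Matrix.of_apply]
  unfold matM
  have h1 := (WG_pos β (x i)).ne'
  have h2 := (WG_pos β (β l)).ne'
  field_simp

lemma WG_bead (hβ : Function.Injective β) (l : Fin N) :
    WG β (β l) = ∏ t ∈ univ.erase l, |(β l : ℝ) - (β t : ℝ)| := by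
  unfold WG
  rw [← mul_prod_erase univ _ (mem_univ l)]
  have h0 : (if β l ≠ β l then |(β l : ℝ) - (β l : ℝ)| else 1) = 1 := by simp
  rw [h0, one_mul]
  refine prod_congr rfl fun t ht => ?_
  have h : β t ≠ β l := fun h => (mem_erase.1 ht).1 (hβ h)
  rw [if_pos h]

lemma abs_matM (hβ : Function.Injective β) (x : Fin N → ℕ) (i l : Fin N) :
    |matM β x i l| = (∏ t ∈ univ.erase l, |(x i : ℝ) - (β t : ℝ)|) / WG β (x i) := by
  unfold matM lagL
  rw [abs_div, abs_mul, abs_of_pos (WG_pos β (x i)), abs_of_pos (WG_pos β (β l)),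
    Finset.abs_prod]
  have h : ∏ t ∈ univ.erase l,
      |((x i : ℝ) - (β t : ℝ)) / ((β l : ℝ) - (β t : ℝ))| =
      (∏ t ∈ univ.erase l, |(x i : ℝ) - (β t : ℝ)|) / WG β (β l) := by
    rw [WG_bead β hβ, ← prod_div_distrib]
    exact prod_congr rfl fun t _ => abs_div _ _
  rw [h]
  have h2 := (WG_pos β (β l)).ne'
  field_simp

/-- The row sum at a point which is not a bead. -/
lemma row_nonbead (hβ : Function.Injective β) (x : Fin N → ℕ) (i : Fin N)
    (h : ∀ t, β t ≠ x i) : ∑ l, (matM β x i l) ^ 2 ≤ 4 := by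
  refine le_trans (le_of_eq ?_) (row_sum_nonbead β hβ (x i) h)
  refine sum_congr rfl fun l _ => ?_
  rw [← sq_abs, abs_matM β hβ]
  have hW : WG β (x i) = ∏ t, |(x i : ℝ) - (β t : ℝ)| := by
    unfold WG
    refine prod_congr rfl fun t _ => ?_
    rw [if_pos (h t)]
  have hne : (x i : ℝ) - (β l : ℝ) ≠ 0 := by
    rw [sub_ne_zero]
    intro h2
    exact h l (by exact_mod_cast h2.symm)
  have hprod : ∏ t ∈ univ.erase l, |(x i : ℝ) - (β t : ℝ)| ≠ 0 := by
    refine prod_ne_zero_iff.2 fun t _ => ?_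
    rw [abs_ne_zero, sub_ne_zero]
    intro h2
    exact h t (by exact_mod_cast h2.symm)
  rw [hW, ← mul_prod_erase univ _ (mem_univ l)]
  have habs : |(x i : ℝ) - (β l : ℝ)| ≠ 0 := abs_ne_zero.2 hne
  rw [← sq_abs ((x i : ℝ) - (β l : ℝ))]
  field_simp

/-- The row sum at a bead. -/
lemma row_bead (hβ : Function.Injective β) (x : Fin N → ℕ) (i p : Fin N) (h : x i = β p) :
    ∑ l, (matM β x i l) ^ 2 = 1 := by
  rw [sum_eq_single p]
  · rw [← sq_abs, abs_matM β hβ, h, ← WG_bead β hβ]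
    have := (WG_pos β (β p)).ne'
    field_simp
  · intro l _ hl
    rw [← sq_abs, abs_matM β hβ, h]
    have hz : ∏ t ∈ univ.erase l, |(β p : ℝ) - (β t : ℝ)| = 0 := by
      refine prod_eq_zero (mem_erase.2 ⟨hl.symm, mem_univ p⟩) ?_
      simp
    rw [hz]
    simp
  · intro hp
    exact absurd (mem_univ p) hp

lemma row_le (hβ : Function.Injective β) (x : Fin N → ℕ) (i : Fin N) :
    ∑ l, (matM β x i l) ^ 2 ≤ if x i ≠ β i then 4 else 1 := by
  by_cases h1 : x i ≠ β i
  · rw [if_pos h1]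
    by_cases h2 : ∀ t, β t ≠ x i
    · exact row_nonbead β hβ x i h2
    · push Not at h2
      obtain ⟨p, hp⟩ := h2
      rw [row_bead β hβ x i p hp.symm]
      norm_num
  · rw [if_neg h1]
    rw [not_not] at h1
    exact le_of_eq (row_bead β hβ x i i h1)

lemma det_matM_le (hβ : Function.Injective β) (x : Fin N → ℕ) :
    |(matM β x).det| ≤ (2 : ℝ) ^ (univ.filter fun i => x i ≠ β i).card := by
  have h1 := hadamard (matM β x)
  have h2 : ∏ i, ∑ l, (matM β x i l) ^ 2 ≤ ∏ i, (if x i ≠ β i then (4 : ℝ) else 1) := by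
    refine prod_le_prod (fun i _ => sum_nonneg fun l _ => sq_nonneg _) fun i _ => ?_
    exact row_le β hβ x i
  have h3 : ∏ i, (if x i ≠ β i then (4 : ℝ) else 1) =
      4 ^ (univ.filter fun i => x i ≠ β i).card := by
    rw [prod_ite]
    simp
  have h4 : (|(matM β x).det|) ^ 2 ≤
      ((2 : ℝ) ^ (univ.filter fun i => x i ≠ β i).card) ^ 2 := by
    have h5 : ((2 : ℝ) ^ (univ.filter fun i => x i ≠ β i).card) ^ 2 =
        4 ^ (univ.filter fun i => x i ≠ β i).card := by
      rw [← pow_mul, mul_comm, pow_mul]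
      norm_num
    rw [sq_abs, h5, ← h3]
    exact h1.trans h2
  exact (pow_le_pow_iff_left₀ (abs_nonneg _) (by positivity) (by norm_num)).1 h4

lemma abs_vdm (y : Fin N → ℕ) :
    |((vdm (fun i => (y i : ℤ)) : ℤ) : ℝ)| = |(Matrix.vandermonde (fun i => (y i : ℝ))).det| := by
  rw [Matrix.det_vandermonde]
  unfold vdm
  push_cast
  simp only [Finset.abs_prod]
  exact prod_congr rfl fun i _ => prod_congr rfl fun j _ => abs_sub_comm _ _

end LemmaBGAux

open LemmaBGAux in
/-- **Lemma B.** Lagrange interpolation gives `vdm x = det M * vdm β`; the rows of `M` are unit rows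
(if `x i` is a bead) or have norm at most `2` after pulling out `WG` (Hadamard, with
`∑ 1 / (x - β l)² ≤ 4`). Same proof as `Vale.Agent.Lib.P197.lemmaB`. -/
theorem lemmaBG {N : ℕ} (β : Fin N → ℕ) (hβ : Function.Injective β) (x : Fin N → ℕ) :
    ((∏ i, ((β i).factorial : ℝ)) / ∏ i, ((x i).factorial : ℝ)) *
        |(vdm (fun i => (x i : ℤ)) : ℝ)| / |(vdm (fun i => (β i : ℤ)) : ℝ)| ≤
      (2 : ℝ) ^ (univ.filter fun i => x i ≠ β i).card * ∏ i, (PsiG β (x i) / PsiG β (β i)) := by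
  set S := (univ.filter fun i => x i ≠ β i).card with hS
  rw [abs_vdm x, abs_vdm β]
  have hV : (Matrix.vandermonde (fun t => (β t : ℝ))).det ≠ 0 :=
    Matrix.det_vandermonde_ne_zero_iff.2 (cast_inj β hβ)
  have hvpos : 0 < |(Matrix.vandermonde (fun t => (β t : ℝ))).det| := abs_pos.2 hV
  rw [vander_eq β hβ x, Matrix.det_mul, abs_mul, det_lagL]
  have hcancel : ∀ a b : ℝ, a * (b * |(Matrix.vandermonde (fun t => (β t : ℝ))).det|) /
      |(Matrix.vandermonde (fun t => (β t : ℝ))).det| = a * b := fun a b => by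
    field_simp
  rw [hcancel, abs_mul, abs_mul]
  rw [abs_of_pos (prod_pos fun i _ => WG_pos β (x i)),
    abs_of_pos (prod_pos fun l _ => inv_pos.2 (WG_pos β (β l)))]
  have hprod : ((∏ i, ((β i).factorial : ℝ)) / ∏ i, ((x i).factorial : ℝ)) *
      ((∏ i, WG β (x i)) * (∏ l, (WG β (β l))⁻¹)) = ∏ i, (PsiG β (x i) / PsiG β (β i)) := by
    have : ∀ i, PsiG β (x i) / PsiG β (β i) = (WG β (x i) / ((x i).factorial : ℝ)) *
        (((β i).factorial : ℝ) / WG β (β i)) := fun i => by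
      unfold PsiG
      rw [div_div_eq_mul_div]
      ring
    simp only [this, prod_mul_distrib, div_eq_mul_inv, prod_inv_distrib]
    ring
  have hdet := det_matM_le β hβ x
  rw [← hS] at hdet
  have hRnn : 0 ≤ ∏ i, (PsiG β (x i) / PsiG β (β i)) :=
    prod_nonneg fun i _ => (div_pos (PsiG_pos _ _) (PsiG_pos _ _)).le
  calc ((∏ i, ((β i).factorial : ℝ)) / ∏ i, ((x i).factorial : ℝ)) *
        ((∏ i, WG β (x i)) * ((∏ l, (WG β (β l))⁻¹) * |(matM β x).det|))
      = (∏ i, (PsiG β (x i) / PsiG β (β i))) * |(matM β x).det| := by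
        rw [← hprod]
        ring
    _ ≤ (∏ i, (PsiG β (x i) / PsiG β (β i))) * (2 : ℝ) ^ S :=
        mul_le_mul_of_nonneg_left hdet hRnn
    _ = (2 : ℝ) ^ S * ∏ i, (PsiG β (x i) / PsiG β (β i)) := by
        ring

end Vale.Agent.Lib.P197T
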