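import Vale.Agent.Lib.P197T.Family

/-!
# P197T: one peeling step (blueprint Sec 2)
-/

open Equiv Finset

namespace Vale.Agent.Lib.P197T

open Vale.Agent.Lib.P197 Vale.Agent.Lib.P197W Vale.Agent.Lib.P197X

/-- The columns removed by one step from `AF m a b` to `AF m' a b'`. -/
def stepY (m m' b b' : ℕ) : Multiset ℕ := (m + b) ::ₘ (Multiset.Ico m' m).erase (m' + b')

theorem stepY_nodup (m m' b b' : ℕ) : (stepY m m' b b').Nodup := by
  unfold stepY
  rw [Multiset.nodup_cons]
  refine ⟨?_, (Multiset.nodup_Ico).erase _⟩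
  intro h
  have := Multiset.mem_of_mem_erase h
  rw [Multiset.mem_Ico] at this
  omega

theorem stepY_pos (m m' b b' : ℕ) (hm' : 1 ≤ m') (hmm : m' ≤ m) : ∀ y ∈ stepY m m' b b', 1 ≤ y := by
  intro y hy
  unfold stepY at hy
  rw [Multiset.mem_cons] at hy
  rcases hy with rfl | hy
  · omega
  · have := Multiset.mem_of_mem_erase hy
    rw [Multiset.mem_Ico] at this
    omega

theorem stepY_le (m m' b b' : ℕ) : ∀ y ∈ stepY m m' b b', y ≤ m + b := by
  intro y hy
  unfold stepY at hy
  rw [Multiset.mem_cons] at hy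
  rcases hy with rfl | hy
  · omega
  · have := Multiset.mem_of_mem_erase hy
    rw [Multiset.mem_Ico] at this
    omega

private theorem ico_sum_auxT (m' t : ℕ) :
    (Multiset.Ico m' (m' + t)).sum + t = stairS (m' + t) t := by
  induction t with
  | zero => simp [stairS]
  | succ t ih =>
    have h1 : (Multiset.Ico m' (m' + (t + 1))).sum = (Multiset.Ico m' (m' + t)).sum + (m' + t) := by
      have h2 : ∀ a b : ℕ, (Multiset.Ico a b).sum = ∑ i ∈ Finset.Ico a b, i := by
        intro a b
        unfold Multiset.Ico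
        rw [Finset.sum_val]
        rfl
      rw [h2, h2, ← Nat.add_assoc, Finset.sum_Ico_succ_top (by omega)]
    have h3 : stairS (m' + (t + 1)) (t + 1) = stairS (m' + t) t + (m' + t + 1) := by
      unfold stairS
      rw [Finset.sum_range_succ']
      congr 1
      apply Finset.sum_congr rfl
      intro i _
      omega
    rw [h1, h3, ← ih]
    omega

/-- The size of the step. -/
theorem stepY_sum (m m' b b' : ℕ) (hb' : m' + b' < m) :
    (stepY m m' b b').sum + b' = stairS m (m - m') + b := by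
  have hmem : m' + b' ∈ Multiset.Ico m' m := by
    rw [Multiset.mem_Ico]; omega
  have h1 := Multiset.sum_erase hmem
  have h2 := ico_sum_auxT m' (m - m')
  have h3 : m' + (m - m') = m := by omega
  rw [h3] at h2
  unfold stepY
  rw [Multiset.sum_cons]
  omega

theorem colsOf_step (m m' a b b' : ℕ) (hm' : 1 ≤ m') (hb' : m' + b' < m) :
    colsOf (AF m a b) = colsOf (AF m' a b') + stepY m m' b b' := by
  have hm : 1 ≤ m := by omega
  have hmem : m' + b' ∈ Multiset.Ico m' m := by
    rw [Multiset.mem_Ico]; omega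
  have hIco : Multiset.Ico 1 m = Multiset.Ico 1 m' + Multiset.Ico m' m :=
    (Multiset.Ico_add_Ico_eq_Ico hm' (by omega)).symm
  rw [colsOf_AF m a b hm, colsOf_AF m' a b' hm']
  unfold stepY
  have hc := Multiset.cons_erase hmem
  rw [hIco]
  conv_lhs => rw [← hc]
  simp only [← Multiset.singleton_add]
  abel

/-- Rows of the transposed `ofCols Y` are the elements of `Y`: pairwise different when `Y` has no
repetition. -/
theorem strict_of_nodup (Y : Multiset ℕ) (hnd : Y.Nodup) (hpos : ∀ y ∈ Y, 1 ≤ y) :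
    StrictDiag (ofCols Y).transpose := by
  intro i
  rw [YoungDiagram.rowLen_transpose, YoungDiagram.rowLen_transpose]
  set μ := ofCols Y with hμ
  have hcols : colsOf μ = Y := colsOf_ofCols Y hpos
  have hnd2 : ((Multiset.range (μ.rowLen 0)).map μ.colLen).Nodup := by
    have : colsOf μ = (Multiset.range (μ.rowLen 0)).map μ.colLen := rfl
    rw [← this, hcols]
    exact hnd
  have hinj := Multiset.inj_on_of_nodup_map hnd2
  by_cases hi : i < μ.rowLen 0
  · left
    have hc : 0 < μ.colLen i := by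
      have : (0, i) ∈ μ := YoungDiagram.mem_iff_lt_rowLen.2 hi
      exact YoungDiagram.mem_iff_lt_colLen.1 this
    by_cases hi2 : i + 1 < μ.rowLen 0
    · have hle := μ.colLen_anti i (i + 1) (Nat.le_succ i)
      refine lt_of_le_of_ne hle ?_
      intro heq
      have := hinj (i + 1) (Multiset.mem_range.2 hi2) i (Multiset.mem_range.2 hi) heq
      omega
    · have h0 : μ.colLen (i + 1) = 0 := by
        by_contra hne
        have h1 : 0 < μ.colLen (i + 1) := Nat.pos_of_ne_zero hne
        have h2 : (0, i + 1) ∈ μ := YoungDiagram.mem_iff_lt_colLen.2 h1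
        exact hi2 (YoungDiagram.mem_iff_lt_rowLen.1 h2)
      omega
  · right
    by_contra hne
    have h1 : 0 < μ.colLen i := Nat.pos_of_ne_zero hne
    have h2 : (0, i) ∈ μ := YoungDiagram.mem_iff_lt_colLen.2 h1
    exact hi (YoungDiagram.mem_iff_lt_rowLen.1 h2)

private theorem card_transpose_peel (ν : YoungDiagram) : ν.transpose.card = ν.card := by
  show ν.transpose.cells.card = ν.cells.card
  rw [YoungDiagram.transpose]
  exact Finset.card_map _

private lemma sum_rowLen_eq_cardT (μ : YoungDiagram) (h : ℕ) (hh : μ.colLen 0 ≤ h) :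
    ∑ i ∈ range h, μ.rowLen i = μ.card := by
  classical
  have hmaps : ∀ c ∈ μ.cells, c.1 ∈ range h := by
    intro c hc
    have h1 : (c.1, 0) ∈ μ := μ.up_left_mem (le_refl c.1) (Nat.zero_le c.2) hc
    have h2 := YoungDiagram.mem_iff_lt_colLen.mp h1
    exact mem_range.mpr (lt_of_lt_of_le h2 hh)
  show ∑ i ∈ range h, μ.rowLen i = μ.cells.card
  rw [Finset.card_eq_sum_card_fiberwise hmaps]
  refine Finset.sum_congr rfl (fun i _ => ?_)
  rw [YoungDiagram.rowLen_eq_card]
  rfl

private lemma sum_rowLen_le_cardT (μ : YoungDiagram) (k : ℕ) : ∑ i ∈ range k, μ.rowLen i ≤ μ.card := by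
  rw [← sum_rowLen_eq_cardT μ (max k (μ.colLen 0)) (le_max_right _ _)]
  exact Finset.sum_le_sum_of_subset (Finset.range_subset_range.mpr (le_max_left _ _))

private lemma antitone_avgT (f : ℕ → ℕ) (hf : Antitone f) (k : ℕ) (h : ℕ) (hkh : k ≤ h) :
    k * ∑ i ∈ range h, f i ≤ h * ∑ i ∈ range k, f i := by
  induction h, hkh using Nat.le_induction with
  | base => exact le_of_eq (by ring)
  | succ h hkh ih =>
    rw [Finset.sum_range_succ]
    have h1 : k * f h ≤ ∑ i ∈ range k, f i := by
      have : ∑ i ∈ range k, f h ≤ ∑ i ∈ range k, f i :=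
        Finset.sum_le_sum (fun i hi => hf (by have := mem_range.mp hi; omega))
      simpa using this
    calc k * (∑ i ∈ range h, f i + f h) = k * ∑ i ∈ range h, f i + k * f h := by ring
      _ ≤ h * ∑ i ∈ range k, f i + ∑ i ∈ range k, f i := Nat.add_le_add ih h1
      _ = (h + 1) * ∑ i ∈ range k, f i := by ring

/-- A diagram with few rows and many cells dominates every diagram with short rows of the same size. -/
theorem dom_few (β τ : YoungDiagram) (h M : ℕ) (hh : 1 ≤ h) (hrows : β.colLen 0 ≤ h)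
    (hcard : τ.card = β.card) (hτ : ∀ i, τ.rowLen i ≤ M) (hbig : h * M ≤ β.card) : Dom β τ := by
  intro k
  by_cases hk : k ≤ h
  · have h1 : ∑ i ∈ range k, τ.rowLen i ≤ k * M := by
      have : ∑ i ∈ range k, τ.rowLen i ≤ ∑ i ∈ range k, M :=
        Finset.sum_le_sum (fun i _ => hτ i)
      simpa using this
    have h2 := antitone_avgT (fun i => β.rowLen i) (fun a b hab => β.rowLen_anti a b hab) k h hk
    rw [sum_rowLen_eq_cardT β h hrows] at h2
    have h3 : h * (k * M) ≤ h * ∑ i ∈ range k, β.rowLen i := by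
      calc h * (k * M) = k * (h * M) := by ring
        _ ≤ k * β.card := Nat.mul_le_mul_left _ hbig
        _ ≤ _ := h2
    exact h1.trans (Nat.le_of_mul_le_mul_left h3 (by omega))
  · have h1 := sum_rowLen_le_cardT τ k
    rw [hcard] at h1
    refine h1.trans ?_
    rw [← sum_rowLen_eq_cardT β h hrows]
    exact Finset.sum_le_sum_of_subset (Finset.range_subset_range.mpr (by omega))

/-- **Generic peeling.** -/
theorem col_peel (Y : Multiset ℕ) (hnd : Y.Nodup) (hpos : ∀ y ∈ Y, 1 ≤ y) (M h : ℕ) (hh : 1 ≤ h)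
    (hM : ∀ y ∈ Y, y ≤ M) (F F' ν : YoungDiagram) (B : Multiset ℕ)
    (hF : colsOf F = colsOf F' + Y) (hB : B ≤ colsOf ν) (hBh : ∀ b ∈ B, b ≤ h)
    (hsum : B.sum = Y.sum) (hbig : h * M ≤ B.sum)
    (h0 : KP F' F' (ofCols (colsOf ν - B))) : KP F F ν := by
  have hposB : ∀ c ∈ B, 1 ≤ c := fun c hc => pos_of_mem_colsOf (Multiset.mem_of_le hB hc)
  have hpos2 : ∀ c ∈ colsOf ν - B, 1 ≤ c :=
    fun c hc => pos_of_mem_colsOf (Multiset.mem_of_le (Multiset.sub_le_self _ _) hc)
  have hrows : (ofCols B).colLen 0 ≤ h := by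
    by_contra hlt
    have hlt' : h < (ofCols B).colLen 0 := by omega
    have hmem : (h, 0) ∈ ofCols B := YoungDiagram.mem_iff_lt_colLen.mpr hlt'
    rw [mem_ofCols, Multiset.card_pos_iff_exists_mem] at hmem
    obtain ⟨x, hx⟩ := hmem
    rw [Multiset.mem_filter] at hx
    have := hBh x hx.1
    omega
  have hcard : (ofCols Y).transpose.card = (ofCols B).card := by
    rw [card_transpose_peel, card_ofCols, card_ofCols, hsum]
  have hτ : ∀ i, (ofCols Y).transpose.rowLen i ≤ M := by
    intro i
    rw [YoungDiagram.rowLen_transpose]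
    by_cases hi : i < (ofCols Y).rowLen 0
    · apply hM
      have hc : colsOf (ofCols Y) = Y := colsOf_ofCols Y hpos
      have hm : (ofCols Y).colLen i ∈ colsOf (ofCols Y) :=
        Multiset.mem_map.2 ⟨i, Multiset.mem_range.2 hi, rfl⟩
      rwa [hc] at hm
    · have : (ofCols Y).colLen i = 0 := by
        by_contra hne
        have h1 : 0 < (ofCols Y).colLen i := Nat.pos_of_ne_zero hne
        have h2 : (0, i) ∈ ofCols Y := YoungDiagram.mem_iff_lt_colLen.2 h1
        exact hi (YoungDiagram.mem_iff_lt_rowLen.1 h2)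
      omega
  have hbig' : h * M ≤ (ofCols B).card := by rw [card_ofCols]; exact hbig
  have hdom := dom_few (ofCols B) (ofCols Y).transpose h M hh hrows hcard hτ hbig'
  have h1 : KP (ofCols Y).transpose (ofCols Y).transpose (ofCols B) :=
    KP_strict (strict_of_nodup Y hnd hpos) hcard hdom
  have h2 := KP_conj12 h1
  rw [YoungDiagram.transpose_transpose] at h2
  have hY : colsOf (ofCols Y) = Y := colsOf_ofCols Y hpos
  refine KP_add h0 h2 (by rw [hY]; exact hF) (by rw [hY]; exact hF) ?_
  rw [colsOf_ofCols _ hposB, colsOf_ofCols _ hpos2]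
  exact (tsub_add_cancel_of_le hB).symm

/-- One step on `AF`: the second arm changes from `b` to `b'`. -/
theorem col_step (m m' a b b' h : ℕ) (hh : 1 ≤ h) (hm' : 1 ≤ m') (hb' : m' + b' < m)
    (ν : YoungDiagram) (B : Multiset ℕ) (hB : B ≤ colsOf ν) (hBh : ∀ x ∈ B, x ≤ h)
    (hsum : B.sum + b' = stairS m (m - m') + b) (hbig : h * (m + b) ≤ B.sum)
    (h0 : KP (AF m' a b') (AF m' a b') (ofCols (colsOf ν - B))) :
    KP (AF m a b) (AF m a b) ν := by
  have hs := stepY_sum m m' b b' hb'
  refine col_peel (stepY m m' b b') (stepY_nodup m m' b b') (stepY_pos m m' b b' hm' (by omega))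
    (m + b) h hh (stepY_le m m' b b') _ _ ν B (colsOf_step m m' a b b' hm' hb') hB hBh (by omega)
    hbig h0

/-- Exchanging the two arms in the first two diagrams. -/
theorem KP_swap {m a b : ℕ} {ν : YoungDiagram} (h : KP (AF m a b) (AF m a b) ν) :
    KP (AF m b a) (AF m b a) ν := by
  have := KP_conj12 h
  rwa [transpose_AF] at this

/-- Fillings of equal diagrams have the same normalised character. -/
private lemma rr_eq_of_eq_conj3F {n : ℕ} {μ : YoungDiagram} (T : Filling n μ) :
    ∀ (μ' : YoungDiagram) (_ : μ' = μ) (T' : Filling n μ'), rr T' = rr T := by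
  intro μ' hμ T'
  subst hμ
  exact rr_indep T' T

/-- For a self conjugate diagram the third diagram may be transposed. -/
theorem KP_conj3F {m a : ℕ} {ν : YoungDiagram} (h : KP (AF m a a) (AF m a a) ν) :
    KP (AF m a a) (AF m a a) ν.transpose := by
  obtain ⟨n, T₁, T₂, T₃, hne⟩ := h
  refine ⟨n, T₁, T₂, tFill T₃, ?_⟩
  have hterm : ∀ π : Perm (Fin n),
      rr T₁ π * rr T₂ π * rr (tFill T₃) π = rr T₁ π * rr T₂ π * rr T₃ π := by
    intro π
    have hself : rr T₁ π = (sgnZ π : ℝ) * rr T₁ π := by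
      have h1 := rr_eq_of_eq_conj3F T₁ _ (transpose_AF m a a) (tFill T₁)
      have h2 := rr_tFill T₁ π
      rw [h1] at h2
      exact h2
    rw [rr_tFill]
    have hs : (sgnZ π : ℝ) * (sgnZ π : ℝ) = 1 := by
      have := sgnZ_mul_sgnZ_self π
      exact_mod_cast this
    calc rr T₁ π * rr T₂ π * ((sgnZ π : ℝ) * rr T₃ π)
        = ((sgnZ π : ℝ) * rr T₁ π) * rr T₂ π * rr T₃ π := by ring
      _ = rr T₁ π * rr T₂ π * rr T₃ π := by rw [← hself]
  simp_rw [hterm]
  exact hne

end Vale.Agent.Lib.P197T
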