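import Vale.Agent.Lib.P197T.LemmaBG

/-!
# P197T: the ratio lemma for the beads of the family (blueprint Sec A6)
-/

open Equiv Finset

namespace Vale.Agent.Lib.P197T

open Vale.Agent.Lib.P197 Vale.Agent.Lib.P197W Vale.Agent.Lib.P197X

/-- The beads of `AF m a b` with `m + b` rows, as natural numbers: the top bead `2 m + a + b - 1`,
the alternating part `b + 1 + 2 k` for `k < m - 1`, the tail `1, ..., b`. -/
def betaN (m a b : ℕ) (i : Fin (m + b)) : ℕ := (AF m a b).rowLen (i : ℕ) + (m + b - 1 - (i : ℕ))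

theorem betaN_strictAnti (m a b : ℕ) (hm : 1 ≤ m) : StrictAnti (betaN m a b) := by
  intro i j hij
  have hij' : (i : ℕ) < (j : ℕ) := hij
  have h1 := (AF m a b).rowLen_anti (i : ℕ) (j : ℕ) hij'.le
  have hj := j.isLt
  unfold betaN
  omega

theorem betaN_le (m a b : ℕ) (hm : 1 ≤ m) (i : Fin (m + b)) : betaN m a b i ≤ 2 * m + a + b - 1 := by
  have h1 := (AF m a b).rowLen_anti 0 (i : ℕ) (Nat.zero_le _)
  rw [rowLen_AF_zero m a b hm] at h1
  have hi := i.isLt
  unfold betaN
  omega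

private noncomputable def psiFF (y t : ℕ) : ℝ := if t ≠ y then |(y : ℝ) - (t : ℝ)| else 1

private theorem psiFF_pos (y t : ℕ) : 0 < psiFF y t := by
  unfold psiFF
  split_ifs with h
  · apply abs_pos.2
    rw [sub_ne_zero]
    exact_mod_cast (Ne.symm h)
  · exact one_pos

private theorem psiFF_self (y : ℕ) : psiFF y y = 1 := by simp [psiFF]

private theorem psiFF_lt {y t : ℕ} (h : t < y) : psiFF y t = (y : ℝ) - t := by
  unfold psiFF
  rw [if_pos h.ne, abs_of_nonneg]
  have : (t : ℝ) ≤ y := by exact_mod_cast h.le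
  linarith

private theorem psiFF_gt {y t : ℕ} (h : y < t) : psiFF y t = (t : ℝ) - y := by
  unfold psiFF
  rw [if_pos h.ne', abs_of_nonpos]
  · ring
  · have : (y : ℝ) ≤ t := by exact_mod_cast h.le
    linarith

private theorem psiFF_shift (y t : ℕ) : psiFF (y + 1) (t + 1) = psiFF y t := by
  unfold psiFF
  by_cases h : t = y
  · simp [h]
  · have h' : t + 1 ≠ y + 1 := by omega
    rw [if_pos h', if_pos h]
    push_cast
    congr 1
    ring

/-- the top bead -/
private theorem psiFF_top {z T : ℕ} (h : z < T) : psiFF z T ≤ 2 * psiFF (z + 1) T := by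
  rcases Nat.lt_or_ge (z + 1) T with h1 | h1
  · rw [psiFF_gt h, psiFF_gt h1]
    have : ((z : ℝ) + 2) ≤ T := by exact_mod_cast h1
    push_cast
    linarith
  · have : T = z + 1 := by omega
    subst this
    rw [psiFF_self, psiFF_gt (Nat.lt_succ_self z)]
    push_cast
    norm_num

/-- the tail telescopes -/
private theorem psiFF_tail_rel (z b : ℕ) :
    (∏ t ∈ range b, psiFF z (t + 1)) * psiFF z 0 = (∏ t ∈ range b, psiFF z t) * psiFF z b := by
  rw [← Finset.prod_range_succ, ← Finset.prod_range_succ' (fun t => psiFF z t) b]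

private theorem succ_le_two_psiFF (z : ℕ) : ((z : ℝ) + 1) ≤ 2 * psiFF z 0 := by
  rcases Nat.eq_zero_or_pos z with h | h
  · subst h
    rw [psiFF_self]
    norm_num
  · rw [psiFF_lt h]
    have : (1 : ℝ) ≤ z := by exact_mod_cast h
    push_cast
    linarith

/-- the comparison sequence -/
private noncomputable def psiSg (z b j : ℕ) : ℝ :=
  if z ≤ b + j then ((b : ℝ) + j - z) + 1 / 2 else ((z : ℝ) - b - j + 1 / 2) / 5

private theorem psiSg_pos (z b j : ℕ) : 0 < psiSg z b j := by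
  unfold psiSg
  split_ifs with h
  · have : (z : ℝ) ≤ b + j := by exact_mod_cast h
    linarith
  · have : (b : ℝ) + j ≤ z := by exact_mod_cast (not_le.1 h).le
    linarith

private theorem psiSg_step (z b j : ℕ) :
    psiFF z (b + (j + 2)) ^ 2 * psiSg z b j ≤ psiFF z (b + (j + 1)) ^ 2 * psiSg z b (j + 2) := by
  rcases lt_trichotomy (b + j + 2) z with h | h | h
  · -- below
    have h1 : b + (j + 2) < z := by omega
    have h2 : b + (j + 1) < z := by omega
    rw [psiFF_lt h1, psiFF_lt h2]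
    unfold psiSg
    rw [if_neg (by omega), if_neg (by omega)]
    push_cast
    set x : ℝ := (z : ℝ) - b - (j + 1) with hx
    have hx2 : (2 : ℝ) ≤ x := by
      have : ((b : ℝ) + j + 3) ≤ z := by exact_mod_cast h
      rw [hx]; linarith
    have e1 : (z : ℝ) - (b + (j + 2)) = x - 1 := by rw [hx]; ring
    have e2 : (z : ℝ) - (b + (j + 1)) = x := by rw [hx]; ring
    have e3 : (z : ℝ) - b - j + 1 / 2 = x + 3 / 2 := by rw [hx]; ring
    have e4 : (z : ℝ) - b - (j + 2) + 1 / 2 = x - 1 / 2 := by rw [hx]; ring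
    rw [e1, e2, e3, e4]
    nlinarith [mul_nonneg (by linarith : (0:ℝ) ≤ x - 3/4) (by linarith : (0:ℝ) ≤ x)]
  · -- the bead at `z` is the last one
    have h1 : b + (j + 2) = z := by omega
    have h2 : b + (j + 1) < z := by omega
    rw [h1, psiFF_self, psiFF_lt h2]
    unfold psiSg
    rw [if_neg (by omega), if_pos (by omega)]
    have e : (z : ℝ) = b + j + 2 := by rw [← h1]; push_cast; ring
    rw [e]
    push_cast
    norm_num
    ring_nf
    norm_num
  · rcases lt_trichotomy (b + j + 1) z with h' | h' | h'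
    · omega
    · have h1 : z < b + (j + 2) := by omega
      have h2 : b + (j + 1) = z := by omega
      rw [psiFF_gt h1, h2, psiFF_self]
      unfold psiSg
      rw [if_neg (by omega), if_pos (by omega)]
      have e : (z : ℝ) = b + j + 1 := by rw [← h2]; push_cast; ring
      rw [e]
      push_cast
      norm_num
      ring_nf
      norm_num
    · have h1 : z < b + (j + 2) := by omega
      have h2 : z < b + (j + 1) := by omega
      rw [psiFF_gt h1, psiFF_gt h2]
      unfold psiSg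
      rcases Nat.lt_or_ge (b + j) z with h3 | h3
      · omega
      · rw [if_pos h3, if_pos (by omega)]
        push_cast
        set x : ℝ := (b : ℝ) + (j + 1) - z with hx
        have hx1 : (1 : ℝ) ≤ x := by
          have : (z : ℝ) + 1 ≤ b + j + 1 := by exact_mod_cast (by omega : z + 1 ≤ b + j + 1)
          rw [hx]; linarith
        have e1 : (b : ℝ) + (j + 2) - z = x + 1 := by rw [hx]; ring
        have e3 : (b : ℝ) + j - z + 1 / 2 = x - 1 / 2 := by rw [hx]; ring
        rw [e1, e3]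
        nlinarith [mul_nonneg (by linarith : (0:ℝ) ≤ x) (by linarith : (0:ℝ) ≤ x)]

/-- squares of the odd and even products -/
private theorem psiFF_odd_even (z b K : ℕ) :
    (∏ k ∈ range K, psiFF z (b + (2 * k + 3))) ^ 2 * psiSg z b 1 ≤
      (∏ k ∈ range K, psiFF z (b + (2 * k + 2))) ^ 2 * psiSg z b (2 * K + 1) := by
  induction K with
  | zero => simp
  | succ K ih =>
    rw [Finset.prod_range_succ, Finset.prod_range_succ]
    have h := psiSg_step z b (2 * K + 1)
    have e1 : 2 * K + 1 + 2 = 2 * K + 3 := by ring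
    have e2 : 2 * K + 1 + 1 = 2 * K + 2 := by ring
    rw [e1, e2] at h
    have e3 : 2 * (K + 1) + 1 = 2 * K + 3 := by ring
    rw [e3]
    set O := ∏ k ∈ range K, psiFF z (b + (2 * k + 3))
    set E := ∏ k ∈ range K, psiFF z (b + (2 * k + 2))
    calc (O * psiFF z (b + (2 * K + 3))) ^ 2 * psiSg z b 1
        = (O ^ 2 * psiSg z b 1) * psiFF z (b + (2 * K + 3)) ^ 2 := by ring
      _ ≤ (E ^ 2 * psiSg z b (2 * K + 1)) * psiFF z (b + (2 * K + 3)) ^ 2 :=
          mul_le_mul_of_nonneg_right ih (by positivity)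
      _ = E ^ 2 * (psiFF z (b + (2 * K + 3)) ^ 2 * psiSg z b (2 * K + 1)) := by ring
      _ ≤ E ^ 2 * (psiFF z (b + (2 * K + 2)) ^ 2 * psiSg z b (2 * K + 3)) :=
          mul_le_mul_of_nonneg_left h (by positivity)
      _ = (E * psiFF z (b + (2 * K + 2))) ^ 2 * psiSg z b (2 * K + 3) := by ring

/-- the bound on the alternating part -/
private theorem psiFF_alt_bound (z b a M : ℕ) (hM : 10 ≤ M) (ha : a ≤ 5 * M) (hb : b ≤ 5 * M)
    (hz : z + 1 < 2 * M + a + b) (K : ℕ) (hK : K + 1 = M - 1) :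
    psiFF z b * ∏ k ∈ range (K + 1), psiFF z (b + 1 + 2 * k) ≤
      25 * (M : ℝ) * ∏ k ∈ range (K + 1), psiFF z (b + 2 * k) := by
  rw [Finset.prod_range_succ', Finset.prod_range_succ']
  have e1 : ∀ k, psiFF z (b + 1 + 2 * (k + 1)) = psiFF z (b + (2 * k + 3)) := by
    intro k; rw [show b + 1 + 2 * (k + 1) = b + (2 * k + 3) by ring]
  have e2 : ∀ k, psiFF z (b + 2 * (k + 1)) = psiFF z (b + (2 * k + 2)) := by
    intro k; rw [show b + 2 * (k + 1) = b + (2 * k + 2) by ring]
  simp_rw [e1, e2]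
  have e3 : b + 1 + 2 * 0 = b + 1 := by ring
  have e4 : b + 2 * 0 = b := by ring
  rw [e3, e4]
  set O := ∏ k ∈ range K, psiFF z (b + (2 * k + 3)) with hO
  set E := ∏ k ∈ range K, psiFF z (b + (2 * k + 2)) with hE
  have hOpos : 0 < O := Finset.prod_pos (fun _ _ => psiFF_pos _ _)
  have hEpos : 0 < E := Finset.prod_pos (fun _ _ => psiFF_pos _ _)
  have hfb := psiFF_pos z b
  have hf1 := psiFF_pos z (b + 1)
  have hs1 := psiSg_pos z b 1
  have hmain := psiFF_odd_even z b K
  have hM0 : (10 : ℝ) ≤ M := by exact_mod_cast hM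
  have haR : (a : ℝ) ≤ 5 * M := by exact_mod_cast ha
  have hbR : (b : ℝ) ≤ 5 * M := by exact_mod_cast hb
  have hzR : (z : ℝ) + 2 ≤ 2 * M + a + b := by exact_mod_cast (by omega : z + 2 ≤ 2 * M + a + b)
  -- first factor
  have h1 : psiFF z (b + 1) ^ 2 ≤ 35 * (M : ℝ) * psiSg z b 1 := by
    unfold psiSg
    rcases lt_trichotomy (b + 1) z with h | h | h
    · rw [psiFF_lt h, if_neg (by omega)]
      push_cast
      have h2 : (b : ℝ) + 1 + 1 ≤ z := by exact_mod_cast h
      nlinarith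
    · rw [h, psiFF_self, if_pos (by omega)]
      have e : (z : ℝ) = b + 1 := by rw [← h]; push_cast; ring
      rw [e]
      push_cast
      nlinarith
    · rw [psiFF_gt h, if_pos (by omega)]
      push_cast
      have h2 : (z : ℝ) + 1 ≤ b + 1 := by exact_mod_cast h
      nlinarith
  -- last factor
  have h2 : psiSg z b (2 * K + 1) ≤ 7 * (M : ℝ) := by
    have hKR : (2 * (K : ℝ) + 1) ≤ 2 * M := by
      have : 2 * K + 1 ≤ 2 * M := by omega
      exact_mod_cast this
    have hKR' : (K : ℝ) + 2 = M := by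
      have : K + 2 = M := by omega
      exact_mod_cast this
    unfold psiSg
    split_ifs with h
    · have : (0 : ℝ) ≤ z := Nat.cast_nonneg _
      push_cast
      linarith
    · push_cast
      have : (0 : ℝ) ≤ b := Nat.cast_nonneg _
      linarith
  -- combine
  have h3 : (psiFF z (b + 1) * O) ^ 2 ≤ (25 * (M : ℝ) * E) ^ 2 := by
    have h4 : (psiFF z (b + 1) * O) ^ 2 * psiSg z b 1 ≤ 245 * (M : ℝ) ^ 2 * E ^ 2 * psiSg z b 1 := by
      calc (psiFF z (b + 1) * O) ^ 2 * psiSg z b 1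
          = psiFF z (b + 1) ^ 2 * (O ^ 2 * psiSg z b 1) := by ring
        _ ≤ (35 * (M : ℝ) * psiSg z b 1) * (E ^ 2 * (7 * (M : ℝ))) :=
            mul_le_mul h1 (hmain.trans (mul_le_mul_of_nonneg_left h2 (by positivity)))
              (by positivity) (by positivity)
        _ = 245 * (M : ℝ) ^ 2 * E ^ 2 * psiSg z b 1 := by ring
    have h5 := le_of_mul_le_mul_right h4 hs1
    nlinarith [mul_pos (pow_pos (by linarith : (0 : ℝ) < M) 2) (pow_pos hEpos 2)]
  have h6 : psiFF z (b + 1) * O ≤ 25 * (M : ℝ) * E :=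
    (pow_le_pow_iff_left₀ (by positivity) (by positivity) (by norm_num)).1 h3
  calc psiFF z b * (O * psiFF z (b + 1)) = psiFF z b * (psiFF z (b + 1) * O) := by ring
    _ ≤ psiFF z b * (25 * (M : ℝ) * E) := mul_le_mul_of_nonneg_left h6 hfb.le
    _ = 25 * (M : ℝ) * (E * psiFF z b) := by ring


private theorem WG_betaN_split (m a b y : ℕ) (hm : 1 ≤ m) :
    WG (betaN m a b) y = psiFF y (2 * m + a + b - 1) *
      (∏ k ∈ range (m - 1), psiFF y (b + 1 + 2 * k)) * ∏ t ∈ range b, psiFF y (t + 1) := by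
  obtain ⟨m', rfl⟩ : ∃ m', m = m' + 1 := ⟨m - 1, by omega⟩
  have h0 : WG (betaN (m' + 1) a b) y = ∏ i : Fin (m' + 1 + b),
      psiFF y ((AF (m' + 1) a b).rowLen (i : ℕ) + (m' + 1 + b - 1 - (i : ℕ))) := rfl
  rw [h0, Fin.prod_univ_eq_prod_range
    (fun i => psiFF y ((AF (m' + 1) a b).rowLen i + (m' + 1 + b - 1 - i))) (m' + 1 + b),
    Finset.prod_range_add, Finset.prod_range_succ']
  have hz : psiFF y ((AF (m' + 1) a b).rowLen 0 + (m' + 1 + b - 1 - 0)) =
      psiFF y (2 * (m' + 1) + a + b - 1) := by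
    rw [rowLen_AF_zero (m' + 1) a b (by omega)]
    congr 1
    omega
  have ha : ∏ i ∈ range m', psiFF y ((AF (m' + 1) a b).rowLen (i + 1) + (m' + 1 + b - 1 - (i + 1))) =
      ∏ k ∈ range (m' + 1 - 1), psiFF y (b + 1 + 2 * k) := by
    rw [Nat.add_sub_cancel, ← Finset.prod_range_reflect (fun k => psiFF y (b + 1 + 2 * k)) m']
    refine Finset.prod_congr rfl (fun i hi => ?_)
    have hi' := Finset.mem_range.1 hi
    rw [rowLen_AF_pos (m' + 1) a b (i + 1) (by omega) (by omega), if_pos (by omega)]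
    congr 1
    omega
  have ht : ∏ x ∈ range b, psiFF y ((AF (m' + 1) a b).rowLen (m' + 1 + x) +
      (m' + 1 + b - 1 - (m' + 1 + x))) = ∏ t ∈ range b, psiFF y (t + 1) := by
    rw [← Finset.prod_range_reflect (fun t => psiFF y (t + 1)) b]
    refine Finset.prod_congr rfl (fun x hx => ?_)
    have hx' := Finset.mem_range.1 hx
    rw [rowLen_AF_pos (m' + 1) a b (m' + 1 + x) (by omega) (by omega), if_neg (by omega),
      if_pos (by omega)]
    congr 1
    omega
  rw [hz, ha, ht]
  ring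

private theorem psi_step_key (m a b : ℕ) (hm : 10 ≤ m) (ha : a ≤ 5 * m) (hb : b ≤ 5 * m) (z : ℕ)
    (hz : z < 2 * m + a + b - 1) :
    ((z : ℝ) + 1) * WG (betaN m a b) z ≤ 100 * (m : ℝ) * WG (betaN m a b) (z + 1) := by
  rw [WG_betaN_split m a b z (by omega), WG_betaN_split m a b (z + 1) (by omega)]
  obtain ⟨K, hK⟩ : ∃ K, K + 1 = m - 1 := ⟨m - 2, by omega⟩
  rw [← hK]
  set T := 2 * m + a + b - 1 with hT
  have hshiftA : ∏ k ∈ range (K + 1), psiFF (z + 1) (b + 1 + 2 * k) =
      ∏ k ∈ range (K + 1), psiFF z (b + 2 * k) := by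
    refine Finset.prod_congr rfl (fun k _ => ?_)
    rw [show b + 1 + 2 * k = (b + 2 * k) + 1 by ring, psiFF_shift]
  have hshiftC : ∏ t ∈ range b, psiFF (z + 1) (t + 1) = ∏ t ∈ range b, psiFF z t :=
    Finset.prod_congr rfl (fun t _ => psiFF_shift z t)
  rw [hshiftA, hshiftC]
  set A := ∏ k ∈ range (K + 1), psiFF z (b + 1 + 2 * k) with hA
  set A1 := ∏ k ∈ range (K + 1), psiFF z (b + 2 * k) with hA1
  set C := ∏ t ∈ range b, psiFF z (t + 1) with hC
  set C1 := ∏ t ∈ range b, psiFF z t with hC1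
  have hApos : 0 < A := Finset.prod_pos (fun _ _ => psiFF_pos _ _)
  have hA1pos : 0 < A1 := Finset.prod_pos (fun _ _ => psiFF_pos _ _)
  have hCpos : 0 < C := Finset.prod_pos (fun _ _ => psiFF_pos _ _)
  have hC1pos : 0 < C1 := Finset.prod_pos (fun _ _ => psiFF_pos _ _)
  have htop : psiFF z T ≤ 2 * psiFF (z + 1) T := psiFF_top hz
  have htail : C * psiFF z 0 = C1 * psiFF z b := psiFF_tail_rel z b
  have hsucc := succ_le_two_psiFF z
  have halt : psiFF z b * A ≤ 25 * (m : ℝ) * A1 :=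
    psiFF_alt_bound z b a m hm ha hb (by omega) K hK
  have hT1 := psiFF_pos z T
  have hT2 := psiFF_pos (z + 1) T
  have hm0 : (0 : ℝ) < m := by
    have : (10 : ℝ) ≤ m := by exact_mod_cast hm
    linarith
  calc ((z : ℝ) + 1) * (psiFF z T * A * C)
      = psiFF z T * A * (((z : ℝ) + 1) * C) := by ring
    _ ≤ psiFF z T * A * (2 * psiFF z 0 * C) :=
        mul_le_mul_of_nonneg_left (mul_le_mul_of_nonneg_right hsucc hCpos.le) (by positivity)
    _ = 2 * psiFF z T * C1 * (psiFF z b * A) := by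
        have : 2 * psiFF z 0 * C = 2 * (C1 * psiFF z b) := by rw [← htail]; ring
        rw [this]; ring
    _ ≤ 2 * psiFF z T * C1 * (25 * (m : ℝ) * A1) :=
        mul_le_mul_of_nonneg_left halt (by positivity)
    _ = psiFF z T * (50 * (m : ℝ) * C1 * A1) := by ring
    _ ≤ (2 * psiFF (z + 1) T) * (50 * (m : ℝ) * C1 * A1) :=
        mul_le_mul_of_nonneg_right htop (by positivity)
    _ = 100 * (m : ℝ) * (psiFF (z + 1) T * A1 * C1) := by ring

/-- **The ratio lemma.** Numerically `PsiG z / PsiG (z + 1) ≤ 12 m`. -/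
theorem psi_step (m a b : ℕ) (hm : 10 ≤ m) (ha : a ≤ 5 * m) (hb : b ≤ 5 * m) (z : ℕ)
    (hz : z < 2 * m + a + b - 1) :
    PsiG (betaN m a b) z ≤ 100 * (m : ℝ) * PsiG (betaN m a b) (z + 1) := by
  have hkey := psi_step_key m a b hm ha hb z hz
  unfold PsiG
  have hf : (0 : ℝ) < (z.factorial : ℝ) := by exact_mod_cast Nat.factorial_pos z
  have hs : ((z + 1).factorial : ℝ) = ((z : ℝ) + 1) * (z.factorial : ℝ) := by
    rw [Nat.factorial_succ]
    push_cast
    ring
  have hz1 : (0 : ℝ) < (z : ℝ) + 1 := by positivity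
  rw [hs, div_le_iff₀ hf]
  have e : 100 * (m : ℝ) * (WG (betaN m a b) (z + 1) / (((z : ℝ) + 1) * (z.factorial : ℝ))) *
      (z.factorial : ℝ) = 100 * (m : ℝ) * WG (betaN m a b) (z + 1) / ((z : ℝ) + 1) := by
    field_simp
  rw [e, le_div_iff₀ hz1]
  linarith

theorem psi_ratio (m a b : ℕ) (hm : 10 ≤ m) (ha : a ≤ 5 * m) (hb : b ≤ 5 * m) (x y : ℕ) (hxy : x ≤ y)
    (hy : y ≤ 2 * m + a + b - 1) :
    PsiG (betaN m a b) x / PsiG (betaN m a b) y ≤ (100 * (m : ℝ)) ^ (y - x) := by
  obtain ⟨k, rfl⟩ := Nat.exists_eq_add_of_le hxy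
  induction k with
  | zero =>
    have hp := PsiG_pos (betaN m a b) x
    simp [hp.ne']
  | succ k ih =>
    have hy' : x + k ≤ 2 * m + a + b - 1 := by omega
    have ih' := ih (Nat.le_add_right x k) hy'
    have hstep := psi_step m a b hm ha hb (x + k) (by omega)
    have hp1 := PsiG_pos (betaN m a b) (x + k)
    have hp2 := PsiG_pos (betaN m a b) (x + (k + 1))
    have hm0 : (0 : ℝ) < 100 * (m : ℝ) := by
      have : (1 : ℝ) ≤ (m : ℝ) := by
        have : 1 ≤ m := by omega
        exact_mod_cast this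
      linarith
    have e1 : x + (k + 1) - x = (x + k - x) + 1 := by omega
    rw [e1, pow_succ, div_le_iff₀ hp2]
    rw [div_le_iff₀ hp1] at ih'
    have e2 : x + k + 1 = x + (k + 1) := by omega
    rw [e2] at hstep
    calc PsiG (betaN m a b) x ≤ (100 * (m : ℝ)) ^ (x + k - x) * PsiG (betaN m a b) (x + k) := ih'
      _ ≤ (100 * (m : ℝ)) ^ (x + k - x) * (100 * (m : ℝ) * PsiG (betaN m a b) (x + (k + 1))) :=
          mul_le_mul_of_nonneg_left hstep (by positivity)
      _ = _ := by ring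

end Vale.Agent.Lib.P197T
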