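import Vale.Agent.Lib.P197T.DoublePeel

/-!
# P197T: the regime of a large square (blueprint Sec 5)
-/

open Equiv Finset

namespace Vale.Agent.Lib.P197T

open Vale.Agent.Lib.P197 Vale.Agent.Lib.P197W Vale.Agent.Lib.P197X

/-- The balanced theorem for the family: proved in `FinalT` (Part A of the blueprint). -/
def BaseT : Prop :=
  ∃ m₀ : ℕ, ∀ m ≥ m₀, ∀ (a : ℕ) (ν : YoungDiagram), Even a → a ≤ 5 * m → ν.card = NN m + 2 * a →
    (ν.rowLen 0 : ℝ) ≤ ((NN m + 2 * a : ℕ) : ℝ) ^ (11 / 20 : ℝ) →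
    (ν.colLen 0 : ℝ) ≤ ((NN m + 2 * a : ℕ) : ℝ) ^ (11 / 20 : ℝ) →
    KP (AF m a a) (AF m a a) ν

/-- Numerics: `log n` blocks of `42 m` columns fit below `n^(11/20)`. -/
theorem params_stuckT : ∃ m₂ : ℕ, ∀ m ≥ m₂, ∀ a ≤ 5 * m, ∃ s : ℕ, NN m + 2 * a < 2 ^ s ∧
    ((2000 * m + 42 * m * s : ℕ) : ℝ) ≤ ((NN m + 2 * a : ℕ) : ℝ) ^ (11 / 20 : ℝ) := by
  refine ⟨10000 ^ 20, fun m hm a ha => ⟨Nat.log 2 (NN m + 2 * a) + 1,
    Nat.lt_pow_succ_log_self (by norm_num) _, ?_⟩⟩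
  have hm1 : (10000 : ℝ) ^ 20 ≤ (m : ℝ) := by exact_mod_cast hm
  set x : ℝ := (m : ℝ) with hx
  have hx0 : 0 < x := lt_of_lt_of_le (by positivity) hm1
  have hx1 : 1 ≤ x := le_trans (one_le_pow₀ (by norm_num)) hm1
  have hx21 : 21 ≤ x := le_trans (by norm_num) hm1
  set y : ℝ := x ^ (1 / 20 : ℝ) with hy
  have hy1000 : 10000 ≤ y := by
    have h1 : ((10000 : ℝ) ^ 20) ^ (1 / 20 : ℝ) ≤ x ^ (1 / 20 : ℝ) :=
      Real.rpow_le_rpow (by positivity) hm1 (by norm_num)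
    have h2 : ((10000 : ℝ) ^ 20) ^ (1 / 20 : ℝ) = 10000 := by
      rw [← Real.rpow_natCast, ← Real.rpow_mul (by norm_num)]
      norm_num
    rwa [h2] at h1
  have hy0 : 0 < y := by linarith
  have hyy : y ^ 2 = x ^ (1 / 10 : ℝ) := by
    rw [hy, ← Real.rpow_natCast, ← Real.rpow_mul hx0.le]
    norm_num
  -- the size
  have h2N : 2 * NN m = m * (m + 1) := by
    have := Nat.even_mul_succ_self m
    obtain ⟨c, hc⟩ := this
    simp only [NN]
    omega
  set N : ℕ := NN m + 2 * a with hN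
  have hNR : (N : ℝ) = ((NN m : ℕ) : ℝ) + 2 * (a : ℝ) := by rw [hN]; push_cast; ring
  have haR : (a : ℝ) ≤ 5 * x := by rw [hx]; exact_mod_cast ha
  have ha0 : (0 : ℝ) ≤ (a : ℝ) := Nat.cast_nonneg _
  have hNN : (2 : ℝ) * ((NN m : ℕ) : ℝ) = x * (x + 1) := by
    rw [hx]; exact_mod_cast h2N
  have hNlow : x ^ 2 / 2 ≤ (N : ℝ) := by
    rw [hNR]; nlinarith
  have hNup : (N : ℝ) ≤ x ^ 2 := by
    rw [hNR]; nlinarith
  have hNpos : (0 : ℝ) < (N : ℝ) := lt_of_lt_of_le (by positivity) hNlow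
  -- bound on the logarithm
  have hlogx : Real.log x ≤ 20 * y := by
    have := Real.log_le_rpow_div hx0.le (show (0 : ℝ) < 1 / 20 by norm_num)
    calc Real.log x ≤ x ^ (1 / 20 : ℝ) / (1 / 20) := this
      _ = 20 * y := by rw [hy]; ring
  have hlog0 : 0 ≤ Real.log x := Real.log_nonneg hx1
  have hNne : N ≠ 0 := by
    intro h; rw [h] at hNpos; simp at hNpos
  have hs : ((Nat.log 2 N : ℕ) : ℝ) ≤ 60 * y := by
    have hpow : 2 ^ (Nat.log 2 N) ≤ N := Nat.pow_log_le_self 2 hNne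
    have hpowR : (2 : ℝ) ^ (Nat.log 2 N) ≤ x ^ 2 := by
      refine le_trans ?_ hNup
      exact_mod_cast hpow
    have hl := Real.log_le_log (by positivity) hpowR
    rw [Real.log_pow, Real.log_pow] at hl
    have h2 := Real.log_two_gt_d9
    have hnn : (0 : ℝ) ≤ ((Nat.log 2 N : ℕ) : ℝ) := Nat.cast_nonneg _
    push_cast at hl
    nlinarith
  -- the right side
  have hR : x * y ^ 2 / 2 ≤ (N : ℝ) ^ (11 / 20 : ℝ) := by
    have h1 : (x ^ 2 / 2) ^ (11 / 20 : ℝ) ≤ (N : ℝ) ^ (11 / 20 : ℝ) :=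
      Real.rpow_le_rpow (by positivity) hNlow (by norm_num)
    refine le_trans ?_ h1
    have h5 : (x ^ 2 / 2) ^ (11 / 20 : ℝ) = (x ^ 2) ^ (11 / 20 : ℝ) * (2 : ℝ)⁻¹ ^ (11 / 20 : ℝ) := by
      rw [div_eq_mul_inv, Real.mul_rpow (by positivity) (by norm_num)]
    rw [h5]
    have h3 : (x ^ 2) ^ (11 / 20 : ℝ) = x * y ^ 2 := by
      rw [hyy, ← Real.rpow_natCast, ← Real.rpow_mul hx0.le]
      nth_rewrite 2 [← Real.rpow_one x]
      rw [← Real.rpow_add hx0]
      norm_num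
    have h4 : (1 / 2 : ℝ) ≤ (2 : ℝ)⁻¹ ^ (11 / 20 : ℝ) := by
      have := Real.rpow_le_rpow_of_exponent_ge (show (0 : ℝ) < 2⁻¹ by norm_num)
        (show (2 : ℝ)⁻¹ ≤ 1 by norm_num) (show (11 / 20 : ℝ) ≤ 1 by norm_num)
      rw [Real.rpow_one] at this
      linarith [this]
    rw [h3]
    have : 0 ≤ x * y ^ 2 := by positivity
    nlinarith
  refine le_trans ?_ hR
  push_cast
  rw [← hx]
  have hbig : (2000 : ℝ) + 42 * (((Nat.log 2 N : ℕ) : ℝ) + 1) ≤ y ^ 2 / 2 := by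
    nlinarith
  have : 2000 * x + 42 * x * (((Nat.log 2 N : ℕ) : ℝ) + 1) =
      x * ((2000 : ℝ) + 42 * (((Nat.log 2 N : ℕ) : ℝ) + 1)) := by ring
  rw [this]
  calc x * ((2000 : ℝ) + 42 * (((Nat.log 2 N : ℕ) : ℝ) + 1)) ≤ x * (y ^ 2 / 2) :=
        mul_le_mul_of_nonneg_left hbig hx0.le
    _ = x * y ^ 2 / 2 := by ring

private theorem card_transpose_IT (ν : YoungDiagram) : ν.transpose.card = ν.card := by
  unfold YoungDiagram.card
  rw [YoungDiagram.transpose]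
  simp

/-- The peeling step on columns. -/
theorem regimeI_stepT (m a : ℕ) (hm : 100 ≤ m) (ha : Even a) (ha5 : a ≤ 5 * m) (ν : YoungDiagram)
    (hν : ν.card = NN m + 2 * a) (D w : ℕ)
    (hD : (D, D) ∈ ν) (hw0 : 2000 * m ≤ w) (hDw : D < w)
    (hh : 1 ≤ ν.colLen w) (hbig : 40 * ν.colLen w * m ≤ farE ν w)
    (IH : ∀ m' < m, ∀ (c : ℕ) (ν' : YoungDiagram), Even c → c ≤ 5 * m' → ν'.card = NN m' + 2 * c →
      (D, D) ∈ ν' → KP (AF m' c c) (AF m' c c) ν') : KP (AF m a a) (AF m a a) ν := by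
  have harea := col_area ν w
  rw [hν] at harea
  have h2N : 2 * NN m = m * (m + 1) := by
    have := Nat.even_mul_succ_self m
    obtain ⟨c, hc⟩ := this
    simp only [NN]
    omega
  have h2000 : 2000 * ν.colLen w ≤ m := by
    have h5 : (2000 * m) * ν.colLen w ≤ w * ν.colLen w := Nat.mul_le_mul_right _ hw0
    have h6 : (w + 1) * ν.colLen w = w * ν.colLen w + ν.colLen w := by ring
    have h7 : m * (2000 * ν.colLen w) ≤ m * m := by
      have h8 : m * (2000 * ν.colLen w) = (2000 * m) * ν.colLen w := by ring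
      have h9 : 2 * (NN m + 2 * a) ≤ 2 * (m * m) := by
        have : m * (m + 1) = m * m + m := by ring
        have h10 : 100 * m ≤ m * m := Nat.mul_le_mul_right _ hm
        omega
      omega
    exact Nat.le_of_mul_le_mul_left h7 (by omega)
  have hP : farCols ν w ≤ colsOf ν := farCols_le ν w
  have hb : ∀ b ∈ farCols ν w, b ≤ ν.colLen w := by
    intro b hb
    unfold farCols at hb
    obtain ⟨j, hj, rfl⟩ := Multiset.mem_map.mp hb
    have hj' := (Multiset.mem_filter.mp hj).2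
    exact YoungDiagram.colLen_anti ν w j hj'
  obtain ⟨t, c, B₁, B₂, ht1, ht2, hc, hc2, hBP, hB1, hB2, himp⟩ :=
    double_peel m a (ν.colLen w) hh ν (farCols ν w) hP hb h2000 ha ha5 hbig
  apply himp
  have htm : 100 * t ≤ m := by omega
  have h1t : 1 ≤ t := by omega
  refine IH (m - t - t) (by omega) c _ hc (by omega) ?_ ?_
  · have h1 := card_remove (μ := ν) (B := B₁ + B₂) (le_trans hBP hP)
    have h2 := NN_eq m t (by omega)
    have h3 := NN_eq (m - t) t (by omega)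
    rw [Multiset.sum_add] at h1
    omega
  · exact square_of_remove hD hDw hBP

/-- **Regime of a large square.** -/
theorem regimeI_T (hB : BaseT) : ∃ D₀ : ℕ, ∀ (m a : ℕ) (ν : YoungDiagram), Even a → a ≤ 5 * m →
    ν.card = NN m + 2 * a → (D₀, D₀) ∈ ν → KP (AF m a a) (AF m a a) ν := by
  obtain ⟨m₀, hm₀⟩ := hB
  obtain ⟨m₂, hm₂⟩ := params_stuckT
  refine ⟨max (max m₀ m₂) 100, ?_⟩
  generalize hD₀ : max (max m₀ m₂) 100 = D₀
  have hD0 : m₀ ≤ D₀ := by rw [← hD₀]; exact le_trans (le_max_left _ _) (le_max_left _ _)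
  have hD2 : m₂ ≤ D₀ := by rw [← hD₀]; exact le_trans (le_max_right _ _) (le_max_left _ _)
  have hD100 : 100 ≤ D₀ := by rw [← hD₀]; exact le_max_right _ _
  intro m
  induction m using Nat.strong_induction_on with
  | _ m IH =>
    intro a ν ha ha5 hν hD
    have h2N : 2 * NN m = m * (m + 1) := by
      have := Nat.even_mul_succ_self m
      obtain ⟨c, hc⟩ := this
      simp only [NN]
      omega
    -- the size of the square gives `D₀ ≤ m`
    have hDm : D₀ ≤ m := by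
      by_contra hcon
      have hmD : m + 1 ≤ D₀ := by omega
      have harea := col_area ν D₀
      have hcl : D₀ + 1 ≤ ν.colLen D₀ := (YoungDiagram.mem_iff_lt_colLen).mp hD
      have h1 : (D₀ + 1) * (D₀ + 1) ≤ ν.card :=
        le_trans (Nat.mul_le_mul_left _ hcl) harea
      rw [hν] at h1
      have h3 : m * (m + 1) ≤ D₀ * D₀ := Nat.mul_le_mul (by omega) (by omega)
      have h4 : (D₀ + 1) * (D₀ + 1) = D₀ * D₀ + 2 * D₀ + 1 := by ring
      have h5 : 100 * D₀ ≤ D₀ * D₀ := Nat.mul_le_mul_right _ hD100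
      omega
    have hm100 : 100 ≤ m := by omega
    have hm1 : 1 ≤ m := by omega
    have hIH : ∀ m' < m, ∀ (c : ℕ) (ν' : YoungDiagram), Even c → c ≤ 5 * m' →
        ν'.card = NN m' + 2 * c → (D₀, D₀) ∈ ν' → KP (AF m' c c) (AF m' c c) ν' :=
      fun m' hm' c ν' hc hc5 hc' hD' => IH m' hm' c ν' hc hc5 hc' hD'
    by_cases h1 : ∃ w, 2000 * m ≤ w ∧ 1 ≤ ν.colLen w ∧ 40 * ν.colLen w * m ≤ farE ν w
    · obtain ⟨w, hw, hh, hbig⟩ := h1
      exact regimeI_stepT m a hm100 ha ha5 ν hν D₀ w hD hw (by omega) hh hbig hIH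
    by_cases h2 : ∃ w, 2000 * m ≤ w ∧ 1 ≤ ν.transpose.colLen w ∧
        40 * ν.transpose.colLen w * m ≤ farE ν.transpose w
    · obtain ⟨w, hw, hh, hbig⟩ := h2
      have hk := regimeI_stepT m a hm100 ha ha5 ν.transpose (by rw [card_transpose_IT]; exact hν)
        D₀ w (YoungDiagram.mem_transpose.mpr hD) hw (by omega) hh hbig hIH
      have hk2 := KP_conj3F hk
      rwa [YoungDiagram.transpose_transpose] at hk2
    have hst1 : ∀ w, 2000 * m ≤ w → 1 ≤ ν.colLen w → farE ν w < 7 * ν.colLen w * (6 * m) := by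
      intro w hw hh
      by_contra hcon
      refine h1 ⟨w, hw, hh, ?_⟩
      have : 7 * ν.colLen w * (6 * m) = 42 * ν.colLen w * m := by ring
      have h3 : 40 * ν.colLen w * m ≤ 42 * ν.colLen w * m :=
        Nat.mul_le_mul_right _ (Nat.mul_le_mul_right _ (by norm_num))
      omega
    have hst2 : ∀ w, 2000 * m ≤ w → 1 ≤ ν.transpose.colLen w →
        farE ν.transpose w < 7 * ν.transpose.colLen w * (6 * m) := by
      intro w hw hh
      by_contra hcon
      refine h2 ⟨w, hw, hh, ?_⟩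
      have : 7 * ν.transpose.colLen w * (6 * m) = 42 * ν.transpose.colLen w * m := by ring
      have h3 : 40 * ν.transpose.colLen w * m ≤ 42 * ν.transpose.colLen w * m :=
        Nat.mul_le_mul_right _ (Nat.mul_le_mul_right _ (by norm_num))
      omega
    obtain ⟨s, hs, hsR⟩ := hm₂ m (by omega) a ha5
    have hr1 := stuck_rowLen ν (6 * m) (2000 * m) s (by omega) hst1 (by rw [hν]; exact hs)
    have hr2 := stuck_rowLen ν.transpose (6 * m) (2000 * m) s (by omega) hst2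
      (by rw [card_transpose_IT, hν]; exact hs)
    rw [YoungDiagram.rowLen_transpose] at hr2
    have e42 : 2000 * m + 7 * (6 * m) * s = 2000 * m + 42 * m * s := by ring
    rw [e42] at hr1 hr2
    have hrR : (ν.rowLen 0 : ℝ) ≤ ((NN m + 2 * a : ℕ) : ℝ) ^ (11 / 20 : ℝ) := by
      refine le_trans ?_ hsR
      exact_mod_cast hr1
    have hcR : (ν.colLen 0 : ℝ) ≤ ((NN m + 2 * a : ℕ) : ℝ) ^ (11 / 20 : ℝ) := by
      refine le_trans ?_ hsR
      exact_mod_cast hr2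
    exact hm₀ m (by omega) a ν ha ha5 hν hrR hcR

end Vale.Agent.Lib.P197T
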