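import Vale.Agent.Lib.P197T.Family

/-!
# P197T: the coloured sum as an iterated subtraction (blueprint Sec A1)

`SOm G s x` is the sum of `G` over all ways to subtract the parts of `s` from coordinates of `x`.
-/

open Equiv Finset

namespace Vale.Agent.Lib.P197T

open Vale.Agent.Lib.P197 Vale.Agent.Lib.P197W Vale.Agent.Lib.P197X

/-- Subtract `L` at coordinate `i`. -/
def subAt {N : ℕ} (x : Fin N → ℤ) (L : ℕ) (i : Fin N) : Fin N → ℤ :=
  Function.update x i (x i - L)

/-- Iterated subtraction along a list. -/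
noncomputable def SO {N : ℕ} (G : (Fin N → ℤ) → ℝ) : List ℕ → (Fin N → ℤ) → ℝ
  | [], x => G x
  | L :: s, x => ∑ i, SO G s (subAt x L i)

/-- Subtractions commute. -/
theorem subAt_comm {N : ℕ} (x : Fin N → ℤ) (a b : ℕ) (i j : Fin N) :
    subAt (subAt x a i) b j = subAt (subAt x b j) a i := by
  funext k
  simp only [subAt, Function.update_apply]
  by_cases h1 : k = i <;> by_cases h2 : k = j <;> by_cases h3 : j = i <;> simp_all
  all_goals ring

theorem SO_perm {N : ℕ} (G : (Fin N → ℤ) → ℝ) {l₁ l₂ : List ℕ} (h : l₁.Perm l₂) (x : Fin N → ℤ) :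
    SO G l₁ x = SO G l₂ x := by
  induction h generalizing x with
  | nil => rfl
  | cons a _ ih =>
    simp only [SO]
    exact Finset.sum_congr rfl fun i _ => ih _
  | swap a b l =>
    simp only [SO]
    rw [Finset.sum_comm]
    refine Finset.sum_congr rfl fun i _ => Finset.sum_congr rfl fun j _ => ?_
    rw [subAt_comm]
  | trans _ _ ih₁ ih₂ => exact (ih₁ x).trans (ih₂ x)

/-- Iterated subtraction along a multiset. -/
noncomputable def SOm {N : ℕ} (G : (Fin N → ℤ) → ℝ) (s : Multiset ℕ) (x : Fin N → ℤ) : ℝ :=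
  SO G s.toList x

theorem SOm_zero {N : ℕ} (G : (Fin N → ℤ) → ℝ) (x : Fin N → ℤ) : SOm G 0 x = G x := by
  simp [SOm, SO]

theorem SOm_cons {N : ℕ} (G : (Fin N → ℤ) → ℝ) (L : ℕ) (s : Multiset ℕ) (x : Fin N → ℤ) :
    SOm G (L ::ₘ s) x = ∑ i, SOm G s (subAt x L i) := by
  have h : (L ::ₘ s).toList.Perm (L :: s.toList) := by
    rw [← Multiset.coe_eq_coe, Multiset.coe_toList, ← Multiset.cons_coe, Multiset.coe_toList]
  unfold SOm
  rw [SO_perm G h x]
  rfl

/-- The content of a colouring of weighted points. -/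
private def contW {N k : ℕ} (l : Fin k → ℕ) (ψ : Fin k → Fin N) (i : Fin N) : ℤ :=
  ∑ c, if ψ c = i then (l c : ℤ) else 0

/-- The sum over colourings of weighted points is the iterated subtraction. -/
private theorem sum_fin_colour {N : ℕ} (G : (Fin N → ℤ) → ℝ) :
    ∀ (k : ℕ) (l : Fin k → ℕ) (x : Fin N → ℤ),
      ∑ ψ : Fin k → Fin N, G (fun i => x i - contW l ψ i) = SO G (List.ofFn l) x := by
  intro k
  induction k with
  | zero =>
    intro l x
    have hψ : ∀ ψ : Fin 0 → Fin N, (fun i => x i - contW l ψ i) = x := by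
      intro ψ
      funext i
      simp [contW]
    simp [hψ, SO]
  | succ k ih =>
    intro l x
    rw [List.ofFn_succ]
    simp only [SO]
    rw [← (Fin.consEquiv (fun _ : Fin (k + 1) => Fin N)).sum_comp, Fintype.sum_prod_type]
    refine Finset.sum_congr rfl fun i _ => ?_
    rw [← ih (fun c => l c.succ) (subAt x (l 0) i)]
    refine Finset.sum_congr rfl fun ψ _ => ?_
    congr 1
    funext j
    simp only [Fin.consEquiv_apply, contW, Fin.sum_univ_succ, Fin.cons_zero, Fin.cons_succ]
    simp only [subAt]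
    by_cases h : i = j
    · subst h
      simp only [Function.update_self, if_true]
      ring
    · rw [if_neg h, Function.update_of_ne (Ne.symm h)]
      ring

/-- The cycle of a point of the support. -/
private noncomputable def cycOf {n : ℕ} (π : Perm (Fin n)) (x : {x // x ∈ π.support}) :
    {c // c ∈ π.cycleFactorsFinset} :=
  ⟨π.cycleOf x.1, Perm.cycleOf_mem_cycleFactorsFinset_iff.2 x.2⟩

private theorem cycOf_apply {n : ℕ} (π : Perm (Fin n)) (x : {x // x ∈ π.support}) :
    cycOf π ⟨π x.1, Perm.apply_mem_support.2 x.2⟩ = cycOf π x := by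
  apply Subtype.ext
  have h : π.SameCycle x.1 (π x.1) := ⟨1, by simp⟩
  exact h.cycleOf_eq.symm

private theorem cycOf_repOf {n : ℕ} (π : Perm (Fin n)) (c : {c // c ∈ π.cycleFactorsFinset}) :
    cycOf π (FrobAux.repOf π c) = c := by
  apply Subtype.ext
  exact (Perm.cycle_is_cycleOf (FrobAux.repOf_mem π c) c.2).symm

private theorem mem_support_iff_cycOf {n : ℕ} (π : Perm (Fin n)) (x : {x // x ∈ π.support})
    (c : {c // c ∈ π.cycleFactorsFinset}) : x.1 ∈ c.1.support ↔ cycOf π x = c := by
  constructor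
  · intro h
    apply Subtype.ext
    exact (Perm.cycle_is_cycleOf h c.2).symm
  · rintro rfl
    exact Perm.mem_support_cycleOf_iff.2 ⟨Perm.SameCycle.refl _ _, x.2⟩

/-- The content of the colouring pulled back from the cycles. -/
private theorem contOn_pull {n N : ℕ} (π : Perm (Fin n)) (ψ : {c // c ∈ π.cycleFactorsFinset} → Fin N)
    (i : Fin N) :
    contOn (fun x => ψ (cycOf π x)) i =
      ∑ c, if ψ c = i then ((c.1.support.card : ℕ) : ℤ) else 0 := by
  unfold contOn
  have h : ((univ.filter fun x : {x // x ∈ π.support} => ψ (cycOf π x) = i).card) =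
      ∑ c ∈ univ.filter (fun c => ψ c = i), c.1.support.card := by
    rw [Finset.card_eq_sum_card_fiberwise (f := cycOf π)
      (t := univ.filter (fun c => ψ c = i))]
    · refine Finset.sum_congr rfl fun c hc => ?_
      have hc' := (Finset.mem_filter.1 hc).2
      have hbij : ((univ.filter fun x : {x // x ∈ π.support} => ψ (cycOf π x) = i).filter
          fun x => cycOf π x = c).card = c.1.support.card := by
        refine Finset.card_bij (fun x _ => x.1) ?_ ?_ ?_
        · intro x hx
          have := (Finset.mem_filter.1 hx).2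
          exact (mem_support_iff_cycOf π x c).2 this
        · intro x _ y _ h
          exact Subtype.ext h
        · intro y hy
          have hy' : y ∈ π.support := Perm.mem_cycleFactorsFinset_support_le c.2 hy
          refine ⟨⟨y, hy'⟩, ?_, rfl⟩
          have hcy := (mem_support_iff_cycOf π ⟨y, hy'⟩ c).1 hy
          refine Finset.mem_filter.2 ⟨Finset.mem_filter.2 ⟨Finset.mem_univ _, ?_⟩, hcy⟩
          rw [hcy]
          exact hc'
      exact hbij
    · intro x hx
      have := (Finset.mem_filter.1 (Finset.mem_coe.1 hx)).2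
      exact Finset.mem_coe.2 (Finset.mem_filter.2 ⟨Finset.mem_univ _, this⟩)
  rw [h, Finset.sum_filter]
  push_cast
  rfl

/-- The sum over colourings constant on cycles is the iterated subtraction: a colouring is a map
from the cycles to `Fin N` (`repOf`, `exists_cycle_rep`, `invOn_const`, `card_factors`). -/
theorem sum_invOn {n N : ℕ} (G : (Fin N → ℤ) → ℝ) (π : Perm (Fin n)) (x : Fin N → ℤ) :
    ∑ φ ∈ invOn N π, G (fun i => x i - contOn φ i) = SOm G π.cycleType x := by
  classical
  -- from the invariant colourings to the cycles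
  have h1 : ∑ φ ∈ invOn N π, G (fun i => x i - contOn φ i) =
      ∑ ψ : {c // c ∈ π.cycleFactorsFinset} → Fin N,
        G (fun i => x i - ∑ c, if ψ c = i then ((c.1.support.card : ℕ) : ℤ) else 0) := by
    refine Finset.sum_bij' (fun φ _ c => φ (FrobAux.repOf π c))
      (fun ψ _ y => ψ (cycOf π y)) ?_ ?_ ?_ ?_ ?_
    · intro φ _
      exact Finset.mem_univ _
    · intro ψ _
      simp only [P197.invOn, Finset.mem_filter, Finset.mem_univ, true_and]
      intro y
      rw [cycOf_apply]
    · intro φ hφ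
      funext y
      refine FrobAux.invOn_const N π φ hφ _ _ ?_
      have hrep := FrobAux.repOf_mem π (cycOf π y)
      have := (Perm.mem_support_cycleOf_iff.1 hrep).1
      exact this.symm
    · intro ψ _
      funext c
      simp only
      rw [cycOf_repOf]
    · intro φ hφ
      have hpull : (fun y => φ (FrobAux.repOf π (cycOf π y))) = φ := by
        funext y
        refine FrobAux.invOn_const N π φ hφ _ _ ?_
        have hrep := FrobAux.repOf_mem π (cycOf π y)
        have := (Perm.mem_support_cycleOf_iff.1 hrep).1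
        exact this.symm
      congr 1
      funext i
      have h := contOn_pull π (fun c => φ (FrobAux.repOf π c)) i
      simp only [hpull] at h
      rw [h]
  rw [h1]
  -- reindex the cycles by `Fin k`
  set e := Fintype.equivFin {c // c ∈ π.cycleFactorsFinset} with he
  set k := Fintype.card {c // c ∈ π.cycleFactorsFinset} with hk
  let l : Fin k → ℕ := fun j => (e.symm j).1.support.card
  have h2 : ∑ ψ : {c // c ∈ π.cycleFactorsFinset} → Fin N,
        G (fun i => x i - ∑ c, if ψ c = i then ((c.1.support.card : ℕ) : ℤ) else 0) =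
      ∑ ψ : Fin k → Fin N, G (fun i => x i - contW l ψ i) := by
    refine Fintype.sum_equiv (Equiv.arrowCongr e (Equiv.refl _)) _ _ fun ψ => ?_
    congr 1
    funext i
    congr 1
    unfold contW
    refine Fintype.sum_equiv e _ _ fun c => ?_
    simp [l]
  rw [h2, sum_fin_colour G k l x]
  unfold SOm
  refine SO_perm G ?_ x
  rw [← Multiset.coe_eq_coe, Multiset.coe_toList, Perm.cycleType_def, ← Fin.univ_val_map]
  have h3 : (Finset.univ.val.map l) = ((Finset.univ : Finset {c // c ∈ π.cycleFactorsFinset}).val.map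
      fun c => c.1.support.card) := by
    have : l = (fun c : {c // c ∈ π.cycleFactorsFinset} => c.1.support.card) ∘ e.symm := rfl
    rw [this, ← Multiset.map_map, Multiset.map_univ_val_equiv]
  rw [h3]
  have h4 : (Finset.univ : Finset {c // c ∈ π.cycleFactorsFinset}).val =
      π.cycleFactorsFinset.1.attach := rfl
  rw [h4]
  have h5 := Multiset.attach_map_val' π.cycleFactorsFinset.1
    (fun c : Perm (Fin n) => c.support.card)
  exact h5

/-- The bead vector of `μ` with `N` rows. -/
def betaZ (N : ℕ) (μ : YoungDiagram) (i : Fin N) : ℤ :=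
  (μ.rowLen (i : ℕ) : ℤ) + ((N - 1 - (i : ℕ) : ℕ) : ℤ)

theorem frobF_eq_SOm {n : ℕ} {μ : YoungDiagram} (N : ℕ) (hμ : μ.card = n) (hN : μ.colLen 0 ≤ N)
    (π : Perm (Fin n)) :
    (frobF N μ π : ℝ) = SOm (dimX (n - sp π)) π.cycleType (betaZ N μ) := by
  rw [frobF_formula N hμ hN π, ← sum_invOn _ π (betaZ N μ)]
  rfl

/-- `dimX` is alternating: `Matrix.det_vandermonde` turns `vdm` into a determinant. -/
theorem dimX_comp_perm {N : ℕ} (f : ℕ) (τ : Perm (Fin N)) (x : Fin N → ℤ) :
    dimX f (x ∘ τ) = ((((Perm.sign τ : ℤˣ) : ℤ)) : ℝ) * dimX f x := by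
  have hv : ∀ y : Fin N → ℤ, vdm y = (∏ i : Fin N, ∏ _j ∈ Ioi i, (-1 : ℤ)) *
      (Matrix.vandermonde y).det := by
    intro y
    rw [Matrix.det_vandermonde, vdm, ← Finset.prod_mul_distrib]
    refine Finset.prod_congr rfl fun i _ => ?_
    rw [← Finset.prod_mul_distrib]
    refine Finset.prod_congr rfl fun j _ => ?_
    ring
  have hτ : vdm (x ∘ τ) = ((Perm.sign τ : ℤˣ) : ℤ) * vdm x := by
    rw [hv, hv x]
    have : Matrix.vandermonde (x ∘ τ) = (Matrix.vandermonde x).submatrix τ id := by
      ext i j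
      simp [Matrix.vandermonde_apply]
    rw [this, Matrix.det_permute]
    simp only [Int.cast_id]
    ring
  have hnn : (∀ i, 0 ≤ (x ∘ τ) i) ↔ ∀ i, 0 ≤ x i :=
    ⟨fun h i => by simpa using h (τ⁻¹ i), fun h i => h (τ i)⟩
  have hprod : ∏ i, ((((x ∘ τ) i).toNat.factorial : ℕ) : ℝ) =
      ∏ i, (((x i).toNat.factorial : ℕ) : ℝ) :=
    Equiv.prod_comp τ (fun i => (((x i).toNat.factorial : ℕ) : ℝ))
  unfold dimX
  simp only [hnn, hprod, hτ]
  split_ifs
  · push_cast
    ring
  · simp

theorem dimX_neg {N : ℕ} (f : ℕ) (x : Fin N → ℤ) (h : ∃ i, x i < 0) : dimX f x = 0 := by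
  obtain ⟨i, hi⟩ := h
  unfold dimX
  rw [if_neg]
  intro hall
  exact absurd (hall i) (not_le.2 hi)

theorem SOm_comp_perm {N : ℕ} (G : (Fin N → ℤ) → ℝ)
    (hG : ∀ (τ : Perm (Fin N)) (x : Fin N → ℤ), G (x ∘ τ) = ((((Perm.sign τ : ℤˣ) : ℤ)) : ℝ) * G x)
    (s : Multiset ℕ) (τ : Perm (Fin N)) (x : Fin N → ℤ) :
    SOm G s (x ∘ τ) = ((((Perm.sign τ : ℤˣ) : ℤ)) : ℝ) * SOm G s x := by
  induction s using Multiset.induction_on generalizing x with
  | empty => simpa [SOm_zero] using hG τ x
  | cons L s ih =>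
    rw [SOm_cons, SOm_cons, Finset.mul_sum]
    have h1 : ∑ i, SOm G s (subAt (x ∘ τ) L i) =
        ∑ i, ((((Perm.sign τ : ℤˣ) : ℤ)) : ℝ) * SOm G s (subAt x L (τ i)) := by
      refine Finset.sum_congr rfl fun i _ => ?_
      rw [← ih]
      congr 1
      funext k
      simp only [subAt, Function.comp_apply, Function.update_apply, τ.injective.eq_iff]
    rw [h1]
    exact Equiv.sum_comp τ (fun i => ((((Perm.sign τ : ℤˣ) : ℤ)) : ℝ) * SOm G s (subAt x L i))

/-- Two equal coordinates give zero. -/
theorem SOm_tie {N : ℕ} (G : (Fin N → ℤ) → ℝ)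
    (hG : ∀ (τ : Perm (Fin N)) (x : Fin N → ℤ), G (x ∘ τ) = ((((Perm.sign τ : ℤˣ) : ℤ)) : ℝ) * G x)
    (s : Multiset ℕ) (x : Fin N → ℤ) (i j : Fin N) (hij : i ≠ j) (h : x i = x j) :
    SOm G s x = 0 := by
  have hx : x ∘ (Equiv.swap i j) = x := by
    funext k
    simp only [Function.comp_apply]
    by_cases h1 : k = i
    · subst h1; simp [h]
    · by_cases h2 : k = j
      · subst h2; simp [h]
      · rw [Equiv.swap_apply_of_ne_of_ne h1 h2]
  have := SOm_comp_perm G hG s (Equiv.swap i j) x
  rw [hx, Equiv.Perm.sign_swap hij] at this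
  push_cast at this
  linarith

/-- A negative coordinate gives zero: coordinates only decrease. -/
theorem SOm_neg {N : ℕ} (G : (Fin N → ℤ) → ℝ) (hG : ∀ x : Fin N → ℤ, (∃ i, x i < 0) → G x = 0)
    (s : Multiset ℕ) (x : Fin N → ℤ) (i : Fin N) (h : x i < 0) : SOm G s x = 0 := by
  induction s using Multiset.induction_on generalizing x with
  | empty => simpa [SOm_zero] using hG x ⟨i, h⟩
  | cons L s ih =>
    rw [SOm_cons]
    refine Finset.sum_eq_zero fun j _ => ih _ ?_
    simp only [subAt, Function.update_apply]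
    split_ifs with hj
    · subst hj
      have : (0 : ℤ) ≤ (L : ℤ) := Int.natCast_nonneg L
      omega
    · exact h

end Vale.Agent.Lib.P197T
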