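import Vale.Agent.Lib.P197T.Three
import Vale.Agent.Lib.P197T.Generic
import Vale.Agent.Lib.P197S.Inst

/-!
# P197T: the sharp bound for the family and the structure `RhoT` (blueprint Sec A9)
-/

open Equiv Finset

namespace Vale.Agent.Lib.P197T

open Vale.Agent.Lib.P197 Vale.Agent.Lib.P197S Vale.Agent.Lib.P197W Vale.Agent.Lib.P197X

/-- The cost of a cycle of length `j` in the generic bound for `ρ`. -/
noncomputable def costT (n j : ℕ) : ℝ :=
  if Odd j then (2500 : ℝ) ^ j * ((Real.sqrt n)⁻¹) ^ (j - 1)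
  else 2 * (13 / Real.sqrt n) ^ j

theorem costT_nonneg (n j : ℕ) : 0 ≤ costT n j := by
  unfold costT
  split_ifs <;> positivity

/-- The multiplicative bound, as a function of the multiset of the (odd) cycle lengths. -/
noncomputable def BdM (u θ Γ : ℝ) (O : Multiset ℕ) : ℝ :=
  Γ ^ O.sum * u ^ (O.sum - Multiset.card O) * θ ^ O.count 3

/-- The scale of the family. -/
noncomputable def uRT (n : ℕ) : ℝ := 2500 ^ 2 / Real.sqrt n

/-- The value `K` for the family. -/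
noncomputable def kFam (m n : ℕ) : ℝ := (n : ℝ) / (2 * ((n : ℝ) - 2)) * (1 + 30000 / (m : ℝ))

/-- The numbers for the family. -/
structure NumHypT (n K₁ : ℕ) : Prop where
  hK : 5000 ≤ K₁
  hn : (10 : ℝ) ^ 80 * (K₁ : ℝ) ^ 7 ≤ n

/-- `uRT n ^ 2 = 2500 ^ 4 / n`. -/
theorem uRT_sq {n K₁ : ℕ} (H : NumHyp n K₁) : uRT n ^ 2 = 2500 ^ 4 / (n : ℝ) := by
  unfold uRT
  have h0 : (0 : ℝ) ≤ n := H.n_pos.le
  rw [div_pow, Real.sq_sqrt h0]
  norm_num

theorem uRT_pos {n K₁ : ℕ} (H : NumHyp n K₁) : 0 < uRT n := by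
  unfold uRT
  have := Real.sqrt_pos.2 H.n_pos
  positivity

theorem uRT_le_one {n K₁ : ℕ} (H : NumHyp n K₁) : uRT n ≤ 1 := by
  unfold uRT
  have hsq := Real.sqrt_pos.2 H.n_pos
  rw [div_le_one hsq]
  apply Real.le_sqrt_of_sq_le
  exact le_trans (by norm_num) H.n_ge

theorem uRT_pow4 {n K₁ : ℕ} (H : NumHyp n K₁) : uRT n ^ 4 = 2500 ^ 8 / (n : ℝ) ^ 2 := by
  have e : uRT n ^ 4 = (uRT n ^ 2) ^ 2 := by ring
  rw [e, uRT_sq H, div_pow]
  norm_num

/-- The error term of the sharp theorem, for every `K ≥ 1 / 4`. -/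
theorem E_uRT {n K₁ : ℕ} (H : NumHyp n K₁) (K : ℝ) (hK : 1 / 4 ≤ K) :
    gam K₁ ^ 2 * (uRT n ^ 4 * ((n : ℝ) / K)) * ovW K₁ K ≤ 1 / (K₁ : ℝ) ^ 2 := by
  have hs := H.s_pos
  have hs5 := H.s_ge
  have hN := H.n_pos
  have hk0 : 0 < K := by linarith
  have hw : ovW K₁ K ≤ 3 * (24 * (K₁ : ℝ)) ^ 3 := by
    apply ovW_le hk0 (by linarith)
    rw [div_le_iff₀ hk0]
    nlinarith
  have hw0 : 0 ≤ ovW K₁ K := by unfold ovW; positivity
  have hu : uRT n ^ 4 * ((n : ℝ) / K) ≤ 4 * 2500 ^ 8 / n := by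
    rw [uRT_pow4 H]
    have e : (n : ℝ) / K ≤ 4 * n := by
      rw [div_le_iff₀ hk0]
      nlinarith
    calc 2500 ^ 8 / (n : ℝ) ^ 2 * ((n : ℝ) / K) ≤ 2500 ^ 8 / (n : ℝ) ^ 2 * (4 * n) :=
          mul_le_mul_of_nonneg_left e (by positivity)
      _ = 4 * 2500 ^ 8 / n := by field_simp
  have hu0 : 0 ≤ uRT n ^ 4 * ((n : ℝ) / K) := by positivity
  have hg := H.gam_sq_le
  have hg0 : 0 ≤ gam K₁ ^ 2 := by positivity
  calc gam K₁ ^ 2 * (uRT n ^ 4 * ((n : ℝ) / K)) * ovW K₁ K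
      ≤ 2 * (4 * 2500 ^ 8 / n) * (3 * (24 * (K₁ : ℝ)) ^ 3) := by
        apply mul_le_mul (mul_le_mul hg hu hu0 (by norm_num)) hw hw0 (by positivity)
    _ = (2 * 4 * 2500 ^ 8 * 41472) * (K₁ : ℝ) ^ 3 / n := by ring
    _ ≤ 1 / (K₁ : ℝ) ^ 2 := H.div_le (by norm_num) (by norm_num)

/-- The base bound of the sharp theorem for the family. -/
theorem base_AF {n : ℕ} (m a b : ℕ) (hm : 1000000 ≤ m) (ha5 : a ≤ 5 * m) (hb5 : b ≤ 5 * m)
    (hn : NN m + a + b = n) (T : Filling n (AF m a b)) (σ : Perm (Fin n)) :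
    |rr T σ| ≤ uRT n ^ rk σ := by
  have hb := rr_AF_strong m a b (by omega) ha5 hb5 hn T σ
  refine hb.trans ?_
  have hsp := sp_le_two_rk σ
  have e : (2000 : ℝ) ^ sp σ ≤ (2500 ^ 2) ^ rk σ := by
    calc (2000 : ℝ) ^ sp σ ≤ 2000 ^ (2 * rk σ) := pow_le_pow_right₀ (by norm_num) hsp
      _ = (2000 ^ 2) ^ rk σ := by rw [pow_mul]
      _ ≤ (2500 ^ 2) ^ rk σ := pow_le_pow_left₀ (by norm_num) (by norm_num) _
  unfold uRT
  rw [div_eq_mul_inv, mul_pow]
  exact mul_le_mul_of_nonneg_right e (by positivity)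

/-- `kFam` for large `n`. -/
theorem kFam_bounds {n K₁ : ℕ} (m : ℕ) (hm : 1000000 ≤ m) (H : NumHyp n K₁) :
    1 / 2 ≤ kFam m n ∧ kFam m n ≤ 2 := by
  have h := H.n_ge
  have hm' : (1000000 : ℝ) ≤ m := by exact_mod_cast hm
  have hm0 : (0 : ℝ) < m := by linarith
  have hq0 : 0 ≤ 30000 / (m : ℝ) := by positivity
  have hq1 : 30000 / (m : ℝ) ≤ 1 := by
    rw [div_le_one hm0]
    linarith
  have h2 : (0 : ℝ) < 2 * ((n : ℝ) - 2) := by
    have : (2 : ℝ) < n := lt_of_lt_of_le (by norm_num) h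
    linarith
  have h3 : 1 / 2 ≤ (n : ℝ) / (2 * ((n : ℝ) - 2)) := by
    rw [le_div_iff₀ h2]
    linarith
  have h4 : (n : ℝ) / (2 * ((n : ℝ) - 2)) ≤ 1 := by
    rw [div_le_one h2]
    have : (4 : ℝ) ≤ n := le_trans (by norm_num) h
    linarith
  unfold kFam
  constructor
  · nlinarith
  · nlinarith

/-- `SharpHyp` for all members of the family with the same `K₁` (`rr_AF_strong`, `three_size`,
`NumHyp.cond_of`, with `E` as in `E_rho`). -/
theorem sharpFam {n' : ℕ} (K₁ m a b : ℕ) (hm : 1000000 ≤ m) (ha : Even a) (hb : Even b)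
    (ha5 : a ≤ 5 * m) (hb5 : b ≤ 5 * m) (hn : NN m + a + b = n') (H : NumHyp n' K₁)
    (T' : Filling n' (AF m a b)) :
    SharpHyp n' K₁ (rr T') (uRT n') (kFam m n') (kFam m n' / 2500 ^ 4) (gam K₁) := by
  obtain ⟨hk1, hk2⟩ := kFam_bounds (n := n') (K₁ := K₁) m hm H
  have hk0 : 0 < kFam m n' := by linarith
  have hN := H.n_pos
  have hcm : ClassMult n' (rr T') :=
    ⟨fun π σ h => rr_of_cycleType_eq T' π σ h, fun x y => rr_mul T' x y⟩
  refine ⟨hcm, H.six_le, uRT_pos H, uRT_le_one H, hk0, by positivity, ?_, ?_, gam_one_le K₁, ?_, ?_,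
    H.cond_of (E_uRT H _ (by linarith))⟩
  · rw [div_le_one (by positivity)]
    linarith [show (2 : ℝ) ≤ 2500 ^ 4 by norm_num]
  · rw [uRT_sq H]
    field_simp
  · intro x hx
    obtain ⟨h1, -, -⟩ := three_size m a b (by omega) ha hb ha5 hb5 hn T' x hx
    have hQ := Q_bound m a b n' (by omega) ha5 hb5 hn
    have hn2 : (0 : ℝ) < 2 * ((n' : ℝ) - 2) := by
      have h := H.n_ge
      have : (2 : ℝ) < n' := lt_of_lt_of_le (by norm_num) h
      linarith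
    rw [h1, abs_div, abs_of_pos hn2]
    have hQ1 : |QAF m a b n' - 1| ≤ 1 + 30000 / (m : ℝ) := by
      have := abs_sub (QAF m a b n') 1
      rw [abs_one] at this
      linarith
    have e : kFam m n' / (n' : ℝ) = (1 + 30000 / (m : ℝ)) / (2 * ((n' : ℝ) - 2)) := by
      unfold kFam
      field_simp
    rw [e]
    exact div_le_div_of_nonneg_right hQ1 hn2.le
  · intro σ _
    exact base_AF m a b hm ha5 hb5 hn T' σ

/-- `SharpHyp` with the exact value at a three-cycle. -/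
theorem sharpOwn {n : ℕ} (K₁ m a b : ℕ) (hm : 1000000 ≤ m) (ha : Even a) (hb : Even b)
    (ha5 : a ≤ 5 * m) (hb5 : b ≤ 5 * m) (hn : NN m + a + b = n) (H : NumHyp n K₁)
    (T : Filling n (AF m a b)) (x₃ : Perm (Fin n)) (hx₃ : x₃.cycleType = {3}) :
    SharpHyp n K₁ (rr T) (uRT n) ((n : ℝ) * |rr T x₃|) ((n : ℝ) * |rr T x₃| / 2500 ^ 4) (gam K₁) ∧
      etaS n K₁ (uRT n) ((n : ℝ) * |rr T x₃|) (gam K₁) ≤ 2 / (K₁ : ℝ) ^ 2 := by
  obtain ⟨h1, hk1, hk2⟩ := three_size m a b (by omega) ha hb ha5 hb5 hn T x₃ hx₃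
  have hk0 : 0 < (n : ℝ) * |rr T x₃| := by linarith
  have hN := H.n_pos
  have hcm : ClassMult n (rr T) :=
    ⟨fun π σ h => rr_of_cycleType_eq T π σ h, fun x y => rr_mul T x y⟩
  have hE := E_uRT H _ hk1
  refine ⟨⟨hcm, H.six_le, uRT_pos H, uRT_le_one H, hk0, by positivity, ?_, ?_, gam_one_le K₁, ?_, ?_,
    H.cond_of hE⟩, ?_⟩
  · rw [div_le_one (by positivity)]
    linarith [show (1 : ℝ) ≤ 2500 ^ 4 by norm_num]
  · rw [uRT_sq H]
    field_simp
  · intro x hx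
    obtain ⟨h2, -, -⟩ := three_size m a b (by omega) ha hb ha5 hb5 hn T x hx
    have e : rr T x = rr T x₃ := by rw [h1, h2]
    rw [e]
    have : (n : ℝ) * |rr T x₃| / n = |rr T x₃| := by field_simp
    rw [this]
  · intro σ _
    exact base_AF m a b hm ha5 hb5 hn T σ
  · unfold etaS
    have h3 := H.three_div_le
    have e : 2 / (K₁ : ℝ) ^ 2 = 1 / (K₁ : ℝ) ^ 2 + 1 / (K₁ : ℝ) ^ 2 := by ring
    rw [e]
    linarith

/-- All that is used of `ρ` in the analytic part. `uB`, `θB` are the uniform parameters of the sharp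
bound for the whole family, `η` is the relative error of `(uB² θB)²` against `ρ(x₃)²`. -/
structure RhoT (n K₁ : ℕ) (rho : Perm (Fin n) → ℝ) (x₃ : Perm (Fin n)) (uB θB η : ℝ) : Prop where
  cm : ClassMult n rho
  one : rho 1 = 1
  hx₃ : x₃.cycleType = {3}
  gen : ∀ π : Perm (Fin n), |rho π| ≤ (π.cycleType.map (costT n)).prod
  sharp : ∀ (π : Perm (Fin n)) (E O : Multiset ℕ), sp π ≤ K₁ → π.cycleType = E + O →
    (∀ j ∈ E, Even j) → (∀ j ∈ O, Odd j) →
    |rho π| ≤ (E.map (costT n)).prod * BdM uB θB (gam K₁) O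
  k3l : 1 / 4 ≤ (n : ℝ) * |rho x₃|
  k3u : (n : ℝ) * |rho x₃| ≤ 3 / 5
  huB : 0 < uB
  hθB : 0 < θB
  uB_le : uB ^ 2 ≤ 2 * 2500 ^ 4 / (n : ℝ)
  hη : 0 ≤ η
  close : (uB ^ 2 * θB) ^ 2 ≤ (1 + η) * rho x₃ ^ 2
  own : SharpHyp n K₁ rho (uRT n) ((n : ℝ) * |rho x₃|) ((n : ℝ) * |rho x₃| / 2500 ^ 4) (gam K₁)
  eta : etaS n K₁ (uRT n) ((n : ℝ) * |rho x₃|) (gam K₁) ≤ 2 / (K₁ : ℝ) ^ 2

/-- The uniform parameters. -/
noncomputable def uBm (m : ℕ) : ℝ := uRT (NN m)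

/-- The uniform parameters. -/
noncomputable def θBm (m : ℕ) : ℝ := kFam m (NN m) / 2500 ^ 4

private theorem filter_even_add_odd (s : Multiset ℕ) :
    s = s.filter Even + s.filter Odd := by
  have h := Multiset.filter_add_not Even s
  have e : s.filter (fun j => ¬ Even j) = s.filter Odd :=
    Multiset.filter_congr (fun j _ => Nat.not_even_iff_odd)
  rw [e] at h
  exact h.symm

private theorem evenC_le_costT {m n j : ℕ} (hj : Even j) (hm0 : 0 < m) (hn0 : 0 < n)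
    (hmn : 300 * (n : ℝ) ≤ 169 * (m : ℝ) ^ 2) : evenC m j ≤ costT n j := by
  have hodd : ¬ Odd j := Nat.not_odd_iff_even.2 hj
  have hN : (0 : ℝ) < n := by exact_mod_cast hn0
  have hM : (0 : ℝ) < m := by exact_mod_cast hm0
  unfold evenC costT
  rw [if_neg hodd]
  have hj2 : j = 2 * (j / 2) := (Nat.two_mul_div_two_of_even hj).symm
  have e : (13 / Real.sqrt n) ^ j = (169 / (n : ℝ)) ^ (j / 2) := by
    conv_lhs => rw [hj2, pow_mul]
    congr 1
    rw [div_pow, Real.sq_sqrt hN.le]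
    norm_num
  rw [e]
  apply mul_le_mul_of_nonneg_left _ (by norm_num)
  apply pow_le_pow_left₀ (by positivity)
  rw [div_le_div_iff₀ (by positivity) hN]
  linarith

private theorem prod_map_le_prod_map {E : Multiset ℕ} {f g : ℕ → ℝ} (hf : ∀ j, j ∈ E → 0 ≤ f j)
    (hfg : ∀ j, j ∈ E → f j ≤ g j) : (E.map f).prod ≤ (E.map g).prod := by
  induction E using Multiset.induction_on with
  | empty => simp
  | cons a t ih =>
    simp only [Multiset.map_cons, Multiset.prod_cons]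
    have h1 := hf a (Multiset.mem_cons_self a t)
    have h2 := hfg a (Multiset.mem_cons_self a t)
    have h3 := ih (fun j hj => hf j (Multiset.mem_cons_of_mem hj))
      (fun j hj => hfg j (Multiset.mem_cons_of_mem hj))
    have h4 : 0 ≤ (t.map f).prod :=
      Multiset.prod_nonneg (fun x hx => by
        obtain ⟨j, hj, rfl⟩ := Multiset.mem_map.1 hx
        exact hf j (Multiset.mem_cons_of_mem hj))
    exact mul_le_mul h2 h3 h4 (h1.trans h2)

private theorem prod_costT_nonneg (n : ℕ) (E : Multiset ℕ) : 0 ≤ (E.map (costT n)).prod :=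
  Multiset.prod_nonneg (fun x hx => by
    obtain ⟨j, _, rfl⟩ := Multiset.mem_map.1 hx
    exact costT_nonneg n j)

/-- The members of the family near `n`. -/
private theorem size_facts {m a b n' : ℕ} (hm : 1000000 ≤ m) (ha5 : a ≤ 5 * m) (hb5 : b ≤ 5 * m)
    (hn : NN m + a + b = n') :
    (m : ℝ) ^ 2 / 2 ≤ n' ∧ (n' : ℝ) ≤ 0.518 * (m : ℝ) ^ 2 :=
  NN_bounds m a b n' ha5 hb5 (by omega) hn

/-- The generic bound for `ρ` (`even_bound` with `rr_AF_strong`). -/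
theorem gen_AF {n : ℕ} (m a : ℕ) (hm : 1000000 ≤ m) (ha : Even a) (ha5 : a ≤ 5 * m)
    (hn : NN m + a + a = n) (T : Filling n (AF m a a)) (π : Perm (Fin n)) :
    |rr T π| ≤ (π.cycleType.map (costT n)).prod := by
  have hm0 : 0 < m := by omega
  have hM : (1000000 : ℝ) ≤ m := by exact_mod_cast hm
  have hsize := size_facts hm ha5 ha5 hn
  have hN0 : (0 : ℝ) < n := by nlinarith [hsize.1]
  have hn0 : 0 < n := by exact_mod_cast hN0
  obtain ⟨E, hE⟩ : ∃ E, E = π.cycleType.filter Even := ⟨_, rfl⟩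
  obtain ⟨O, hO⟩ : ∃ O, O = π.cycleType.filter Odd := ⟨_, rfl⟩
  have hsplit : π.cycleType = E + O := by
    rw [hE, hO]
    exact filter_even_add_odd _
  have hE2 : ∀ j ∈ E, Even j ∧ 2 ≤ j := by
    intro j hj
    rw [hE, Multiset.mem_filter] at hj
    exact ⟨hj.2, Perm.two_le_of_mem_cycleType hj.1⟩
  have hO2 : ∀ j ∈ O, Odd j ∧ 2 ≤ j := by
    intro j hj
    rw [hO, Multiset.mem_filter] at hj
    exact ⟨hj.2, Perm.two_le_of_mem_cycleType hj.1⟩
  obtain ⟨B, hBdef⟩ : ∃ B : ℝ, B = (2500 : ℝ) ^ O.sum * ((Real.sqrt n)⁻¹) ^ (O.sum - Multiset.card O) :=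
    ⟨_, rfl⟩
  have hB0 : 0 ≤ B := by
    rw [hBdef]
    positivity
  have hmain := even_bound m (by omega) E a a ha ha ha5 ha5 hn T π O hE2 hsplit B hB0 (by
    intro a' b' n' _ _ ha' hb' hn' T' σ hσ
    have h1 := rr_AF_strong m a' b' (by omega) (ha'.trans ha5) (hb'.trans ha5) hn' T' σ
    have hs' := size_facts hm (ha'.trans ha5) (hb'.trans ha5) hn'
    have hN'0 : (0 : ℝ) < n' := by nlinarith [hs'.1]
    have hsp : sp σ = O.sum := by simp [sp, hσ]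
    have hrk : rk σ = O.sum - Multiset.card O := by simp [rk, hσ]
    rw [hsp, hrk] at h1
    refine h1.trans ?_
    rw [hBdef]
    have hrkle : O.sum - Multiset.card O ≤ O.sum := Nat.sub_le _ _
    -- `√(n / n') ≤ 5 / 4`
    have hsq : (Real.sqrt n')⁻¹ ≤ (5 / 4) * (Real.sqrt n)⁻¹ := by
      have hs1 : 0 < Real.sqrt (n' : ℝ) := Real.sqrt_pos.2 hN'0
      have hs2 : 0 < Real.sqrt (n : ℝ) := Real.sqrt_pos.2 hN0
      have hs3 : Real.sqrt (n : ℝ) ≤ (5 / 4) * Real.sqrt (n' : ℝ) := by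
        apply Real.sqrt_le_iff.2
        refine ⟨by positivity, ?_⟩
        rw [mul_pow, Real.sq_sqrt hN'0.le]
        nlinarith [hsize.2, hs'.1]
      rw [inv_le_comm₀ hs1 (by positivity), mul_inv, inv_inv]
      rw [show (5 / 4 : ℝ)⁻¹ = 4 / 5 by norm_num]
      have : (4 / 5 : ℝ) * Real.sqrt n ≤ Real.sqrt n' := by linarith
      exact this
    have h2 : ((Real.sqrt n')⁻¹) ^ (O.sum - Multiset.card O) ≤
        (5 / 4 : ℝ) ^ O.sum * ((Real.sqrt n)⁻¹) ^ (O.sum - Multiset.card O) := by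
      calc ((Real.sqrt n')⁻¹) ^ (O.sum - Multiset.card O)
          ≤ ((5 / 4) * (Real.sqrt n)⁻¹) ^ (O.sum - Multiset.card O) :=
            pow_le_pow_left₀ (by positivity) hsq _
        _ = (5 / 4 : ℝ) ^ (O.sum - Multiset.card O) *
              ((Real.sqrt n)⁻¹) ^ (O.sum - Multiset.card O) := by rw [mul_pow]
        _ ≤ _ := by
            apply mul_le_mul_of_nonneg_right _ (by positivity)
            exact pow_le_pow_right₀ (by norm_num) hrkle
    calc (2000 : ℝ) ^ O.sum * ((Real.sqrt n')⁻¹) ^ (O.sum - Multiset.card O)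
        ≤ (2000 : ℝ) ^ O.sum * ((5 / 4 : ℝ) ^ O.sum *
            ((Real.sqrt n)⁻¹) ^ (O.sum - Multiset.card O)) :=
          mul_le_mul_of_nonneg_left h2 (by positivity)
      _ = (2500 : ℝ) ^ O.sum * ((Real.sqrt n)⁻¹) ^ (O.sum - Multiset.card O) := by
          rw [← mul_assoc, ← mul_pow]
          norm_num)
  refine hmain.trans ?_
  rw [hsplit, Multiset.map_add, Multiset.prod_add]
  have hmn : 300 * (n : ℝ) ≤ 169 * (m : ℝ) ^ 2 := by nlinarith [hsize.2]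
  have h3 : (E.map (evenC m)).prod ≤ (E.map (costT n)).prod :=
    prod_map_le_prod_map
      (fun j _ => by unfold evenC; positivity)
      (fun j hj => evenC_le_costT (hE2 j hj).1 hm0 hn0 hmn)
  have h4 : (O.map (costT n)).prod = B := by
    have hs : ∀ j ∈ O, 1 ≤ j := fun j hj => by
      have := (hO2 j hj).2
      omega
    obtain ⟨-, hp⟩ := tail_prod_split O hs (2500 : ℝ) ((Real.sqrt n)⁻¹) (fun _ => 1)
    have hm1 : (O.map (costT n)) = O.map fun j => (2500 : ℝ) ^ j * ((Real.sqrt n)⁻¹) ^ (j - 1) * 1 := by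
      apply Multiset.map_congr rfl
      intro j hj
      unfold costT
      rw [if_pos (hO2 j hj).1, mul_one]
    rw [hm1, hp, hBdef]
    simp
  rw [h4]
  exact mul_le_mul_of_nonneg_right h3 hB0

private theorem kFam_anti (m : ℕ) {n₁ n₂ : ℕ} (h1 : 3 ≤ n₁) (h : n₁ ≤ n₂) :
    kFam m n₂ ≤ kFam m n₁ := by
  unfold kFam
  have hn1 : (3 : ℝ) ≤ n₁ := by exact_mod_cast h1
  have hn : (n₁ : ℝ) ≤ n₂ := by exact_mod_cast h
  apply mul_le_mul_of_nonneg_right _ (by positivity)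
  rw [div_le_div_iff₀ (by linarith) (by linarith)]
  nlinarith

private theorem uRT_anti {n₁ n₂ : ℕ} (h1 : 1 ≤ n₁) (h : n₁ ≤ n₂) : uRT n₂ ≤ uRT n₁ := by
  unfold uRT
  have hn1 : (1 : ℝ) ≤ n₁ := by exact_mod_cast h1
  have hn : (n₁ : ℝ) ≤ n₂ := by exact_mod_cast h
  apply div_le_div_of_nonneg_left (by norm_num) (Real.sqrt_pos.2 (by linarith))
  exact Real.sqrt_le_sqrt hn

/-- The sharp bound for `ρ` (`even_bound` with `sharpFam`, `sharp_bound`). -/
theorem sharp_AF {n : ℕ} (K₁ m a : ℕ) (hm : 1000000 ≤ m) (ha : Even a) (ha5 : a ≤ 5 * m)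
    (hn : NN m + a + a = n) (H : NumHypT n K₁) (T : Filling n (AF m a a)) (π : Perm (Fin n))
    (E O : Multiset ℕ) (hsp : sp π ≤ K₁) (hπ : π.cycleType = E + O) (hE : ∀ j ∈ E, Even j)
    (hO : ∀ j ∈ O, Odd j) :
    |rr T π| ≤ (E.map (costT n)).prod * BdM (uBm m) (θBm m) (gam K₁) O := by
  have hm0 : 0 < m := by omega
  have hMr : (1000000 : ℝ) ≤ m := by exact_mod_cast hm
  have hsize := size_facts hm ha5 ha5 hn
  have hN0 : (0 : ℝ) < n := by nlinarith [hsize.1]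
  have hn0 : 0 < n := by exact_mod_cast hN0
  have hNN : 3 ≤ NN m := by
    have h := size_facts (a := 0) (b := 0) (n' := NN m) hm (by omega) (by omega) (by simp)
    have h3 : (3 : ℝ) ≤ (NN m : ℝ) := by nlinarith [h.1]
    exact_mod_cast h3
  have hNN1 : 1 ≤ NN m := by omega
  have hu0 : 0 < uRT (NN m) := by
    unfold uRT
    have : (0 : ℝ) < (NN m : ℝ) := by exact_mod_cast (by omega : 0 < NN m)
    have := Real.sqrt_pos.2 this
    positivity
  have hkF0 : 0 < kFam m (NN m) := by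
    unfold kFam
    have h3 : (3 : ℝ) ≤ (NN m : ℝ) := by exact_mod_cast hNN
    have hM0 : (0 : ℝ) < m := by linarith
    have : 0 < (NN m : ℝ) - 2 := by linarith
    positivity
  have hB0 : 0 ≤ BdM (uBm m) (θBm m) (gam K₁) O := by
    unfold BdM uBm θBm
    have := gam_one_le K₁
    positivity
  have hE2 : ∀ j ∈ E, Even j ∧ 2 ≤ j := by
    intro j hj
    have hj' : j ∈ π.cycleType := by
      rw [hπ]
      exact Multiset.mem_add.2 (Or.inl hj)
    exact ⟨hE j hj, Perm.two_le_of_mem_cycleType hj'⟩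
  have hOsum : O.sum ≤ K₁ := by
    have h1 : sp π = E.sum + O.sum := by
      unfold sp
      rw [hπ, Multiset.sum_add]
    omega
  have hmain := even_bound m (by omega) E a a ha ha ha5 ha5 hn T π O hE2 hπ _ hB0 (by
    intro a' b' n' ha'e hb'e ha' hb' hn' T' σ hσ
    have hs' := size_facts hm (ha'.trans ha5) (hb'.trans ha5) hn'
    have hnn : n ≤ 2 * n' := by
      have h1 : (n : ℝ) ≤ 2 * n' := by nlinarith [hs'.1, hsize.2]
      exact_mod_cast h1
    have HN' : NumHyp n' K₁ := ⟨H.hK, by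
      have h1 := H.hn
      have h2 : (n : ℝ) ≤ 2 * n' := by exact_mod_cast hnn
      have h3 : (0 : ℝ) ≤ (K₁ : ℝ) ^ 7 := by positivity
      have h4 : (2 : ℝ) * 10 ^ 40 ≤ 10 ^ 80 := by norm_num
      nlinarith⟩
    have hS := sharpFam K₁ m a' b' hm ha'e hb'e (ha'.trans ha5) (hb'.trans ha5) hn' HN' T'
    have hsp' : sp σ = O.sum := by simp [sp, hσ]
    have hb := sharp_bound hS σ (by rw [hsp']; exact hOsum)
    refine hb.trans ?_
    have hNn' : NN m ≤ n' := by omega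
    have hu : uRT n' ≤ uBm m := uRT_anti hNN1 hNn'
    have hk : kFam m n' / 2500 ^ 4 ≤ θBm m := by
      unfold θBm
      exact div_le_div_of_nonneg_right (kFam_anti m hNN hNn') (by norm_num)
    have hu'0 : 0 ≤ uRT n' := by
      unfold uRT
      positivity
    have hk'0 : 0 ≤ kFam m n' / 2500 ^ 4 := hS.hθ0.le
    unfold Bd BdM
    have hrk : rk σ = O.sum - Multiset.card O := by simp [rk, hσ]
    have hc3 : c3 σ = O.count 3 := by simp [c3, hσ]
    rw [hsp', hrk, hc3]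
    have hG0 : 0 ≤ gam K₁ ^ O.sum := by
      have := gam_one_le K₁
      positivity
    apply mul_le_mul
    · exact mul_le_mul_of_nonneg_left (pow_le_pow_left₀ hu'0 hu _) hG0
    · exact pow_le_pow_left₀ hk'0 hk _
    · positivity
    · have h1 : 0 ≤ uBm m := hu0.le
      positivity)
  refine hmain.trans ?_
  have hmn : 300 * (n : ℝ) ≤ 169 * (m : ℝ) ^ 2 := by nlinarith [hsize.2]
  have h3 : (E.map (evenC m)).prod ≤ (E.map (costT n)).prod :=
    prod_map_le_prod_map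
      (fun j _ => by unfold evenC; positivity)
      (fun j hj => evenC_le_costT (hE2 j hj).1 hm0 hn0 hmn)
  exact mul_le_mul_of_nonneg_right h3 hB0

private theorem close_poly (μ : ℝ) (h0 : 0 < μ) (h1 : μ ≤ 1 / 1000000) :
    (1 + 30000 * μ) ^ 2 * (1 + 21 * μ) ^ 2 ≤ (1 + 200000 * μ) * (1 - 30000 * μ) ^ 2 := by
  have hμ2 : μ * μ ≤ μ / 1000000 := by
    have := mul_le_mul_of_nonneg_left h1 h0.le
    linarith
  have hμ3 : 0 ≤ μ * μ * μ := by positivity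
  have h4 : (1 + 30000 * μ) * (1 + 21 * μ) ≤ 1 + 31000 * μ := by
    have e : (1 + 30000 * μ) * (1 + 21 * μ) = 1 + 30021 * μ + 630000 * (μ * μ) := by ring
    rw [e]
    linarith
  have h5 : 0 ≤ (1 + 30000 * μ) * (1 + 21 * μ) := by positivity
  have h6 : ((1 + 30000 * μ) * (1 + 21 * μ)) ^ 2 ≤ (1 + 31000 * μ) ^ 2 :=
    pow_le_pow_left₀ h5 h4 2
  have e1 : (1 + 30000 * μ) ^ 2 * (1 + 21 * μ) ^ 2 = ((1 + 30000 * μ) * (1 + 21 * μ)) ^ 2 := by ring
  have e2 : (1 + 31000 * μ) ^ 2 = 1 + 62000 * μ + 961000000 * (μ * μ) := by ring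
  have e3 : (1 + 200000 * μ) * (1 - 30000 * μ) ^ 2 =
      1 + 140000 * μ - 11100000000 * (μ * μ) + 180000000000000 * (μ * μ * μ) := by ring
  rw [e1, e3]
  rw [e2] at h6
  refine h6.trans ?_
  linarith

private theorem close_frac (A C q N' n' : ℝ) (hN : 0 < N') (hn : 0 < n')
    (h : A ^ 2 * n' ^ 2 ≤ C * q ^ 2 * N' ^ 2) :
    (A / (2 * N')) ^ 2 ≤ C * (q / (2 * n')) ^ 2 := by
  have e1 : (A / (2 * N')) ^ 2 = A ^ 2 / (4 * N' ^ 2) := by
    field_simp
    ring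
  have e2 : C * (q / (2 * n')) ^ 2 = (C * q ^ 2) / (4 * n' ^ 2) := by
    field_simp
    ring
  rw [e1, e2, div_le_div_iff₀ (by positivity) (by positivity)]
  calc A ^ 2 * (4 * n' ^ 2) = 4 * (A ^ 2 * n' ^ 2) := by ring
    _ ≤ 4 * (C * q ^ 2 * N' ^ 2) := by linarith
    _ = C * q ^ 2 * (4 * N' ^ 2) := by ring

/-- `(uB² θB)² ≤ (1 + η) ρ(x₃)²`, `η = 200000 / m` (`three_size`, and `n - 2 ≤ (1 + 21/m)(N_m - 2)`). -/
theorem close_AF {n : ℕ} (m a : ℕ) (hm : 1000000 ≤ m) (ha : Even a) (ha5 : a ≤ 5 * m)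
    (hn : NN m + a + a = n) (T : Filling n (AF m a a)) (x₃ : Perm (Fin n))
    (hx₃ : x₃.cycleType = {3}) :
    (uBm m ^ 2 * θBm m) ^ 2 ≤ (1 + 200000 / (m : ℝ)) * rr T x₃ ^ 2 := by
  have hMr : (1000000 : ℝ) ≤ m := by exact_mod_cast hm
  have hM0 : (0 : ℝ) < m := by linarith
  have hsize := size_facts hm ha5 ha5 hn
  have h0size := size_facts (a := 0) (b := 0) (n' := NN m) hm (by omega) (by omega) (by simp)
  obtain ⟨N, hNdef⟩ : ∃ N : ℝ, N = (NN m : ℝ) := ⟨_, rfl⟩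
  obtain ⟨nR, hnRdef⟩ : ∃ nR : ℝ, nR = (n : ℝ) := ⟨_, rfl⟩
  have hN5 : 2 ≤ N - 1 := by
    rw [hNdef]
    nlinarith [h0size.1]
  have hNpos : 0 < N := by linarith
  -- the left side
  have hsqrt : Real.sqrt (NN m : ℝ) ^ 2 = N := by
    rw [hNdef]
    exact Real.sq_sqrt (by positivity)
  have hlhs : uBm m ^ 2 * θBm m = (1 + 30000 / (m : ℝ)) / (2 * (N - 2)) := by
    unfold uBm θBm uRT kFam
    rw [div_pow, hsqrt, ← hNdef]
    have h2 : N - 2 ≠ 0 := by linarith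
    field_simp
  -- the right side
  obtain ⟨hr, -, -⟩ := three_size m a a (by omega) ha ha ha5 ha5 hn T x₃ hx₃
  have hQ := Q_bound m a a n (by omega) ha5 ha5 hn
  obtain ⟨Q, hQdef⟩ : ∃ Q : ℝ, Q = QAF m a a n := ⟨_, rfl⟩
  rw [← hQdef] at hr hQ
  obtain ⟨μ, hμ⟩ : ∃ μ : ℝ, μ = 1 / (m : ℝ) := ⟨_, rfl⟩
  have hμ0 : 0 < μ := by
    rw [hμ]
    positivity
  have hμ1 : μ ≤ 1 / 1000000 := by
    rw [hμ]
    exact one_div_le_one_div_of_le (by norm_num) hMr
  have e1 : 30000 / (m : ℝ) = 30000 * μ := by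
    rw [hμ]
    ring
  have e2 : 200000 / (m : ℝ) = 200000 * μ := by
    rw [hμ]
    ring
  rw [e1] at hQ hlhs
  rw [e2, hlhs, hr, ← hnRdef]
  have hQa := abs_le.1 hQ
  -- `nR - 2 ≤ (1 + 21 μ) (N - 2)`
  have hnN : nR = N + 2 * a := by
    rw [hnRdef, hNdef, ← hn]
    push_cast
    ring
  have haR : (a : ℝ) ≤ 5 * m := by exact_mod_cast ha5
  have hNm : (m : ℝ) ^ 2 / 2 ≤ N := by
    rw [hNdef]
    exact h0size.1
  have hcomp : nR - 2 ≤ (1 + 21 * μ) * (N - 2) := by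
    rw [hnN]
    have h2a : 2 * (a : ℝ) ≤ 21 * μ * (N - 2) := by
      rw [hμ]
      have hNm2 : 21 * (N - 2) ≥ 10 * (m : ℝ) ^ 2 := by nlinarith
      have : 21 * (1 / (m : ℝ)) * (N - 2) = (21 * (N - 2)) / (m : ℝ) := by ring
      rw [this, le_div_iff₀ hM0]
      nlinarith
    nlinarith
  have hn2 : 0 < nR - 2 := by
    rw [hnN]
    have : (0 : ℝ) ≤ a := by positivity
    linarith
  have hN2 : 0 < N - 2 := by linarith
  have hq1 : 0 < 1 - 30000 * μ := by linarith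
  have hq2 : 1 - 30000 * μ ≤ 1 - Q := by linarith [hQa.2]
  have hkey := close_poly μ hμ0 hμ1
  have hh1 : (nR - 2) ^ 2 ≤ (1 + 21 * μ) ^ 2 * (N - 2) ^ 2 := by
    have := pow_le_pow_left₀ hn2.le hcomp 2
    rwa [mul_pow] at this
  have hne : (1 - Q) ^ 2 = (Q - 1) ^ 2 := by ring
  have hh2 : (1 - 30000 * μ) ^ 2 ≤ (Q - 1) ^ 2 := by
    rw [← hne]
    exact pow_le_pow_left₀ hq1.le hq2 2
  apply close_frac _ _ _ _ _ hN2 hn2
  calc (1 + 30000 * μ) ^ 2 * (nR - 2) ^ 2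
      ≤ (1 + 30000 * μ) ^ 2 * ((1 + 21 * μ) ^ 2 * (N - 2) ^ 2) :=
        mul_le_mul_of_nonneg_left hh1 (by positivity)
    _ = ((1 + 30000 * μ) ^ 2 * (1 + 21 * μ) ^ 2) * (N - 2) ^ 2 := by ring
    _ ≤ ((1 + 200000 * μ) * (1 - 30000 * μ) ^ 2) * (N - 2) ^ 2 :=
        mul_le_mul_of_nonneg_right hkey (by positivity)
    _ ≤ ((1 + 200000 * μ) * (Q - 1) ^ 2) * (N - 2) ^ 2 := by
        apply mul_le_mul_of_nonneg_right _ (by positivity)
        exact mul_le_mul_of_nonneg_left hh2 (by positivity)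

/-- The structure for the family. -/
theorem rhoT_AF {n : ℕ} (K₁ m a : ℕ) (hm : 1000000 ≤ m) (ha : Even a) (ha5 : a ≤ 5 * m)
    (hn : NN m + a + a = n) (H : NumHypT n K₁) (T : Filling n (AF m a a)) (x₃ : Perm (Fin n))
    (hx₃ : x₃.cycleType = {3}) :
    RhoT n K₁ (rr T) x₃ (uBm m) (θBm m) (200000 / (m : ℝ)) := by
  have hMr : (1000000 : ℝ) ≤ m := by exact_mod_cast hm
  have hsize := size_facts hm ha5 ha5 hn
  have h0size := size_facts (a := 0) (b := 0) (n' := NN m) hm (by omega) (by omega) (by simp)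
  have hNN0 : (0 : ℝ) < (NN m : ℝ) := by nlinarith [h0size.1]
  have hN0 : (0 : ℝ) < n := by nlinarith [hsize.1]
  have HN : NumHyp n K₁ := ⟨H.hK, by
    have h1 := H.hn
    have h3 : (0 : ℝ) ≤ (K₁ : ℝ) ^ 7 := by positivity
    have h4 : (10 : ℝ) ^ 40 ≤ 10 ^ 80 := by norm_num
    nlinarith⟩
  obtain ⟨hr, h1, h2⟩ := three_size m a a (by omega) ha ha ha5 ha5 hn T x₃ hx₃
  obtain ⟨hS, hE⟩ := sharpOwn K₁ m a a hm ha ha ha5 ha5 hn HN T x₃ hx₃
  have huB : 0 < uBm m := by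
    unfold uBm uRT
    have := Real.sqrt_pos.2 hNN0
    positivity
  have hNN3 : (3 : ℝ) ≤ (NN m : ℝ) := by nlinarith [h0size.1]
  refine ⟨⟨fun π σ h => rr_of_cycleType_eq T π σ h, fun x y => rr_mul T x y⟩, rr_one T, hx₃,
    fun π => gen_AF m a hm ha ha5 hn T π,
    fun π E O hsp hπ hE' hO => sharp_AF K₁ m a hm ha ha5 hn H T π E O hsp hπ hE' hO,
    h1, h2, huB, ?_, ?_, by positivity, close_AF m a hm ha ha5 hn T x₃ hx₃, hS, hE⟩
  · unfold θBm kFam
    have : 0 < (NN m : ℝ) - 2 := by linarith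
    have hM0 : (0 : ℝ) < m := by linarith
    positivity
  · unfold uBm uRT
    rw [div_pow, Real.sq_sqrt hNN0.le]
    rw [div_le_div_iff₀ hNN0 hN0]
    have hle : (n : ℝ) ≤ 2 * (NN m : ℝ) := by nlinarith [hsize.2, h0size.1]
    norm_num
    nlinarith

end Vale.Agent.Lib.P197T
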