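import Vale.Agent.Lib.P197T.TailT
import Vale.Agent.Lib.P197S.SumW

/-!
# P197T: supports above `ccT n` (blueprint Sec A11)

Copy of `Vale.Agent.Lib.P197S.SumW` with `45` replaced by `2500` and weights at even lengths.
-/

open Equiv Finset

namespace Vale.Agent.Lib.P197T

open Vale.Agent.Lib.P197 Vale.Agent.Lib.P197S Vale.Agent.Lib.P197W Vale.Agent.Lib.P197X

variable {n : ℕ}

/-- The weights of the fourth power sum. -/
private noncomputable def wT (t : ℝ) (n j : ℕ) : ℝ :=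
  if Odd j then t ^ j * (((n : ℝ) ^ 2)⁻¹) ^ (j - 1)
  else 16 * ((13 / 2500 : ℝ) ^ 4) ^ j * (t * ((n : ℝ) ^ 2)⁻¹) ^ j

private lemma wT_nonneg {t : ℝ} (ht : 0 ≤ t) (n j : ℕ) : 0 ≤ wT t n j := by
  unfold wT
  split_ifs <;> positivity

/-- One cycle. -/
private lemma costT_four {t : ℝ} (ht : 0 < t) (hn : 0 < n) (j : ℕ) :
    costT n j ^ 4 = ((2500 : ℝ) ^ 4 / t) ^ j * wT t n j := by
  have hn0 : (0 : ℝ) < n := by exact_mod_cast hn
  have hs : Real.sqrt n ^ 2 = n := Real.sq_sqrt hn0.le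
  have hs0 : 0 < Real.sqrt n := Real.sqrt_pos.2 hn0
  have hs4 : ((Real.sqrt n)⁻¹) ^ 4 = ((n : ℝ) ^ 2)⁻¹ := by
    rw [inv_pow, show (4 : ℕ) = 2 * 2 from rfl, pow_mul, hs]
  unfold costT wT
  by_cases ho : Odd j
  · rw [if_pos ho, if_pos ho]
    have e1 : ((2500 : ℝ) ^ j * (Real.sqrt n)⁻¹ ^ (j - 1)) ^ 4 =
        ((2500 : ℝ) ^ 4) ^ j * (((n : ℝ) ^ 2)⁻¹) ^ (j - 1) := by
      rw [mul_pow, ← pow_mul, ← pow_mul, mul_comm (j - 1) 4, pow_mul _ 4 (j - 1), hs4, mul_comm j 4,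
        pow_mul]
    have e2 : ((2500 : ℝ) ^ 4 / t) ^ j * (t ^ j * (((n : ℝ) ^ 2)⁻¹) ^ (j - 1)) =
        (((2500 : ℝ) ^ 4 / t) ^ j * t ^ j) * (((n : ℝ) ^ 2)⁻¹) ^ (j - 1) := by ring
    rw [e1, e2, ← mul_pow, div_mul_cancel₀ _ ht.ne']
  · rw [if_neg ho, if_neg ho]
    have e : (13 / Real.sqrt n) ^ 4 = (13 : ℝ) ^ 4 * ((n : ℝ) ^ 2)⁻¹ := by
      rw [div_eq_mul_inv, mul_pow, hs4]
    have e2 : (2 * (13 / Real.sqrt n) ^ j) ^ 4 =
        16 * (((13 / Real.sqrt n) ^ 4) ^ j) := by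
      rw [mul_pow, ← pow_mul, ← pow_mul, mul_comm j 4]
      norm_num
    have e3 : ((2500 : ℝ) ^ 4 / t) ^ j * (16 * ((13 / 2500 : ℝ) ^ 4) ^ j * (t * ((n : ℝ) ^ 2)⁻¹) ^ j) =
        16 * (((2500 : ℝ) ^ 4 / t) * (13 / 2500 : ℝ) ^ 4 * (t * ((n : ℝ) ^ 2)⁻¹)) ^ j := by
      have key : ∀ A c B : ℝ, A ^ j * (16 * c ^ j * B ^ j) = 16 * (A * c * B) ^ j := by
        intro A c B
        rw [mul_pow, mul_pow]
        ring
      exact key _ _ _
    have e4 : ((2500 : ℝ) ^ 4 / t) * (13 / 2500 : ℝ) ^ 4 * (t * ((n : ℝ) ^ 2)⁻¹) =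
        (13 : ℝ) ^ 4 * ((n : ℝ) ^ 2)⁻¹ := by
      field_simp
    rw [e2, e, e3, e4]

private lemma prod_pow_weight (c : ℝ) (w : ℕ → ℝ) (s : Multiset ℕ) :
    (s.map fun j => c ^ j * w j).prod = c ^ s.sum * (s.map w).prod := by
  induction s using Multiset.induction_on with
  | empty => simp
  | cons a t' ih =>
    simp only [Multiset.map_cons, Multiset.prod_cons, Multiset.sum_cons, ih, pow_add]
    ring

/-- The odd geometric sum up to an even point. -/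
private lemma odd_geom_even {r : ℝ} (h0 : 0 ≤ r) (h1 : r ≤ 1 / 2) (i : ℕ) :
    ∑ j ∈ Icc 2 (2 * i + 2), (if Odd j ∧ 3 ≤ j then r ^ j else 0) +
      4 / 3 * r ^ (2 * i + 3) ≤ 4 / 3 * r ^ 3 := by
  induction i with
  | zero => simp
  | succ i ih =>
    have e1 : 2 * (i + 1) + 2 = 2 * i + 2 + 1 + 1 := by ring
    rw [e1, Finset.sum_Icc_succ_top (by omega), Finset.sum_Icc_succ_top (by omega)]
    have h3 : Odd (2 * i + 2 + 1) ∧ 3 ≤ 2 * i + 2 + 1 := ⟨⟨i + 1, by ring⟩, by omega⟩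
    have h4 : ¬ (Odd (2 * i + 2 + 1 + 1) ∧ 3 ≤ 2 * i + 2 + 1 + 1) := by
      rintro ⟨h, _⟩
      rw [Nat.odd_iff] at h
      omega
    rw [if_pos h3, if_neg h4]
    have hp : 0 ≤ r ^ (2 * i + 3) := by positivity
    have e2 : r ^ (2 * (i + 1) + 3) = r ^ (2 * i + 3) * r ^ 2 := by
      rw [← pow_add]
      ring_nf
    have e3 : r ^ (2 * i + 2 + 1) = r ^ (2 * i + 3) := rfl
    rw [e2, e3]
    have hr2 : r ^ 2 ≤ 1 / 4 := by nlinarith
    have : r ^ (2 * i + 3) * r ^ 2 ≤ r ^ (2 * i + 3) * (1 / 4) :=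
      mul_le_mul_of_nonneg_left hr2 hp
    linarith

private lemma odd_geom {r : ℝ} (h0 : 0 ≤ r) (h1 : r ≤ 1 / 2) (m : ℕ) :
    ∑ j ∈ Icc 2 m, (if Odd j ∧ 3 ≤ j then r ^ j else 0) ≤ 4 / 3 * r ^ 3 := by
  have h := odd_geom_even h0 h1 m
  have hp : 0 ≤ r ^ (2 * m + 3) := by positivity
  have hsub : ∑ j ∈ Icc 2 m, (if Odd j ∧ 3 ≤ j then r ^ j else 0) ≤
      ∑ j ∈ Icc 2 (2 * m + 2), (if Odd j ∧ 3 ≤ j then r ^ j else 0) := by
    refine Finset.sum_le_sum_of_subset_of_nonneg ?_ ?_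
    · intro j hj
      rw [mem_Icc] at hj ⊢
      omega
    · intro j _ _
      split_ifs <;> positivity
  linarith

/-- The plain geometric sum with ratio `1 / 8`. -/
private lemma eighth_geom (m : ℕ) :
    ∑ j ∈ Icc 2 (m + 1), ((1 / 8 : ℝ) ^ j) + 8 / 7 * (1 / 8 : ℝ) ^ (m + 2) ≤ 1 / 56 := by
  induction m with
  | zero => norm_num
  | succ m ih =>
    rw [Finset.sum_Icc_succ_top (by omega)]
    have e : (1 / 8 : ℝ) ^ (m + 1 + 2) = (1 / 8 : ℝ) ^ (m + 2) * (1 / 8) := by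
      rw [pow_succ]
    have e' : (1 / 8 : ℝ) ^ (m + 1 + 1) = (1 / 8 : ℝ) ^ (m + 2) := rfl
    rw [e, e']
    linarith

/-- The fourth power sum: the even weights are `(16 / j) (t / n)^j`, the total of these is at most `1`
for `2 t ≤ n`. Compare `rho_four`. -/
theorem rho_fourT {n : ℕ} (rho : Perm (Fin n) → ℝ)
    (hgen : ∀ π : Perm (Fin n), |rho π| ≤ (π.cycleType.map (costT n)).prod) (hn : 3 ≤ n) (k : ℕ)
    (t : ℝ) (ht0 : 0 < t) (ht : 8 * t ≤ n) :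
    ∑ π ∈ (univ.filter fun π : Perm (Fin n) => sp π = k), rho π ^ 4 ≤
      (((2500 : ℝ) ^ 4 / t) ^ k) * Real.exp (4 / 9 * t ^ 3 / n + 1) := by
  have hnR : (3 : ℝ) ≤ n := by exact_mod_cast hn
  have hn0 : (0 : ℝ) < n := by linarith
  have hn' : 0 < n := by omega
  set w := wT t n with hw
  have hw0 : ∀ j, 0 ≤ w j := wT_nonneg ht0.le n
  have hprod0 : ∀ π : Perm (Fin n), 0 ≤ (π.cycleType.map w).prod := by
    intro π
    refine Multiset.prod_nonneg (fun x hx => ?_)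
    obtain ⟨j, _, rfl⟩ := Multiset.mem_map.1 hx
    exact hw0 j
  have hC0 : 0 ≤ ((2500 : ℝ) ^ 4 / t) ^ k := by positivity
  -- a single permutation
  have hone : ∀ π : Perm (Fin n), sp π = k →
      rho π ^ 4 ≤ ((2500 : ℝ) ^ 4 / t) ^ k * (π.cycleType.map w).prod := by
    intro π hsp
    have hb := hgen π
    have h4 : rho π ^ 4 = |rho π| ^ 4 := by
      rw [show (4 : ℕ) = 2 * 2 from rfl, pow_mul, pow_mul, sq_abs]
    have hkey : (π.cycleType.map (costT n)).prod ^ 4 =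
        ((2500 : ℝ) ^ 4 / t) ^ k * (π.cycleType.map w).prod := by
      rw [← Multiset.prod_map_pow]
      have e : (π.cycleType.map fun j => costT n j ^ 4) =
          π.cycleType.map fun j => ((2500 : ℝ) ^ 4 / t) ^ j * w j :=
        Multiset.map_congr rfl (fun j _ => costT_four ht0 hn' j)
      rw [e, prod_pow_weight, ← hsp]
      rfl
    rw [h4, ← hkey]
    exact pow_le_pow_left₀ (abs_nonneg _) hb 4
  -- the exponent
  have hexp : ∑ j ∈ Icc 2 n, ((n : ℝ) ^ j / j) * w j ≤ 4 / 9 * t ^ 3 / n + 1 := by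
    set r : ℝ := t / n with hr
    have hr0 : 0 ≤ r := by positivity
    have hr1 : r ≤ 1 / 8 := by
      rw [hr, div_le_iff₀ hn0]
      linarith
    have hr2 : r ≤ 1 / 2 := by linarith
    have hterm : ∀ j ∈ Icc 2 n, ((n : ℝ) ^ j / j) * w j ≤
        (n : ℝ) ^ 2 / 3 * (if Odd j ∧ 3 ≤ j then r ^ j else 0) + 8 * (1 / 8 : ℝ) ^ j := by
      intro j hj
      rw [mem_Icc] at hj
      have hj2 : (2 : ℝ) ≤ j := by exact_mod_cast hj.1
      have hj0 : (0 : ℝ) < j := by linarith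
      by_cases ho : Odd j
      · have hc : Odd j ∧ 3 ≤ j := by
          refine ⟨ho, ?_⟩
          obtain ⟨i, rfl⟩ := ho
          omega
        rw [if_pos hc]
        have hwj : w j = t ^ j * (((n : ℝ) ^ 2)⁻¹) ^ (j - 1) := by
          simp only [hw, wT, if_pos ho]
        rw [hwj]
        have hj3 : (3 : ℝ) ≤ j := by exact_mod_cast hc.2
        have hp8 : 0 ≤ 8 * (1 / 8 : ℝ) ^ j := by positivity
        obtain ⟨i, rfl⟩ : ∃ i, j = i + 1 := ⟨j - 1, by omega⟩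
        simp only [Nat.add_sub_cancel]
        have e : (n : ℝ) ^ (i + 1) / ((i + 1 : ℕ) : ℝ) * (t ^ (i + 1) * (((n : ℝ) ^ 2)⁻¹) ^ i) =
            ((n : ℝ) ^ 2 * r ^ (i + 1)) / ((i + 1 : ℕ) : ℝ) := by
          rw [hr, div_pow, inv_pow, pow_succ, pow_succ t]
          field_simp
          ring
        rw [e]
        have e' : (n : ℝ) ^ 2 / 3 * r ^ (i + 1) = ((n : ℝ) ^ 2 * r ^ (i + 1)) / 3 := by ring
        rw [e']
        have := div_le_div_of_nonneg_left (show 0 ≤ (n : ℝ) ^ 2 * r ^ (i + 1) by positivity)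
          (by norm_num : (0 : ℝ) < 3) hj3
        linarith
      · have hc : ¬ (Odd j ∧ 3 ≤ j) := fun h => ho h.1
        rw [if_neg hc, mul_zero, zero_add]
        have hwj : w j = 16 * ((13 / 2500 : ℝ) ^ 4) ^ j * (t * ((n : ℝ) ^ 2)⁻¹) ^ j := by
          simp only [hw, wT, if_neg ho]
        rw [hwj]
        have e : (n : ℝ) ^ j / j * (16 * ((13 / 2500 : ℝ) ^ 4) ^ j * (t * ((n : ℝ) ^ 2)⁻¹) ^ j) =
            (16 / j) * (((13 / 2500 : ℝ) ^ 4) * r) ^ j := by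
          have key : ∀ C : ℝ, (n : ℝ) ^ j / j * (16 * C ^ j * (t * ((n : ℝ) ^ 2)⁻¹) ^ j) =
              (16 / j) * (C ^ j * (t * ((n : ℝ) ^ 2)⁻¹ * n) ^ j) := by
            intro C
            rw [mul_pow (t * ((n : ℝ) ^ 2)⁻¹)]
            ring
          have e5 : t * ((n : ℝ) ^ 2)⁻¹ * n = r := by
            rw [hr]
            field_simp
          rw [key, e5, mul_pow]
        rw [e]
        have h16 : (16 : ℝ) / j ≤ 8 := by
          rw [div_le_iff₀ hj0]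
          linarith
        have hb : ((13 / 2500 : ℝ) ^ 4) * r ≤ 1 / 8 := by
          have : (13 / 2500 : ℝ) ^ 4 ≤ 1 := by norm_num
          nlinarith
        have hpow : (((13 / 2500 : ℝ) ^ 4) * r) ^ j ≤ (1 / 8 : ℝ) ^ j :=
          pow_le_pow_left₀ (by positivity) hb j
        exact mul_le_mul h16 hpow (by positivity) (by norm_num)
    have hev : ∑ j ∈ Icc 2 n, 8 * (1 / 8 : ℝ) ^ j ≤ 1 := by
      obtain ⟨m, rfl⟩ : ∃ m, n = m + 1 := ⟨n - 1, by omega⟩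
      have h := eighth_geom m
      have hp : 0 ≤ (1 / 8 : ℝ) ^ (m + 2) := by positivity
      rw [← Finset.mul_sum]
      linarith
    calc ∑ j ∈ Icc 2 n, ((n : ℝ) ^ j / j) * w j
        ≤ ∑ j ∈ Icc 2 n, ((n : ℝ) ^ 2 / 3 * (if Odd j ∧ 3 ≤ j then r ^ j else 0)
            + 8 * (1 / 8 : ℝ) ^ j) :=
          Finset.sum_le_sum hterm
      _ = (n : ℝ) ^ 2 / 3 * ∑ j ∈ Icc 2 n, (if Odd j ∧ 3 ≤ j then r ^ j else 0) +
            ∑ j ∈ Icc 2 n, 8 * (1 / 8 : ℝ) ^ j := by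
          rw [Finset.sum_add_distrib, Finset.mul_sum]
      _ ≤ (n : ℝ) ^ 2 / 3 * (4 / 3 * r ^ 3) + 1 :=
          add_le_add (mul_le_mul_of_nonneg_left (odd_geom hr0 hr2 n) (by positivity)) hev
      _ = 4 / 9 * t ^ 3 / n + 1 := by
          rw [hr, div_pow]
          field_simp
          ring
  calc ∑ π ∈ (univ.filter fun π : Perm (Fin n) => sp π = k), rho π ^ 4
      ≤ ∑ π ∈ (univ.filter fun π : Perm (Fin n) => sp π = k),
          ((2500 : ℝ) ^ 4 / t) ^ k * (π.cycleType.map w).prod := by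
        refine Finset.sum_le_sum (fun π hπ => ?_)
        rw [mem_filter] at hπ
        exact hone π hπ.2
    _ ≤ ∑ π : Perm (Fin n), ((2500 : ℝ) ^ 4 / t) ^ k * (π.cycleType.map w).prod := by
        refine Finset.sum_le_sum_of_subset_of_nonneg (filter_subset _ _) ?_
        intro π _ _
        exact mul_nonneg hC0 (hprod0 π)
    _ = ((2500 : ℝ) ^ 4 / t) ^ k * ∑ π : Perm (Fin n), (π.cycleType.map w).prod := by
        rw [Finset.mul_sum]
    _ ≤ ((2500 : ℝ) ^ 4 / t) ^ k * Real.exp (4 / 9 * t ^ 3 / n + 1) := by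
        refine mul_le_mul_of_nonneg_left ?_ hC0
        exact (exp_sum w hw0).trans (Real.exp_le_exp.2 hexp)

/-- The constant of the large-support range. -/
noncomputable def C3T : ℝ := 144 * 2500 ^ 4 * Real.exp (13 / 9) / ccT ^ 2

private theorem ccT_pos' : 0 < ccT := by
  unfold ccT LT
  positivity

private theorem ccT_le' : 512 * ccT ≤ 1 := by
  unfold ccT LT
  norm_num

/-- The bound on the fourth power sum, with the exponent absorbed. -/
private theorem sp_eq_PT (rho : Perm (Fin n) → ℝ)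
    (hgen : ∀ π : Perm (Fin n), |rho π| ≤ (π.cycleType.map (costT n)).prod) (hn : 3 ≤ n)
    (k : ℕ) (t : ℝ) (ht0 : 0 < t) (ht3 : t ^ 3 = ccT * (n : ℝ) ^ 2) (hkn : ccT * (n : ℝ) < k) :
    ∑ π ∈ (univ.filter fun π : Perm (Fin n) => sp π = k), rho π ^ 4 ≤
      ((2500 : ℝ) ^ 4 * Real.exp (13 / 9) / t) ^ k := by
  have hn0 : (0 : ℝ) < n := by
    have : 0 < n := by omega
    exact_mod_cast this
  have hn3 : (3 : ℝ) ≤ n := by exact_mod_cast hn
  have h8t : 8 * t ≤ n := by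
    have h8 := ccT_le'
    have hcc := ccT_pos'
    have h : (8 * t) ^ 3 ≤ (n : ℝ) ^ 3 := by
      have e1 : (8 * t) ^ 3 = 512 * (t ^ 3) := by ring
      rw [e1, ht3]
      have e2 : (n : ℝ) ^ 3 = (n : ℝ) * (n : ℝ) ^ 2 := by ring
      rw [e2]
      have h3 : 512 * ccT ≤ (n : ℝ) := by linarith
      have h4 : 0 ≤ (n : ℝ) ^ 2 := by positivity
      have := mul_le_mul_of_nonneg_right h3 h4
      linarith
    exact (pow_le_pow_iff_left₀ (by positivity) hn0.le (by norm_num)).1 h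
  have h1 := rho_fourT rho hgen hn k t ht0 h8t
  refine le_trans h1 ?_
  have hcc := ccT_pos'
  have hk1 : (1 : ℝ) ≤ k := by
    have hk0 : (0 : ℝ) < k := lt_of_le_of_lt (by positivity) hkn
    have : 0 < k := by exact_mod_cast hk0
    exact_mod_cast this
  have hexp : Real.exp (4 / 9 * t ^ 3 / n + 1) ≤ Real.exp (13 / 9) ^ k := by
    rw [← Real.exp_nat_mul]
    apply Real.exp_le_exp.2
    rw [ht3]
    have e : 4 / 9 * (ccT * (n : ℝ) ^ 2) / n = 4 / 9 * (ccT * n) := by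
      field_simp
    rw [e]
    nlinarith
  have e2 : ((2500 : ℝ) ^ 4 * Real.exp (13 / 9) / t) ^ k =
      ((2500 : ℝ) ^ 4 / t) ^ k * Real.exp (13 / 9) ^ k := by
    rw [← mul_pow]
    congr 1
    ring
  rw [e2]
  exact mul_le_mul_of_nonneg_left hexp (by positivity)

/-- The bound on the square sum from the hypothesis. -/
private theorem sp_eq_QT (A : ℝ) (hA : 1 ≤ A) (hn0 : (0 : ℝ) < n) (k : ℕ)
    (hkn : ccT * (n : ℝ) < k) :
    (n : ℝ) ^ k * ((2 * A * Real.sqrt n) ^ k / (k.factorial : ℝ)) ^ 2 ≤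
      (36 * A ^ 2 / ccT ^ 2) ^ k := by
  have hcc := ccT_pos'
  have hk0 : (0 : ℝ) < k := lt_of_le_of_lt (by positivity) hkn
  have hA0 : 0 < A := by linarith
  have hfact : ((k : ℝ) / 3) ^ k ≤ (k.factorial : ℝ) := huge_fact_lower k
  have hlow : (0 : ℝ) < ((k : ℝ) / 3) ^ k := by positivity
  have hsq : ((2 * A * Real.sqrt n) ^ k / (k.factorial : ℝ)) ≤
      (2 * A * Real.sqrt n) ^ k / ((k : ℝ) / 3) ^ k :=
    div_le_div_of_nonneg_left (by positivity) hlow hfact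
  have hnn : 0 ≤ (2 * A * Real.sqrt n) ^ k / (k.factorial : ℝ) := by positivity
  have h2 := pow_le_pow_left₀ hnn hsq 2
  have hs : Real.sqrt n ^ 2 = n := Real.sq_sqrt hn0.le
  have e1 : ((2 * A * Real.sqrt n) ^ k / ((k : ℝ) / 3) ^ k) ^ 2 =
      ((36 * A ^ 2 * n) / (k : ℝ) ^ 2) ^ k := by
    rw [← div_pow, ← pow_mul, mul_comm k 2, pow_mul]
    congr 1
    rw [div_pow, mul_pow, mul_pow, hs, div_pow]
    field_simp
    ring
  rw [e1] at h2
  have h3 : (n : ℝ) ^ k * ((2 * A * Real.sqrt n) ^ k / (k.factorial : ℝ)) ^ 2 ≤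
      (n : ℝ) ^ k * ((36 * A ^ 2 * n) / (k : ℝ) ^ 2) ^ k :=
    mul_le_mul_of_nonneg_left h2 (by positivity)
  refine le_trans h3 ?_
  rw [← mul_pow]
  apply pow_le_pow_left₀ (by positivity)
  have h4 : (ccT * (n : ℝ)) ^ 2 ≤ (k : ℝ) ^ 2 :=
    pow_le_pow_left₀ (by positivity) hkn.le 2
  rw [show (n : ℝ) * (36 * A ^ 2 * n / (k : ℝ) ^ 2) = 36 * A ^ 2 * ((n : ℝ) ^ 2 / (k : ℝ) ^ 2) by
    ring]
  rw [show 36 * A ^ 2 / ccT ^ 2 = 36 * A ^ 2 * (1 / ccT ^ 2) by ring]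
  apply mul_le_mul_of_nonneg_left _ (by positivity)
  rw [div_le_div_iff₀ (by positivity) (by positivity)]
  nlinarith

/-- One value of the support size. Compare `sp_eq_bound`. -/
theorem sp_eq_boundT {n : ℕ} (rho nu : Perm (Fin n) → ℝ)
    (hgen : ∀ π : Perm (Fin n), |rho π| ≤ (π.cycleType.map (costT n)).prod) (A : ℝ) (hA : 1 ≤ A)
    (hn : 3 ≤ n) (hnA : (C3T * A ^ 2) ^ 3 ≤ ccT * (n : ℝ) ^ 2)
    (hsq : ∀ k : ℕ, k ≤ n → ∑ π ∈ (univ.filter fun π : Perm (Fin n) => sp π = k), nu π ^ 2 ≤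
      (n : ℝ) ^ k * ((2 * A * Real.sqrt n) ^ k / (k.factorial : ℝ)) ^ 2)
    (k : ℕ) (hk : k ≤ n) (hkn : ccT * (n : ℝ) < k) :
    ∑ π ∈ (univ.filter fun π : Perm (Fin n) => sp π = k), rho π ^ 2 * |nu π| ≤ (1 / 2 : ℝ) ^ k := by
  have hcc := ccT_pos'
  have hn0 : (0 : ℝ) < n := by
    have : 0 < n := by omega
    exact_mod_cast this
  have hA0 : 0 < A := by linarith
  -- the parameter `t`
  obtain ⟨t, ht0, ht3⟩ : ∃ t : ℝ, 0 < t ∧ t ^ 3 = ccT * (n : ℝ) ^ 2 := by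
    refine ⟨(ccT * (n : ℝ) ^ 2) ^ ((1 : ℝ) / 3), by positivity, ?_⟩
    rw [← Real.rpow_natCast, ← Real.rpow_mul (by positivity)]
    norm_num
  have hC3 : 0 < C3T := by
    unfold C3T
    positivity
  have hCt : C3T * A ^ 2 ≤ t := by
    rw [← ht3] at hnA
    exact (pow_le_pow_iff_left₀ (by positivity) ht0.le (by norm_num)).1 hnA
  -- Cauchy-Schwarz
  have hCS := Finset.sum_mul_sq_le_sq_mul_sq
    (univ.filter fun π : Perm (Fin n) => sp π = k) (fun π => rho π ^ 2) (fun π => |nu π|)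
  have e1 : ∑ π ∈ (univ.filter fun π : Perm (Fin n) => sp π = k), (rho π ^ 2) ^ 2 =
      ∑ π ∈ (univ.filter fun π : Perm (Fin n) => sp π = k), rho π ^ 4 :=
    Finset.sum_congr rfl (fun π _ => by ring)
  have e2 : ∑ π ∈ (univ.filter fun π : Perm (Fin n) => sp π = k), |nu π| ^ 2 =
      ∑ π ∈ (univ.filter fun π : Perm (Fin n) => sp π = k), nu π ^ 2 :=
    Finset.sum_congr rfl (fun π _ => sq_abs _)
  rw [e1, e2] at hCS
  have hP := sp_eq_PT rho hgen hn k t ht0 ht3 hkn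
  have hQ := le_trans (hsq k hk) (sp_eq_QT A hA hn0 k hkn)
  have hP0 : 0 ≤ ∑ π ∈ (univ.filter fun π : Perm (Fin n) => sp π = k), rho π ^ 4 :=
    Finset.sum_nonneg (fun π _ => by positivity)
  have hQ0 : 0 ≤ ∑ π ∈ (univ.filter fun π : Perm (Fin n) => sp π = k), nu π ^ 2 :=
    Finset.sum_nonneg (fun π _ => by positivity)
  have hPQ := mul_le_mul hP hQ hQ0 (by positivity)
  have hprod : ((2500 : ℝ) ^ 4 * Real.exp (13 / 9) / t) ^ k * (36 * A ^ 2 / ccT ^ 2) ^ k ≤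
      ((1 / 2 : ℝ) ^ k) ^ 2 := by
    rw [← mul_pow, ← pow_mul, mul_comm k 2, pow_mul]
    apply pow_le_pow_left₀ (by positivity)
    have e3 : (2500 : ℝ) ^ 4 * Real.exp (13 / 9) / t * (36 * A ^ 2 / ccT ^ 2) =
        (C3T * A ^ 2) / (4 * t) := by
      unfold C3T
      field_simp
      ring
    rw [e3, div_le_iff₀ (by positivity)]
    norm_num
    linarith
  have hfin := le_trans hCS (le_trans hPQ hprod)
  exact (pow_le_pow_iff_left₀ (Finset.sum_nonneg (fun π _ => by positivity)) (by positivity)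
    (by norm_num)).1 hfin

/-- The geometric tail with ratio one half. -/
private theorem geom_Ioc_half (a b : ℕ) : ∑ k ∈ Ioc a b, (1 / 2 : ℝ) ^ k ≤ (1 / 2 : ℝ) ^ a := by
  have key : ∀ b, a ≤ b → ∑ k ∈ Ioc a b, (1 / 2 : ℝ) ^ k ≤
      (1 / 2 : ℝ) ^ a - (1 / 2 : ℝ) ^ b := by
    intro b hb
    induction b, hb using Nat.le_induction with
    | base => simp
    | succ b hb ih =>
      rw [← Finset.insert_Ioc_right_eq_Ioc_add_one hb, Finset.sum_insert (by simp)]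
      rw [pow_succ (1 / 2 : ℝ) b]
      linarith
  by_cases hab : a ≤ b
  · have h1 := key b hab
    have h2 : 0 ≤ (1 / 2 : ℝ) ^ b := by positivity
    linarith
  · rw [Finset.Ioc_eq_empty (by omega)]
    simp

/-- Compare `huge_restricted`. -/
theorem huge_restrictedT {n : ℕ} {μ : YoungDiagram} (T : Filling n μ) (rho : Perm (Fin n) → ℝ)
    (hgen : ∀ π : Perm (Fin n), |rho π| ≤ (π.cycleType.map (costT n)).prod) (A : ℝ) (hA : 1 ≤ A)
    (hr : (μ.rowLen 0 : ℝ) ≤ A * Real.sqrt n) (hc : (μ.colLen 0 : ℝ) ≤ A * Real.sqrt n)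
    (hn : 5 / ccT ≤ n) (hnA : (C3T * A ^ 2) ^ 3 ≤ ccT * (n : ℝ) ^ 2) :
    ∑ π ∈ (univ.filter fun π : Perm (Fin n) => ccT * (n : ℝ) < (sp π : ℝ)),
      rho π ^ 2 * |rr T π| ≤ 1 / 16 := by
  classical
  have hcc := ccT_pos'
  have h8 : 8 * ccT ≤ 1 := by
    have := ccT_le'
    linarith
  have hcn : 5 ≤ ccT * (n : ℝ) := by
    rw [div_le_iff₀ hcc] at hn
    linarith
  have hn40 : (40 : ℝ) ≤ n := by nlinarith
  have hn3 : 3 ≤ n := by
    have : (3 : ℝ) ≤ n := by linarith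
    exact_mod_cast this
  have hn0 : (0 : ℝ) < n := by linarith
  have hsqrt : 0 < Real.sqrt n := Real.sqrt_pos.2 hn0
  have hA0 : 0 < A := by linarith
  have hsq : ∀ k : ℕ, k ≤ n → ∑ π ∈ (univ.filter fun π : Perm (Fin n) => sp π = k), rr T π ^ 2 ≤
      (n : ℝ) ^ k * ((2 * A * Real.sqrt n) ^ k / (k.factorial : ℝ)) ^ 2 := by
    intro k hk
    exact sum_sp_sq_le T (2 * A * Real.sqrt n) (by positivity) (by linarith) k hk
  obtain ⟨a, ha⟩ : ∃ a : ℕ, a = ⌊ccT * (n : ℝ)⌋₊ := ⟨_, rfl⟩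
  have hsp : ∀ π : Perm (Fin n), sp π ≤ n := fun π => by
    have h := Equiv.Perm.sum_cycleType π
    have h2 : π.support.card ≤ Fintype.card (Fin n) := Finset.card_le_univ _
    rw [Fintype.card_fin] at h2
    unfold sp
    omega
  have hmaps : ∀ π ∈ (univ.filter fun π : Perm (Fin n) => ccT * (n : ℝ) < (sp π : ℝ)),
      sp π ∈ Ioc a n := by
    intro π hπ
    have h := (Finset.mem_filter.1 hπ).2
    rw [Finset.mem_Ioc]
    refine ⟨?_, hsp π⟩
    rw [ha]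
    exact (Nat.floor_lt (by positivity)).2 h
  rw [← Finset.sum_fiberwise_of_maps_to hmaps]
  have hinner : ∀ k ∈ Ioc a n,
      ∑ π ∈ (univ.filter fun π : Perm (Fin n) => ccT * (n : ℝ) < (sp π : ℝ)) with sp π = k,
        rho π ^ 2 * |rr T π| ≤ (1 / 2 : ℝ) ^ k := by
    intro k hk
    rw [Finset.mem_Ioc] at hk
    have hkc : ccT * (n : ℝ) < k := by
      have := (Nat.floor_lt (by positivity : 0 ≤ ccT * (n : ℝ))).1 (by rw [← ha]; exact hk.1)
      exact this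
    refine le_trans (Finset.sum_le_sum_of_subset_of_nonneg ?_ (fun _ _ _ => by positivity))
      (sp_eq_boundT rho (rr T) hgen A hA hn3 hnA hsq k hk.2 hkc)
    intro π hπ
    have h := Finset.mem_filter.1 hπ
    exact Finset.mem_filter.2 ⟨Finset.mem_univ _, h.2⟩
  refine le_trans (Finset.sum_le_sum hinner) (le_trans (geom_Ioc_half a n) ?_)
  have ha4 : 4 ≤ a := by
    rw [ha]
    apply Nat.le_floor
    norm_num
    linarith
  calc (1 / 2 : ℝ) ^ a ≤ (1 / 2 : ℝ) ^ 4 :=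
        pow_le_pow_of_le_one (by norm_num) (by norm_num) ha4
    _ = 1 / 16 := by norm_num

end Vale.Agent.Lib.P197T
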