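import Vale.Agent.Lib.P197T.SharpAF

/-!
# P197T: supports from `K₁` to a small multiple of `n` (blueprint Sec A10)

Copy of `Vale.Agent.Lib.P197S.tail_explicit` and of `Vale.Agent.Lib.P197.tail_sum`, `tail_term`, with
`45` replaced by `2500` and weights at even lengths.
-/

open Equiv Finset

namespace Vale.Agent.Lib.P197T

open Vale.Agent.Lib.P197 Vale.Agent.Lib.P197S Vale.Agent.Lib.P197W Vale.Agent.Lib.P197X

/-- The constant of the tail. -/
noncomputable def LT : ℝ := 3 * 2500 ^ 2 * 11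

/-- The range of the tail. -/
noncomputable def ccT : ℝ := 1 / (16 * LT ^ 4)

private lemma prod_pow_weight' (c : ℝ) (w : ℕ → ℝ) (s : Multiset ℕ) :
    (s.map fun j => c ^ j * w j).prod = c ^ s.sum * (s.map w).prod := by
  induction s using Multiset.induction_on with
  | empty => simp
  | cons a t' ih =>
    simp only [Multiset.map_cons, Multiset.prod_cons, Multiset.sum_cons, ih, pow_add]
    ring

/-- One permutation: compare `tail_term`. The weights at even lengths are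
`4 (507 u / n)^j (R / n)^(j-1) κ^(j-3)`. -/
theorem tail_termT {n : ℕ} (rho nu : Perm (Fin n) → ℝ) (R κ u : ℝ) (hn : 0 < n) (hu : 0 ≤ u)
    (hκ : 2 ≤ κ) (hR : 0 < R) (hgen : ∀ π : Perm (Fin n), |rho π| ≤ (π.cycleType.map (costT n)).prod)
    (π : Perm (Fin n))
    (hnu : |nu π| ≤ (3 : ℝ) ^ sp π * (π.cycleType.map fun j => (R / n) ^ (j - 1) * κ ^ (j - 3)).prod) :
    u ^ sp π * (rho π ^ 2 * |nu π|) ≤ (π.cycleType.map fun j =>
      if Odd j then (3 * 2500 ^ 2 * u) ^ j * ((n : ℝ)⁻¹) ^ (j - 1) * (R / n) ^ (j - 1) * κ ^ (j - 3)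
      else 4 * (507 * u / (n : ℝ)) ^ j * (R / n) ^ (j - 1) * κ ^ (j - 3)).prod := by
  have hN : (0 : ℝ) < n := by exact_mod_cast hn
  have hs : Real.sqrt n ^ 2 = n := Real.sq_sqrt hN.le
  have hκ0 : (0 : ℝ) < κ := by linarith
  -- the term of one cycle
  have hterm : ∀ j : ℕ, (if Odd j then (3 * 2500 ^ 2 * u) ^ j * ((n : ℝ)⁻¹) ^ (j - 1) *
        (R / n) ^ (j - 1) * κ ^ (j - 3)
      else 4 * (507 * u / (n : ℝ)) ^ j * (R / n) ^ (j - 1) * κ ^ (j - 3)) =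
      (3 * u) ^ j * (costT n j ^ 2 * ((R / n) ^ (j - 1) * κ ^ (j - 3))) := by
    intro j
    unfold costT
    by_cases ho : Odd j
    · rw [if_pos ho, if_pos ho]
      have e0 : ((2500 : ℝ) ^ j * (Real.sqrt n)⁻¹ ^ (j - 1)) ^ 2 =
          ((2500 : ℝ) ^ 2) ^ j * ((n : ℝ)⁻¹) ^ (j - 1) := by
        have e2 : ((Real.sqrt n)⁻¹) ^ 2 = (n : ℝ)⁻¹ := by rw [inv_pow, hs]
        rw [mul_pow, ← pow_mul, ← pow_mul, mul_comm (j - 1) 2, pow_mul _ 2 (j - 1), e2, mul_comm j 2,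
          pow_mul]
      have e : (3 * (2500 : ℝ) ^ 2 * u) ^ j = (3 * u) ^ j * ((2500 : ℝ) ^ 2) ^ j := by
        rw [← mul_pow]
        congr 1
        ring
      rw [e, e0]
      ring
    · rw [if_neg ho, if_neg ho]
      have e1 : (2 * (13 / Real.sqrt n) ^ j) ^ 2 = 4 * (169 / (n : ℝ)) ^ j := by
        rw [mul_pow, ← pow_mul, mul_comm j 2, pow_mul, div_pow, hs]
        norm_num
      have e2 : (507 * u / (n : ℝ)) ^ j = (3 * u) ^ j * (169 / (n : ℝ)) ^ j := by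
        rw [← mul_pow]
        congr 1
        ring
      rw [e1, e2]
      ring
  simp_rw [hterm]
  rw [prod_pow_weight', Multiset.prod_map_mul]
  have hP2 : (π.cycleType.map fun j => costT n j ^ 2).prod = (π.cycleType.map (costT n)).prod ^ 2 :=
    Multiset.prod_map_pow
  have hrho2 : rho π ^ 2 ≤ (π.cycleType.map (costT n)).prod ^ 2 := by
    rw [← sq_abs (rho π)]
    exact pow_le_pow_left₀ (abs_nonneg _) (hgen π) 2
  have hg0 : 0 ≤ (π.cycleType.map fun j => (R / n) ^ (j - 1) * κ ^ (j - 3)).prod := by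
    apply Multiset.prod_nonneg
    intro a ha
    rw [Multiset.mem_map] at ha
    obtain ⟨j, -, rfl⟩ := ha
    positivity
  have hsum : π.cycleType.sum = sp π := rfl
  rw [hP2, hsum]
  have e3 : (3 * u) ^ sp π = u ^ sp π * (3 : ℝ) ^ sp π := by
    rw [← mul_pow]
    congr 1
    ring
  rw [e3]
  calc u ^ sp π * (rho π ^ 2 * |nu π|)
      ≤ u ^ sp π * ((π.cycleType.map (costT n)).prod ^ 2 *
          ((3 : ℝ) ^ sp π * (π.cycleType.map fun j => (R / n) ^ (j - 1) * κ ^ (j - 3)).prod)) := by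
        apply mul_le_mul_of_nonneg_left _ (by positivity)
        exact mul_le_mul hrho2 hnu (abs_nonneg _) (by positivity)
    _ = _ := by ring

/-- The powers of `1 / 2`. -/
private lemma half_geom (m : ℕ) :
    ∑ j ∈ Icc 2 (m + 2), (1 / 2 : ℝ) ^ (j - 1) = 1 - (1 / 2 : ℝ) ^ (m + 1) := by
  induction m with
  | zero => norm_num
  | succ m ih =>
    rw [show m + 1 + 2 = m + 2 + 1 from rfl, Finset.sum_Icc_succ_top (by omega), ih]
    have e : m + 2 + 1 - 1 = m + 1 + 1 := by omega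
    rw [e, pow_succ (1 / 2 : ℝ) (m + 1)]
    ring

/-- The even weights sum to at most `1`: `u = 11`, `L = LT`, `507 * 11 ≤ L`, `t = L (R / n) κ ≤ 1/2`. -/
theorem even_weight_sum (n : ℕ) (hn : 5 ≤ n) (κ R : ℝ) (hκ : 2 ≤ κ) (hR : 0 < R)
    (ht : LT * (R / n) * κ ≤ 1 / 2) :
    ∑ j ∈ Icc 2 n, (((n : ℝ) ^ j / j) *
        (if Odd j then 0 else 4 * (507 * 11 / (n : ℝ)) ^ j * (R / n) ^ (j - 1) * κ ^ (j - 3))) ≤ 1 := by
  have hN : (0 : ℝ) < n := by
    have : 0 < n := by omega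
    exact_mod_cast this
  have hκ0 : (0 : ℝ) < κ := by linarith
  obtain ⟨x, hx⟩ : ∃ x : ℝ, x = R / n := ⟨_, rfl⟩
  have hx0 : 0 < x := by rw [hx]; positivity
  rw [← hx] at ht
  rw [← hx]
  -- `5577 x κ ≤ 1 / 10000`
  have hLT : LT = 206250000 := by
    unfold LT
    norm_num
  have hy : 5577 * (x * κ) ≤ 1 / 10000 := by
    rw [hLT] at ht
    nlinarith
  have hx1 : 5577 * x ≤ 1 / 20000 := by
    have : 2 * x ≤ x * κ := by nlinarith
    linarith
  have hbound : ∀ j ∈ Icc 2 n, (((n : ℝ) ^ j / j) *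
        (if Odd j then 0 else 4 * (507 * 11 / (n : ℝ)) ^ j * x ^ (j - 1) * κ ^ (j - 3))) ≤
      (1 / 2 : ℝ) ^ (j - 1) := by
    intro j hj
    rw [mem_Icc] at hj
    by_cases ho : Odd j
    · rw [if_pos ho]
      simp
    · rw [if_neg ho]
      have hj2 : (2 : ℝ) ≤ j := by exact_mod_cast hj.1
      have hj0 : (0 : ℝ) < j := by linarith
      have e : (n : ℝ) ^ j / j * (4 * (507 * 11 / (n : ℝ)) ^ j * x ^ (j - 1) * κ ^ (j - 3)) =
          (4 / j) * (5577 ^ j * x ^ (j - 1) * κ ^ (j - 3)) := by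
        have e1 : (507 * 11 / (n : ℝ)) ^ j = (5577 : ℝ) ^ j / (n : ℝ) ^ j := by
          rw [div_pow]
          norm_num
        rw [e1]
        field_simp
      rw [e]
      have h4j : (4 : ℝ) / j ≤ 2 := by
        rw [div_le_iff₀ hj0]
        linarith
      have hA : 5577 ^ j * x ^ (j - 1) * κ ^ (j - 3) ≤ (1 / 4 : ℝ) * (1 / 2 : ℝ) ^ (j - 1) := by
        by_cases h2 : j = 2
        · subst h2
          norm_num
          nlinarith
        · have hj4 : 4 ≤ j := by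
            by_contra hlt
            have h3 : j = 3 := by omega
            exact ho (h3 ▸ (by decide : Odd 3))
          obtain ⟨i, rfl⟩ : ∃ i, j = i + 3 := ⟨j - 3, by omega⟩
          have e1 : i + 3 - 1 = i + 2 := by omega
          have e2 : i + 3 - 3 = i := by omega
          rw [e1, e2]
          have e3 : (5577 : ℝ) ^ (i + 3) * x ^ (i + 2) * κ ^ i =
              5577 * (5577 * x) ^ 2 * (5577 * (x * κ)) ^ i := by
            rw [mul_pow (5577 : ℝ) (x * κ), mul_pow x κ, mul_pow (5577 : ℝ) x]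
            ring
          rw [e3]
          have h4 : (5577 * (x * κ)) ^ i ≤ (1 / 2 : ℝ) ^ i :=
            pow_le_pow_left₀ (by positivity) (by linarith) i
          have h5 : 5577 * (5577 * x) ^ 2 ≤ 1 / 16 := by
            have : (5577 * x) ^ 2 ≤ (1 / 20000 : ℝ) ^ 2 :=
              pow_le_pow_left₀ (by positivity) hx1 2
            nlinarith
          have e4 : (1 / 4 : ℝ) * (1 / 2 : ℝ) ^ (i + 2) = 1 / 16 * (1 / 2 : ℝ) ^ i := by
            rw [pow_add]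
            norm_num
            ring
          rw [e4]
          exact mul_le_mul h5 h4 (by positivity) (by norm_num)
      have hA0 : 0 ≤ 5577 ^ j * x ^ (j - 1) * κ ^ (j - 3) := by positivity
      have hp : 0 ≤ (1 / 2 : ℝ) ^ (j - 1) := by positivity
      calc (4 / j) * (5577 ^ j * x ^ (j - 1) * κ ^ (j - 3))
          ≤ 2 * ((1 / 4 : ℝ) * (1 / 2 : ℝ) ^ (j - 1)) :=
            mul_le_mul h4j hA hA0 (by norm_num)
        _ ≤ (1 / 2 : ℝ) ^ (j - 1) := by linarith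
  refine le_trans (Finset.sum_le_sum hbound) ?_
  obtain ⟨m, rfl⟩ : ∃ m, n = m + 2 := ⟨n - 2, by omega⟩
  rw [half_geom]
  have : (0 : ℝ) ≤ (1 / 2 : ℝ) ^ (m + 1) := by positivity
  linarith

/-- The sum over one support size, for fixed parameters: compare `tail_sum`. -/
private theorem tail_sumT {n : ℕ} (rho nu : Perm (Fin n) → ℝ) (L R κ Y : ℝ) (k : ℕ)
    (hL : L = 3 * 2500 ^ 2 * 11) (hκ : 2 ≤ κ) (hR : 0 < R) (hn : 0 < n)
    (hgen : ∀ π : Perm (Fin n), |rho π| ≤ (π.cycleType.map (costT n)).prod)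
    (hnu : ∀ π : Perm (Fin n), sp π = k →
      |nu π| ≤ (3 : ℝ) ^ sp π * (π.cycleType.map fun j => (R / n) ^ (j - 1) * κ ^ (j - 3)).prod)
    (hexp : ∑ j ∈ Icc 2 n, (((n : ℝ) ^ j / j) *
        (if Odd j then L ^ j * ((n : ℝ)⁻¹) ^ (j - 1) * (R / n) ^ (j - 1) * κ ^ (j - 3)
          else 4 * (507 * 11 / (n : ℝ)) ^ j * (R / n) ^ (j - 1) * κ ^ (j - 3))) ≤ Y) :
    (11 : ℝ) ^ k * ∑ π ∈ (univ.filter fun π : Perm (Fin n) => sp π = k),
      rho π ^ 2 * |nu π| ≤ Real.exp Y := by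
  classical
  have hL0 : 0 < L := by rw [hL]; norm_num
  have hκ0 : 0 < κ := by linarith
  let w : ℕ → ℝ := fun j =>
    if Odd j then L ^ j * ((n : ℝ)⁻¹) ^ (j - 1) * (R / n) ^ (j - 1) * κ ^ (j - 3)
    else 4 * (507 * 11 / (n : ℝ)) ^ j * (R / n) ^ (j - 1) * κ ^ (j - 3)
  have hw0 : ∀ j, 0 ≤ w j := by
    intro j
    simp only [w]
    split_ifs <;> positivity
  have hprod0 : ∀ π : Perm (Fin n), 0 ≤ (π.cycleType.map w).prod := by
    intro π
    apply Multiset.prod_nonneg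
    intro a ha
    rw [Multiset.mem_map] at ha
    obtain ⟨j, -, rfl⟩ := ha
    exact hw0 j
  have hterm : ∀ π ∈ (univ.filter fun π : Perm (Fin n) => sp π = k),
      (11 : ℝ) ^ k * (rho π ^ 2 * |nu π|) ≤ (π.cycleType.map w).prod := by
    intro π hπ
    have hsp : sp π = k := (mem_filter.1 hπ).2
    have h := tail_termT rho nu R κ 11 hn (by norm_num) hκ hR hgen π (hnu π hsp)
    rw [hsp, ← hL] at h
    exact h
  rw [mul_sum]
  calc ∑ π ∈ (univ.filter fun π : Perm (Fin n) => sp π = k), (11 : ℝ) ^ k * (rho π ^ 2 * |nu π|)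
      ≤ ∑ π ∈ (univ.filter fun π : Perm (Fin n) => sp π = k), (π.cycleType.map w).prod :=
        sum_le_sum hterm
    _ ≤ ∑ π : Perm (Fin n), (π.cycleType.map w).prod :=
        sum_le_sum_of_subset_of_nonneg (filter_subset _ _) (fun π _ _ => hprod0 π)
    _ ≤ Real.exp (∑ j ∈ Icc 2 n, ((n : ℝ) ^ j / j) * w j) := exp_sum w hw0
    _ ≤ _ := Real.exp_le_exp.2 hexp

/-- **The tail.** Compare `tail_explicit`. -/
theorem tail_explicitT {n : ℕ} (A : ℝ) (hA : 1 ≤ A)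
    (hn : 32 * LT ^ 6 * (4 * A) ^ 2 + 7 * LT ^ 9 * (4 * A) ^ 4 + 5 ≤ (n : ℝ))
    (rho nu : Perm (Fin n) → ℝ)
    (hgen : ∀ π : Perm (Fin n), |rho π| ≤ (π.cycleType.map (costT n)).prod)
    (hnu : NuB n (A * Real.sqrt n) nu) (k : ℕ) (hk1 : 1 ≤ k) (hk : (k : ℝ) ≤ ccT * n) :
    ∑ π ∈ (univ.filter fun π : Perm (Fin n) => sp π = k), rho π ^ 2 * |nu π| ≤
      Real.exp (LT ^ 3 * (4 * A) ^ 2 / 3 + 3 / 2) * (1 / 4 : ℝ) ^ k := by
  classical
  obtain ⟨L, hLdef⟩ : ∃ L : ℝ, L = LT := ⟨_, rfl⟩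
  have hLval : L = 3 * 2500 ^ 2 * 11 := by rw [hLdef, LT]
  have hL1 : (2 : ℝ) ≤ L := by rw [hLval]; norm_num
  have hL0 : (0 : ℝ) < L := by linarith
  obtain ⟨C0, hC0⟩ : ∃ C0 : ℝ, C0 = 4 * A := ⟨_, rfl⟩
  have hC04 : (4 : ℝ) ≤ C0 := by rw [hC0]; linarith
  rw [← hLdef, ← hC0] at hn
  rw [← hLdef, ← hC0]
  have hcc : ccT = 1 / (16 * L ^ 4) := by rw [ccT, hLdef]
  rw [hcc] at hk
  have hn5 : 5 ≤ n := by
    have h0 : (0 : ℝ) ≤ 32 * L ^ 6 * C0 ^ 2 + 7 * L ^ 9 * C0 ^ 4 := by positivity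
    have h1 : (5 : ℝ) ≤ n := by linarith
    exact_mod_cast h1
  have hnpos : 0 < n := by omega
  have hNb : 32 * L ^ 6 * C0 ^ 2 + 7 * L ^ 9 * C0 ^ 4 ≤ (n : ℝ) := by linarith
  have hN0 : (0 : ℝ) < n := by exact_mod_cast hnpos
  have hk0 : (0 : ℝ) ≤ k := by positivity
  have hkN : (k : ℝ) * (16 * L ^ 4) ≤ n := by
    have h2 := mul_le_mul_of_nonneg_right hk (by positivity : (0 : ℝ) ≤ 16 * L ^ 4)
    have h3 : 1 / (16 * L ^ 4) * (n : ℝ) * (16 * L ^ 4) = n := by field_simp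
    rwa [h3] at h2
  obtain ⟨E, hE⟩ : ∃ E : ℝ, E = C0 ^ 2 + k / L ^ 4 := ⟨_, rfl⟩
  have hE0 : 0 < E := by rw [hE]; positivity
  obtain ⟨R, hR⟩ : ∃ R : ℝ, R = Real.sqrt (E * n) := ⟨_, rfl⟩
  have hR2 : R ^ 2 = E * n := by rw [hR]; exact Real.sq_sqrt (by positivity)
  have hR0 : 0 < R := by rw [hR]; exact Real.sqrt_pos.2 (by positivity)
  obtain ⟨κ, hκ⟩ : ∃ κ : ℝ, κ = 2 * L ^ 2 := ⟨_, rfl⟩
  obtain ⟨c1, c2, hκ2, c3, c4⟩ := tail_conds A L C0 k n E R κ hA hL1 hC0 hk0 hN0 hR2 hR hκ hE hkN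
  obtain ⟨h1, h2⟩ := tail_num1 L C0 k n E hL1 hC04 hk0 hNb hkN hE
  obtain ⟨t, ht⟩ : ∃ t : ℝ, t = L * (R / n) * κ := ⟨_, rfl⟩
  obtain ⟨htle, hT3, hQ⟩ := tail_num2 L C0 k n E R κ t hL1 hk0 hN0 hR2 hR0 hκ hE ht h1 h2
  have hκ0 : 0 < κ := by linarith
  have hw := tail_weight_sum n hn5 L κ R hL0 hκ0 hR0 (by rw [← ht]; exact htle)
  rw [← ht] at hw
  have hev := even_weight_sum n hn5 κ R hκ2 hR0 (by rw [← hLdef, ← ht]; exact htle)
  have hexp : ∑ j ∈ Icc 2 n, (((n : ℝ) ^ j / j) *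
        (if Odd j then L ^ j * ((n : ℝ)⁻¹) ^ (j - 1) * (R / n) ^ (j - 1) * κ ^ (j - 3)
          else 4 * (507 * 11 / (n : ℝ)) ^ j * (R / n) ^ (j - 1) * κ ^ (j - 3))) ≤
      (L ^ 3 * C0 ^ 2 / 3 + 3 / 2) + k := by
    have hsplit : ∑ j ∈ Icc 2 n, (((n : ℝ) ^ j / j) *
        (if Odd j then L ^ j * ((n : ℝ)⁻¹) ^ (j - 1) * (R / n) ^ (j - 1) * κ ^ (j - 3)
          else 4 * (507 * 11 / (n : ℝ)) ^ j * (R / n) ^ (j - 1) * κ ^ (j - 3))) =
        ∑ j ∈ Icc 2 n, (((n : ℝ) ^ j / j) *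
          (if Odd j then L ^ j * ((n : ℝ)⁻¹) ^ (j - 1) * (R / n) ^ (j - 1) * κ ^ (j - 3) else 0)) +
        ∑ j ∈ Icc 2 n, (((n : ℝ) ^ j / j) *
          (if Odd j then 0 else 4 * (507 * 11 / (n : ℝ)) ^ j * (R / n) ^ (j - 1) * κ ^ (j - 3))) := by
      rw [← Finset.sum_add_distrib]
      refine Finset.sum_congr rfl (fun j _ => ?_)
      by_cases ho : Odd j
      · simp [ho]
      · simp [ho]
    rw [hsplit]
    linarith
  have hsum := tail_sumT rho nu L R κ _ k hLval hκ2 hR0 hnpos hgen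
    (fun π hsp => hnu π R κ k c1 c2 hκ2 c3 c4 hsp.le) hexp
  exact tail_final _ _ k hsum

end Vale.Agent.Lib.P197T
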