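import Vale.Agent.Lib.P197T.EvenBound

/-!
# P197T: the value at a three-cycle (blueprint Sec A8)
-/

open Equiv Finset

namespace Vale.Agent.Lib.P197T

open Vale.Agent.Lib.P197 Vale.Agent.Lib.P197S Vale.Agent.Lib.P197W Vale.Agent.Lib.P197X

section ClassTwoAux

variable {n : ℕ}

private theorem swap_cycleType_ct {a b : Fin n} (h : a ≠ b) : (swap a b).cycleType = {2} := by
  rw [(Perm.isCycle_swap h).cycleType, Perm.card_support_swap h]

private theorem exists_move_ct {a b p q : Fin n} (hab : a ≠ b) (hpq : p ≠ q) :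
    ∃ σ : Perm (Fin n), σ a = p ∧ σ b = q := by
  refine ⟨swap (swap a p b) q * swap a p, ?_, ?_⟩
  · have h1 : p ≠ swap a p b := by
      intro h
      have h2 : swap a p a = swap a p b := by rw [swap_apply_left]; exact h
      exact hab ((swap a p).injective h2)
    rw [Perm.mul_apply, swap_apply_left]
    exact swap_apply_of_ne_of_ne h1 hpq
  · rw [Perm.mul_apply, swap_apply_left]

private theorem fiber_card_ct (a b p q : Fin n) (hab : a ≠ b) (hpq : p ≠ q) :
    (univ.filter fun g : Perm (Fin n) => (g a, g b) = (p, q)).card =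
      (univ.filter fun g : Perm (Fin n) => (g a, g b) = (a, b)).card := by
  obtain ⟨σ, h1, h2⟩ := exists_move_ct (a := a) (b := b) (p := p) (q := q) hab hpq
  symm
  refine Finset.card_bij (fun g _ => σ * g) ?_ ?_ ?_
  · intro g hg
    simp only [mem_filter, mem_univ, true_and, Prod.mk.injEq] at hg ⊢
    simp [hg.1, hg.2, h1, h2]
  · intro g _ g' _ h
    exact mul_left_cancel h
  · intro g hg
    simp only [mem_filter, mem_univ, true_and, Prod.mk.injEq] at hg
    refine ⟨σ⁻¹ * g, ?_, by simp⟩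
    simp only [mem_filter, mem_univ, true_and, Prod.mk.injEq]
    constructor
    · rw [Perm.mul_apply, hg.1, ← h1]; simp
    · rw [Perm.mul_apply, hg.2, ← h2]; simp

end ClassTwoAux

/-- Expansion of `r(τ)²` for a transposition `τ` (same proof as `rho_three`). -/
theorem class_two_eq {n : ℕ} (r : Perm (Fin n) → ℝ) (hr : ClassMult n r) (h1 : r 1 = 1) (hn : 4 ≤ n)
    (τ x y : Perm (Fin n)) (hτ : τ.cycleType = {2}) (hx : x.cycleType = {3})
    (hy : y.cycleType = {2, 2}) :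
    (n : ℝ) * ((n : ℝ) - 1) / 2 * r τ ^ 2 =
      1 + 2 * ((n : ℝ) - 2) * r x + ((n : ℝ) - 2) * ((n : ℝ) - 3) / 2 * r y := by
  classical
  obtain ⟨a, b, hab⟩ : ∃ a b : Fin n, a ≠ b :=
    ⟨⟨0, by omega⟩, ⟨1, by omega⟩, by simp [Fin.ext_iff]⟩
  set τ0 : Perm (Fin n) := swap a b with hτ0
  have hτc : τ0.cycleType = {2} := swap_cycleType_ct hab
  have hrτ : r τ = r τ0 := hr.1 _ _ (by rw [hτ, hτc])
  have hfac : ((n.factorial : ℕ) : ℝ) ≠ 0 := by exact_mod_cast n.factorial_ne_zero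
  have hmul : ∑ g : Perm (Fin n), r (τ0 * (g * τ0 * g⁻¹)) =
      ((n.factorial : ℕ) : ℝ) * r τ0 ^ 2 := by
    have h := hr.2 τ0 τ0
    have : r τ0 ^ 2 = ((n.factorial : ℕ) : ℝ)⁻¹ * ∑ g : Perm (Fin n), r (τ0 * (g * τ0 * g⁻¹)) := by
      rw [pow_two]; exact h
    rw [this]
    field_simp
  have hconj : ∀ g : Perm (Fin n), g * τ0 * g⁻¹ = swap (g a) (g b) := by
    intro g
    rw [hτ0]
    exact (Equiv.swap_apply_apply g a b).symm ▸ rfl
  let F : Fin n × Fin n → ℝ := fun z => r (τ0 * swap z.1 z.2)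
  set N0 : ℕ := (univ.filter fun g : Perm (Fin n) => (g a, g b) = (a, b)).card with hN0
  have hN0pos : 0 < N0 := by
    apply Finset.card_pos.mpr
    exact ⟨1, by simp⟩
  let f : Fin n × Fin n → ℝ := fun z => if z.1 = z.2 then (0 : ℝ) else F z
  have hfib0 : ∀ z : Fin n × Fin n,
      (univ.filter (fun g : Perm (Fin n) => (g a, g b) = z)).card = if z.1 = z.2 then 0 else N0 := by
    rintro ⟨p, q⟩
    by_cases hpq : p = q
    · subst hpq
      have : (univ.filter (fun g : Perm (Fin n) => (g a, g b) = (p, p))) = ∅ := by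
        apply Finset.filter_eq_empty_iff.mpr
        intro g _ h
        simp only [Prod.mk.injEq] at h
        exact hab (g.injective (h.1.trans h.2.symm))
      rw [this]
      simp
    · simp only [hpq, if_false]
      exact fiber_card_ct a b p q hab hpq
  have hsum2 : ∑ g : Perm (Fin n), r (τ0 * (g * τ0 * g⁻¹)) = (N0 : ℝ) * ∑ z : Fin n × Fin n, f z := by
    have h2 : ∑ g : Perm (Fin n), r (τ0 * (g * τ0 * g⁻¹)) =
        ∑ z : Fin n × Fin n, ∑ g ∈ univ.filter (fun g : Perm (Fin n) => (g a, g b) = z),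
          r (τ0 * (g * τ0 * g⁻¹)) :=
      (Finset.sum_fiberwise _ _ _).symm
    have h3 : ∀ z : Fin n × Fin n,
        ∑ g ∈ univ.filter (fun g : Perm (Fin n) => (g a, g b) = z),
          r (τ0 * (g * τ0 * g⁻¹)) = (N0 : ℝ) * f z := by
      rintro ⟨p, q⟩
      have h5 : ∀ g ∈ univ.filter (fun g : Perm (Fin n) => (g a, g b) = (p, q)),
          r (τ0 * (g * τ0 * g⁻¹)) = F (p, q) := by
        intro g hg
        simp only [mem_filter, mem_univ, true_and, Prod.mk.injEq] at hg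
        simp only [F]
        rw [hconj, hg.1, hg.2]
      rw [Finset.sum_congr rfl h5, Finset.sum_const, hfib0, nsmul_eq_mul]
      by_cases hpq : p = q
      · simp [hpq, f]
      · simp [hpq, f]
    rw [h2, Finset.sum_congr rfl (fun z _ => h3 z), ← Finset.mul_sum]
  -- the three values
  have hFab : ∀ p q : Fin n, p ≠ q → (p = a ∨ p = b) → (q = a ∨ q = b) → F (p, q) = 1 := by
    intro p q hpq hp hq
    simp only [F]
    rcases hp with hp | hp <;> rcases hq with hq | hq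
    · exact absurd (hp.trans hq.symm) hpq
    · rw [hp, hq, hτ0, swap_mul_self, h1]
    · rw [hp, hq, hτ0, swap_comm b a, swap_mul_self, h1]
    · exact absurd (hp.trans hq.symm) hpq
  have hthree : ∀ σ : Perm (Fin n), σ.IsThreeCycle → r σ = r x := by
    intro σ hσ
    exact hr.1 _ _ (by rw [hx]; exact hσ)
  have hF1 : ∀ q : Fin n, q ≠ a → q ≠ b → F (a, q) = r x := by
    intro q hqa hqb
    exact hthree _ (Perm.isThreeCycle_swap_mul_swap_same hab hqa.symm hqb.symm)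
  have hF2 : ∀ q : Fin n, q ≠ a → q ≠ b → F (q, a) = r x := by
    intro q hqa hqb
    simp only [F]
    rw [swap_comm q a]
    exact hF1 q hqa hqb
  have hF3 : ∀ q : Fin n, q ≠ a → q ≠ b → F (b, q) = r x := by
    intro q hqa hqb
    simp only [F]
    rw [hτ0, swap_comm a b]
    exact hthree _ (Perm.isThreeCycle_swap_mul_swap_same hab.symm hqb.symm hqa.symm)
  have hF4 : ∀ q : Fin n, q ≠ a → q ≠ b → F (q, b) = r x := by
    intro q hqa hqb
    simp only [F]
    rw [swap_comm q b]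
    exact hF3 q hqa hqb
  have hF0 : ∀ p q : Fin n, p ≠ a → p ≠ b → q ≠ a → q ≠ b → p ≠ q → F (p, q) = r y := by
    intro p q hpa hpb hqa hqb hpq
    apply hr.1
    have hd : Perm.Disjoint τ0 (swap p q) := by
      intro i
      by_cases h1 : i = a
      · subst h1
        right
        exact swap_apply_of_ne_of_ne hpa.symm hqa.symm
      · by_cases h2 : i = b
        · subst h2
          right
          exact swap_apply_of_ne_of_ne hpb.symm hqb.symm
        · left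
          exact swap_apply_of_ne_of_ne h1 h2
    rw [Perm.Disjoint.cycleType_mul hd, hτc, swap_cycleType_ct hpq, hy]
    rfl
  -- split the double sum
  set T : Finset (Fin n) := {a, b} with hT
  have hsplit : ∀ f : Fin n → ℝ, ∑ p, f p = f a + f b + ∑ p ∈ Tᶜ, f p := by
    intro f
    rw [← Finset.sum_add_sum_compl T f, hT, Finset.sum_pair hab]
  have hRcard : (Tᶜ).card = n - 2 := by
    rw [Finset.card_compl, Fintype.card_fin, hT, Finset.card_pair hab]
  have hR : ∀ p ∈ Tᶜ, p ≠ a ∧ p ≠ b := by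
    intro p hp
    simp [hT] at hp
    exact hp
  have hcast : (((Tᶜ).card : ℕ) : ℝ) = (n : ℝ) - 2 := by
    rw [hRcard, Nat.cast_sub (by omega)]
    norm_num
  have hval : ∑ z : Fin n × Fin n, f z =
      2 + 4 * ((n : ℝ) - 2) * r x + ((n : ℝ) - 2) * ((n : ℝ) - 3) * r y := by
    rw [Fintype.sum_prod_type]
    have e1 : ∑ q, f (a, q) = 1 + (n - 2) * r x := by
      rw [hsplit]
      have : f (a, a) = 0 := by simp [f]
      have h2 : f (a, b) = 1 := by
        simp only [f, hab, if_false]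
        exact hFab a b hab (Or.inl rfl) (Or.inr rfl)
      have h3 : ∑ q ∈ Tᶜ, f (a, q) = ∑ _q ∈ Tᶜ, r x := by
        refine Finset.sum_congr rfl fun q hq => ?_
        obtain ⟨h1', h2'⟩ := hR q hq
        simp only [f, h1'.symm, if_false]
        exact hF1 q h1' h2'
      rw [this, h2, h3, Finset.sum_const, nsmul_eq_mul, hcast]
      ring
    have e2 : ∑ q, f (b, q) = 1 + (n - 2) * r x := by
      rw [hsplit]
      have : f (b, b) = 0 := by simp [f]
      have h2 : f (b, a) = 1 := by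
        simp only [f, hab.symm, if_false]
        exact hFab b a hab.symm (Or.inr rfl) (Or.inl rfl)
      have h3 : ∑ q ∈ Tᶜ, f (b, q) = ∑ _q ∈ Tᶜ, r x := by
        refine Finset.sum_congr rfl fun q hq => ?_
        obtain ⟨h1', h2'⟩ := hR q hq
        simp only [f, h2'.symm, if_false]
        exact hF3 q h1' h2'
      rw [this, h2, h3, Finset.sum_const, nsmul_eq_mul, hcast]
      ring
    have e3 : ∀ p ∈ Tᶜ, ∑ q, f (p, q) = 2 * r x + ((n : ℝ) - 3) * r y := by
      intro p hp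
      obtain ⟨h1', h2'⟩ := hR p hp
      rw [hsplit]
      have h3 : f (p, a) = r x := by
        simp only [f, h1', if_false]
        exact hF2 p h1' h2'
      have h4 : f (p, b) = r x := by
        simp only [f, h2', if_false]
        exact hF4 p h1' h2'
      have hmem : p ∈ Tᶜ := hp
      have h5 : ∑ q ∈ Tᶜ, f (p, q) = ((n : ℝ) - 3) * r y := by
        have hsub : ∑ q ∈ Tᶜ, f (p, q) = ∑ q ∈ (Tᶜ).erase p, r y := by
          rw [← Finset.add_sum_erase _ _ hmem]
          have : f (p, p) = 0 := by simp [f]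
          rw [this, zero_add]
          refine Finset.sum_congr rfl fun q hq => ?_
          have hq' := Finset.mem_erase.mp hq
          obtain ⟨h1'', h2''⟩ := hR q hq'.2
          simp only [f, hq'.1.symm, if_false]
          exact hF0 p q h1' h2' h1'' h2'' hq'.1.symm
        rw [hsub, Finset.sum_const, nsmul_eq_mul, Finset.card_erase_of_mem hmem, hRcard]
        have : (((n - 2 - 1 : ℕ)) : ℝ) = (n : ℝ) - 3 := by
          rw [show n - 2 - 1 = n - 3 by omega, Nat.cast_sub (by omega)]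
          norm_num
        rw [this]
      rw [h3, h4, h5]
      ring
    rw [hsplit]
    rw [e1, e2, Finset.sum_congr rfl e3, Finset.sum_const, nsmul_eq_mul, hcast]
    ring
  -- the count of N0
  have hcount : ((n.factorial : ℕ) : ℝ) = (N0 : ℝ) * ((n : ℝ) * ((n : ℝ) - 1)) := by
    have hc : (univ : Finset (Perm (Fin n))).card =
        ∑ z : Fin n × Fin n, (univ.filter (fun g : Perm (Fin n) => (g a, g b) = z)).card :=
      Finset.card_eq_sum_card_fiberwise (fun _ _ => Finset.mem_coe.mpr (Finset.mem_univ _))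
    have hc1 : (univ : Finset (Perm (Fin n))).card = n.factorial := by
      rw [Finset.card_univ, Fintype.card_perm, Fintype.card_fin]
    have hc3 : ((n.factorial : ℕ) : ℝ) =
        ∑ z : Fin n × Fin n, (if z.1 = z.2 then (0 : ℝ) else (N0 : ℝ)) := by
      rw [← hc1, hc, Nat.cast_sum]
      refine Finset.sum_congr rfl fun z _ => ?_
      rw [hfib0 z]
      split_ifs <;> simp
    rw [hc3, Fintype.sum_prod_type]
    have hin : ∀ p : Fin n, ∑ q : Fin n, (if p = q then (0 : ℝ) else (N0 : ℝ)) =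
        (N0 : ℝ) * ((n : ℝ) - 1) := by
      intro p
      rw [← Finset.add_sum_erase _ _ (Finset.mem_univ p), if_pos rfl, zero_add]
      have : ∑ q ∈ (univ : Finset (Fin n)).erase p, (if p = q then (0 : ℝ) else (N0 : ℝ)) =
          ∑ _q ∈ (univ : Finset (Fin n)).erase p, (N0 : ℝ) := by
        refine Finset.sum_congr rfl fun q hq => ?_
        rw [if_neg (Finset.mem_erase.mp hq).1.symm]
      rw [this, Finset.sum_const, nsmul_eq_mul, Finset.card_erase_of_mem (Finset.mem_univ p),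
        Finset.card_univ, Fintype.card_fin, Nat.cast_sub (by omega)]
      norm_num
      ring
    simp only [hin]
    rw [Finset.sum_const, nsmul_eq_mul, Finset.card_univ, Fintype.card_fin]
    ring
  have hmain := hmul
  rw [hsum2, hval] at hmain
  rw [hrτ]
  have hN0' : (N0 : ℝ) ≠ 0 := by exact_mod_cast hN0pos.ne'
  rw [hcount] at hmain
  have hfinal : (2 + 4 * ((n : ℝ) - 2) * r x + ((n : ℝ) - 2) * ((n : ℝ) - 3) * r y) =
      (n : ℝ) * ((n : ℝ) - 1) * r τ0 ^ 2 := by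
    apply mul_left_cancel₀ hN0'
    rw [hmain]
    ring
  linarith

/-- `ddim_row` at `a'`, with `n` cells in the larger member. -/
private theorem ddim_down_a (m a' b n : ℕ) (hm : 1 ≤ m) (hn : NN m + (a' + 2) + b = n) :
    ddim m a' b * (2 * (m : ℝ) + ((a' + 2 : ℕ) : ℝ) + b - 1 - 2) * (n : ℝ) * ((n : ℝ) - 1) =
      ddim m (a' + 2) b * ((((a' + 2 : ℕ) : ℝ)) * (((a' + 2 : ℕ) : ℝ) + 2 * m - 3)) *
        (2 * (m : ℝ) + ((a' + 2 : ℕ) : ℝ) + b - 1) := by
  have h := ddim_row m a' b hm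
  have e1 : NN m + a' + b + 2 = n := by omega
  rw [e1] at h
  push_cast at h ⊢
  linarith

/-- `ddim_col` at `b'`, with `n` cells in the larger member. -/
private theorem ddim_down_b (m a b' n : ℕ) (hm : 1 ≤ m) (hn : NN m + a + (b' + 2) = n) :
    ddim m a b' * (2 * (m : ℝ) + a + ((b' + 2 : ℕ) : ℝ) - 1 - 2) * (n : ℝ) * ((n : ℝ) - 1) =
      ddim m a (b' + 2) * ((((b' + 2 : ℕ) : ℝ)) * (((b' + 2 : ℕ) : ℝ) + 2 * m - 3)) *
        (2 * (m : ℝ) + a + ((b' + 2 : ℕ) : ℝ) - 1) := by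
  have h := ddim_col m a b' hm
  have e1 : NN m + a + b' + 2 = n := by omega
  rw [e1] at h
  push_cast at h ⊢
  linarith

/-- One cycle of length two: the exact expansion. -/
private theorem two_exp {n' : ℕ} (m a b : ℕ) (hm : 10 ≤ m) (ha : Even a) (hb : Even b)
    (hn : NN m + a + b = n' + 2) (T : Filling (n' + 2) (AF m a b)) (π : Perm (Fin (n' + 2)))
    (σ : Perm (Fin n')) (hc : π.cycleType = 2 ::ₘ σ.cycleType) (R₁ R₂ : ℝ)
    (h₁ : ∀ (_ : 2 ≤ a) (T' : Filling n' (AF m (a - 2) b)), rr T' σ = R₁)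
    (h₂ : ∀ (_ : 2 ≤ b) (T' : Filling n' (AF m a (b - 2))), rr T' σ = R₂) :
    rr T π * (2 * (m : ℝ) + a + b - 1 - 2) * (((n' + 2 : ℕ) : ℝ)) * (((n' + 2 : ℕ) : ℝ) - 1) =
      (2 * (m : ℝ) + a + b - 1) *
        (((a : ℝ) * (a + 2 * m - 3)) * R₁ - ((b : ℝ) * (b + 2 * m - 3)) * R₂) := by
  have hm1 : 1 ≤ m := by omega
  have hE := evenMN m a b b 2 (by omega) ha hb hb (by decide) le_rfl le_rfl π σ hc hn
  have hE' : (frobF (m + b) (AF m a b) π : ℝ) =
      ((if 2 ≤ a then frobF (m + b) (AF m (a - 2) b) σ else 0 : ℤ) : ℝ) -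
        ((if 2 ≤ b then frobF (m + b) (AF m a (b - 2)) σ else 0 : ℤ) : ℝ) := by
    rw [hE]
    push_cast
    rfl
  rw [frobF_eq_mul_rr m a b (m + b) hm1 le_rfl hn T π] at hE'
  set g : ℝ := 2 * (m : ℝ) + a + b - 1 with hg
  set N : ℝ := ((n' + 2 : ℕ) : ℝ) with hN
  have TA : ((if 2 ≤ a then frobF (m + b) (AF m (a - 2) b) σ else 0 : ℤ) : ℝ) * (g - 2) * N * (N - 1)
      = ddim m a b * (((a : ℝ) * (a + 2 * m - 3)) * R₁) * g := by
    by_cases h2 : 2 ≤ a
    · rw [if_pos h2]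
      obtain ⟨a', rfl⟩ : ∃ a', a = a' + 2 := ⟨a - 2, by omega⟩
      have e0 : a' + 2 - 2 = a' := by omega
      have hn1 : NN m + a' + b = n' := by omega
      obtain ⟨T'⟩ := exists_fillingAF m (a' + 2 - 2) b n' hm1 (by rw [e0]; exact hn1)
      have hR := h₁ h2 T'
      have hF : (frobF (m + b) (AF m (a' + 2 - 2) b) σ : ℝ) = ddim m (a' + 2 - 2) b * R₁ := by
        rw [frobF_eq_mul_rr m (a' + 2 - 2) b (m + b) hm1 le_rfl (by rw [e0]; exact hn1) T' σ, hR]
      rw [hF]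
      rw [e0]
      have hd := ddim_down_a m a' b (n' + 2) hm1 hn
      calc ddim m a' b * R₁ * (g - 2) * N * (N - 1)
          = (ddim m a' b * (g - 2) * N * (N - 1)) * R₁ := by ring
        _ = ddim m (a' + 2) b * (((a' + 2 : ℕ) : ℝ) * (((a' + 2 : ℕ) : ℝ) + 2 * m - 3)) * g * R₁ := by
            rw [hd]
        _ = _ := by ring
    · rw [if_neg h2]
      have : a = 0 := by
        obtain ⟨k, hk⟩ := ha
        omega
      subst this
      simp
  have TB : ((if 2 ≤ b then frobF (m + b) (AF m a (b - 2)) σ else 0 : ℤ) : ℝ) * (g - 2) * N * (N - 1)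
      = ddim m a b * (((b : ℝ) * (b + 2 * m - 3)) * R₂) * g := by
    by_cases h2 : 2 ≤ b
    · rw [if_pos h2]
      obtain ⟨b', rfl⟩ : ∃ b', b = b' + 2 := ⟨b - 2, by omega⟩
      have e0 : b' + 2 - 2 = b' := by omega
      have hn1 : NN m + a + b' = n' := by omega
      obtain ⟨T'⟩ := exists_fillingAF m a (b' + 2 - 2) n' hm1 (by rw [e0]; exact hn1)
      have hR := h₂ h2 T'
      have hF : (frobF (m + (b' + 2)) (AF m a (b' + 2 - 2)) σ : ℝ) = ddim m a (b' + 2 - 2) * R₂ := by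
        rw [frobF_eq_mul_rr m a (b' + 2 - 2) (m + (b' + 2)) hm1 (by omega) (by rw [e0]; exact hn1) T' σ, hR]
      rw [hF]
      rw [e0]
      have hd := ddim_down_b m a b' (n' + 2) hm1 hn
      calc ddim m a b' * R₂ * (g - 2) * N * (N - 1)
          = (ddim m a b' * (g - 2) * N * (N - 1)) * R₂ := by ring
        _ = ddim m a (b' + 2) * (((b' + 2 : ℕ) : ℝ) * (((b' + 2 : ℕ) : ℝ) + 2 * m - 3)) * g * R₂ := by
            rw [hd]
        _ = _ := by ring
    · rw [if_neg h2]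
      have : b = 0 := by
        obtain ⟨k, hk⟩ := hb
        omega
      subst this
      simp
  have hd := ddim_pos m a b hm1
  have key : ddim m a b * (rr T π * (g - 2) * N * (N - 1)) =
      ddim m a b * (g * (((a : ℝ) * (a + 2 * m - 3)) * R₁ - ((b : ℝ) * (b + 2 * m - 3)) * R₂)) := by
    calc ddim m a b * (rr T π * (g - 2) * N * (N - 1))
        = (ddim m a b * rr T π) * (g - 2) * N * (N - 1) := by ring
      _ = ((if 2 ≤ a then frobF (m + b) (AF m (a - 2) b) σ else 0 : ℤ) : ℝ) * (g - 2) * N * (N - 1)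
          - ((if 2 ≤ b then frobF (m + b) (AF m a (b - 2)) σ else 0 : ℤ) : ℝ) * (g - 2) * N * (N - 1) := by
            rw [hE']; ring
      _ = _ := by rw [TA, TB]; ring
  exact mul_left_cancel₀ hd.ne' key

/-- The size of a member of the family. -/
private theorem two_NN (m : ℕ) : 2 * NN m = m * (m + 1) :=
  Nat.two_mul_div_two_of_even (Nat.even_mul_succ_self m)

private theorem n_ge (m a b n : ℕ) (hn : NN m + a + b = n) :
    (m : ℝ) * (m + 1) / 2 + a + b = n := by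
  have h := two_NN m
  have h' : (2 : ℝ) * (NN m : ℝ) = (m : ℝ) * ((m : ℝ) + 1) := by exact_mod_cast h
  have h3 : ((NN m : ℕ) : ℝ) + a + b = n := by exact_mod_cast hn
  linarith

/-- The value at a transposition (`evenMN` with `L = 2`, `ddim_row`, `ddim_col`):
`r(τ) = (a - b) g / (n (n - 1))`, `g = 2 m + a + b - 1`. -/
theorem rr_two {n : ℕ} (m a b : ℕ) (hm : 10 ≤ m) (ha : Even a) (hb : Even b) (hn : NN m + a + b = n)
    (T : Filling n (AF m a b)) (τ : Perm (Fin n)) (hτ : τ.cycleType = {2}) :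
    rr T τ = ((a : ℝ) - b) * (2 * (m : ℝ) + a + b - 1) / ((n : ℝ) * ((n : ℝ) - 1)) := by
  have hN := n_ge m a b n hn
  have hm' : (10 : ℝ) ≤ m := by exact_mod_cast hm
  have ha0 : (0 : ℝ) ≤ a := Nat.cast_nonneg a
  have hb0 : (0 : ℝ) ≤ b := Nat.cast_nonneg b
  have hNge : (20 : ℝ) ≤ n := by nlinarith
  have hn2 : 2 ≤ n := by
    have : (2 : ℝ) ≤ n := by linarith
    exact_mod_cast this
  obtain ⟨n', rfl⟩ : ∃ n', n = n' + 2 := ⟨n - 2, by omega⟩
  have hc : τ.cycleType = 2 ::ₘ (1 : Perm (Fin n')).cycleType := by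
    rw [hτ, Perm.cycleType_one]
    rfl
  have h := two_exp m a b (by omega) ha hb hn T τ 1 hc 1 1 (fun _ T' => rr_one T') (fun _ T' => rr_one T')
  have hg2 : (2 * (m : ℝ) + a + b - 1 - 2) ≠ 0 := by
    have : (0 : ℝ) < 2 * (m : ℝ) + a + b - 1 - 2 := by linarith
    exact this.ne'
  have hn0 : ((n' + 2 : ℕ) : ℝ) ≠ 0 := by linarith
  have hn1 : ((n' + 2 : ℕ) : ℝ) - 1 ≠ 0 := by
    have : (0 : ℝ) < ((n' + 2 : ℕ) : ℝ) - 1 := by linarith
    exact this.ne'
  rw [eq_div_iff (mul_ne_zero hn0 hn1)]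
  apply mul_right_cancel₀ hg2
  calc rr T τ * ((((n' + 2 : ℕ) : ℝ)) * (((n' + 2 : ℕ) : ℝ) - 1)) * (2 * (m : ℝ) + a + b - 1 - 2)
      = rr T τ * (2 * (m : ℝ) + a + b - 1 - 2) * (((n' + 2 : ℕ) : ℝ)) * (((n' + 2 : ℕ) : ℝ) - 1) := by ring
    _ = _ := by rw [h]; ring

/-- The value at type `2, 2`, with `A = a (a + 2 m - 3)`, `B = b (b + 2 m - 3)`, `g = 2 m + a + b - 1`:
`r(y) = g (A (a - b - 2) - B (a - b + 2)) / (n (n - 1) (n - 2) (n - 3))` (`evenMN` with `L = 2` and
`rr_two` for the two smaller members). -/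
theorem rr_twotwo {n : ℕ} (m a b : ℕ) (hm : 10 ≤ m) (ha : Even a) (hb : Even b)
    (hn : NN m + a + b = n) (T : Filling n (AF m a b)) (y : Perm (Fin n))
    (hy : y.cycleType = {2, 2}) :
    rr T y = (2 * (m : ℝ) + a + b - 1) *
        (((a : ℝ) * (a + 2 * m - 3)) * ((a : ℝ) - b - 2)
          - ((b : ℝ) * (b + 2 * m - 3)) * ((a : ℝ) - b + 2)) /
        ((n : ℝ) * ((n : ℝ) - 1) * ((n : ℝ) - 2) * ((n : ℝ) - 3)) := by
  have hN := n_ge m a b n hn
  have hm' : (10 : ℝ) ≤ m := by exact_mod_cast hm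
  have ha0 : (0 : ℝ) ≤ a := Nat.cast_nonneg a
  have hb0 : (0 : ℝ) ≤ b := Nat.cast_nonneg b
  have hNge : (20 : ℝ) ≤ n := by nlinarith
  have hn2 : 4 ≤ n := by
    have : (4 : ℝ) ≤ n := by linarith
    exact_mod_cast this
  obtain ⟨n', rfl⟩ : ∃ n', n = n' + 2 := ⟨n - 2, by omega⟩
  have hn' : (((n' + 2 : ℕ) : ℝ)) = (n' : ℝ) + 2 := by push_cast; ring
  obtain ⟨σ, hσ⟩ : ∃ σ : Perm (Fin n'), σ.cycleType = {2} := by
    rw [Perm.exists_with_cycleType_iff]
    constructor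
    · simp
      omega
    · simp
  have hc : y.cycleType = 2 ::ₘ σ.cycleType := by
    rw [hy, hσ]
    rfl
  set g : ℝ := 2 * (m : ℝ) + a + b - 1 with hg
  have h₁ : ∀ (_ : 2 ≤ a) (T' : Filling n' (AF m (a - 2) b)),
      rr T' σ = ((a : ℝ) - b - 2) * (g - 2) / (((n' : ℝ)) * ((n' : ℝ) - 1)) := by
    intro h2 T'
    obtain ⟨a', rfl⟩ : ∃ a', a = a' + 2 := ⟨a - 2, by omega⟩
    have e0 : a' + 2 - 2 = a' := by omega
    have hev : Even (a' + 2 - 2) := by
      rw [e0]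
      have := ha
      rw [Nat.even_add] at this
      exact this.mpr (by decide)
    have hr := rr_two m (a' + 2 - 2) b hm hev hb (by omega) T' σ hσ
    rw [hr]
    rw [e0, hg]
    push_cast
    ring
  have h₂ : ∀ (_ : 2 ≤ b) (T' : Filling n' (AF m a (b - 2))),
      rr T' σ = ((a : ℝ) - b + 2) * (g - 2) / (((n' : ℝ)) * ((n' : ℝ) - 1)) := by
    intro h2 T'
    obtain ⟨b', rfl⟩ : ∃ b', b = b' + 2 := ⟨b - 2, by omega⟩
    have e0 : b' + 2 - 2 = b' := by omega
    have hev : Even (b' + 2 - 2) := by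
      rw [e0]
      have := hb
      rw [Nat.even_add] at this
      exact this.mpr (by decide)
    have hr := rr_two m a (b' + 2 - 2) hm ha hev (by omega) T' σ hσ
    rw [hr]
    rw [e0, hg]
    push_cast
    ring
  have h := two_exp m a b (by omega) ha hb hn T y σ hc _ _ h₁ h₂
  rw [← hg] at h
  have hg2 : g - 2 ≠ 0 := by
    have : (0 : ℝ) < g - 2 := by rw [hg]; linarith
    exact this.ne'
  rw [hn'] at hNge h ⊢
  have hn4 : (16 : ℝ) ≤ n' + 2 - 2 := by linarith
  have e1 : (n' : ℝ) ≠ 0 := by linarith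
  have e2 : (n' : ℝ) - 1 ≠ 0 := by
    have : (0 : ℝ) < (n' : ℝ) - 1 := by linarith
    exact this.ne'
  have e3 : (n' : ℝ) + 2 ≠ 0 := by linarith
  have e4 : (n' : ℝ) + 2 - 1 ≠ 0 := by
    have : (0 : ℝ) < (n' : ℝ) + 2 - 1 := by linarith
    exact this.ne'
  have e5 : (n' : ℝ) + 2 - 2 ≠ 0 := by
    have : (0 : ℝ) < (n' : ℝ) + 2 - 2 := by linarith
    exact this.ne'
  have e6 : (n' : ℝ) + 2 - 3 ≠ 0 := by
    have : (0 : ℝ) < (n' : ℝ) + 2 - 3 := by linarith
    exact this.ne'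
  have e7 : (n' : ℝ) + 2 - 2 = n' := by ring
  have e8 : (n' : ℝ) + 2 - 3 = n' - 1 := by ring
  rw [e7, e8]
  have hdn : ((n' : ℝ) + 2) * ((n' : ℝ) + 2 - 1) * (n' : ℝ) * ((n' : ℝ) - 1) ≠ 0 :=
    mul_ne_zero (mul_ne_zero (mul_ne_zero e3 e4) e1) e2
  rw [eq_div_iff hdn]
  apply mul_right_cancel₀ hg2
  have e9 : rr T y * (((n' : ℝ) + 2) * ((n' : ℝ) + 2 - 1) * (n' : ℝ) * ((n' : ℝ) - 1)) * (g - 2) =
      (rr T y * (g - 2) * ((n' : ℝ) + 2) * ((n' : ℝ) + 2 - 1)) * ((n' : ℝ) * ((n' : ℝ) - 1)) := by ring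
  rw [e9, h]
  field_simp

/-- The defect of the value at a three-cycle: `g (A + B + (a - b)²) / (n (n - 1))`. -/
noncomputable def QAF (m a b n : ℕ) : ℝ :=
  (2 * (m : ℝ) + a + b - 1) *
    ((a : ℝ) * (a + 2 * m - 3) + (b : ℝ) * (b + 2 * m - 3) + ((a : ℝ) - b) ^ 2) /
    ((n : ℝ) * ((n : ℝ) - 1))

/-- `2 (n - 2) r(x) + 1 = Q`. -/
theorem three_eq {n : ℕ} (m a b : ℕ) (hm : 10 ≤ m) (ha : Even a) (hb : Even b)
    (hn : NN m + a + b = n) (T : Filling n (AF m a b)) (x : Perm (Fin n))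
    (hx : x.cycleType = {3}) :
    2 * ((n : ℝ) - 2) * rr T x + 1 = QAF m a b n := by
  have hN := n_ge m a b n hn
  have hm' : (10 : ℝ) ≤ m := by exact_mod_cast hm
  have ha0 : (0 : ℝ) ≤ a := Nat.cast_nonneg a
  have hb0 : (0 : ℝ) ≤ b := Nat.cast_nonneg b
  have hNge : (20 : ℝ) ≤ n := by nlinarith
  have hn4 : 4 ≤ n := by
    have : (4 : ℝ) ≤ n := by linarith
    exact_mod_cast this
  obtain ⟨τ, hτ⟩ : ∃ τ : Perm (Fin n), τ.cycleType = {2} := by
    rw [Perm.exists_with_cycleType_iff]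
    constructor
    · simp
      omega
    · simp
  obtain ⟨y, hy⟩ : ∃ y : Perm (Fin n), y.cycleType = {2, 2} := by
    rw [Perm.exists_with_cycleType_iff]
    constructor
    · simp
      omega
    · simp
  have hcm : ClassMult n (rr T) :=
    ⟨fun π σ h => rr_of_cycleType_eq T π σ h, fun x y => rr_mul T x y⟩
  have hcl := class_two_eq (rr T) hcm (rr_one T) hn4 τ x y hτ hx hy
  rw [rr_two m a b hm ha hb hn T τ hτ, rr_twotwo m a b hm ha hb hn T y hy] at hcl
  unfold QAF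
  set g : ℝ := 2 * (m : ℝ) + a + b - 1 with hg
  set N : ℝ := (n : ℝ) with hNdef
  have e1 : N ≠ 0 := by linarith
  have e2 : N - 1 ≠ 0 := by
    have : (0 : ℝ) < N - 1 := by linarith
    exact this.ne'
  have e3 : N - 2 ≠ 0 := by
    have : (0 : ℝ) < N - 2 := by linarith
    exact this.ne'
  have e4 : N - 3 ≠ 0 := by
    have : (0 : ℝ) < N - 3 := by linarith
    exact this.ne'
  have h1 : N * (N - 1) / 2 * (((a : ℝ) - b) * g / (N * (N - 1))) ^ 2 =
      ((a : ℝ) - b) ^ 2 * g ^ 2 / (2 * (N * (N - 1))) := by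
    field_simp
  have h2 : (N - 2) * (N - 3) / 2 *
      (g * (((a : ℝ) * (a + 2 * m - 3)) * ((a : ℝ) - b - 2)
          - ((b : ℝ) * (b + 2 * m - 3)) * ((a : ℝ) - b + 2)) /
        (N * (N - 1) * (N - 2) * (N - 3))) =
      g * (((a : ℝ) * (a + 2 * m - 3)) * ((a : ℝ) - b - 2)
          - ((b : ℝ) * (b + 2 * m - 3)) * ((a : ℝ) - b + 2)) / (2 * (N * (N - 1))) := by
    field_simp
  rw [h1, h2] at hcl
  have h3 : 2 * (N - 2) * rr T x + 1 =
      ((a : ℝ) - b) ^ 2 * g ^ 2 / (2 * (N * (N - 1))) -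
      g * (((a : ℝ) * (a + 2 * m - 3)) * ((a : ℝ) - b - 2)
          - ((b : ℝ) * (b + 2 * m - 3)) * ((a : ℝ) - b + 2)) / (2 * (N * (N - 1))) := by
    linarith
  rw [h3]
  have hne : N * (N - 1) ≠ 0 := mul_ne_zero e1 e2
  field_simp
  rw [hg]
  ring

theorem Q_bound (m a b n : ℕ) (hm : 100 ≤ m) (ha : a ≤ 5 * m) (hb : b ≤ 5 * m)
    (hn : NN m + a + b = n) : |QAF m a b n| ≤ 30000 / (m : ℝ) := by
  have hN := n_ge m a b n hn
  have hm' : (100 : ℝ) ≤ m := by exact_mod_cast hm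
  have ha0 : (0 : ℝ) ≤ a := Nat.cast_nonneg a
  have hb0 : (0 : ℝ) ≤ b := Nat.cast_nonneg b
  have ha5' : (a : ℝ) ≤ 5 * m := by exact_mod_cast ha
  have hb5' : (b : ℝ) ≤ 5 * m := by exact_mod_cast hb
  set M : ℝ := (m : ℝ) with hM
  set A : ℝ := (a : ℝ) with hA
  set B : ℝ := (b : ℝ) with hB
  set N : ℝ := (n : ℝ) with hNdef
  have hNlo : M ^ 2 / 2 ≤ N := by nlinarith
  have hN1 : 2 / 5 * M ^ 2 ≤ N - 1 := by nlinarith
  have hdenom : 1 / 5 * M ^ 4 ≤ N * (N - 1) := by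
    have h0 : (0 : ℝ) ≤ M ^ 2 / 2 := by positivity
    have h1 : (0 : ℝ) ≤ 2 / 5 * M ^ 2 := by positivity
    calc 1 / 5 * M ^ 4 = (M ^ 2 / 2) * (2 / 5 * M ^ 2) := by ring
      _ ≤ N * (N - 1) := mul_le_mul hNlo hN1 h1 (by linarith)
  have hM0 : 0 < M := by linarith
  have hdpos : 0 < N * (N - 1) := by
    have : (0 : ℝ) < 1 / 5 * M ^ 4 := by positivity
    linarith
  have hg0 : 0 ≤ 2 * M + A + B - 1 := by linarith
  have hg1 : 2 * M + A + B - 1 ≤ 12 * M := by linarith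
  have hS0 : 0 ≤ A * (A + 2 * M - 3) + B * (B + 2 * M - 3) + (A - B) ^ 2 := by
    have h1 : 0 ≤ A * (A + 2 * M - 3) := mul_nonneg ha0 (by linarith)
    have h2 : 0 ≤ B * (B + 2 * M - 3) := mul_nonneg hb0 (by linarith)
    positivity
  have hS1 : A * (A + 2 * M - 3) + B * (B + 2 * M - 3) + (A - B) ^ 2 ≤ 95 * M ^ 2 := by
    have h1 : A * (A + 2 * M - 3) ≤ (5 * M) * (7 * M) :=
      mul_le_mul ha5' (by linarith) (by linarith) (by linarith)
    have h2 : B * (B + 2 * M - 3) ≤ (5 * M) * (7 * M) :=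
      mul_le_mul hb5' (by linarith) (by linarith) (by linarith)
    have h3 : (A - B) ^ 2 ≤ (5 * M) ^ 2 := by
      apply sq_le_sq'
      · linarith
      · linarith
    nlinarith
  unfold QAF
  rw [abs_of_nonneg (div_nonneg (mul_nonneg hg0 hS0) hdpos.le)]
  rw [div_le_div_iff₀ hdpos hM0]
  have hnum : (2 * M + A + B - 1) * (A * (A + 2 * M - 3) + B * (B + 2 * M - 3) + (A - B) ^ 2) ≤
      (12 * M) * (95 * M ^ 2) := mul_le_mul hg1 hS1 hS0 (by linarith)
  have h30 : (12 * M) * (95 * M ^ 2) * M ≤ 30000 * (N * (N - 1)) := by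
    have : (12 * M) * (95 * M ^ 2) * M = 1140 * M ^ 4 := by ring
    rw [this]
    have : (0 : ℝ) ≤ M ^ 4 := by positivity
    linarith
  calc (2 * M + A + B - 1) * (A * (A + 2 * M - 3) + B * (B + 2 * M - 3) + (A - B) ^ 2) * M
      ≤ (12 * M) * (95 * M ^ 2) * M := mul_le_mul_of_nonneg_right hnum hM0.le
    _ ≤ 30000 * (N * (N - 1)) := h30

/-- The size of the value at a three-cycle. -/
theorem three_size {n : ℕ} (m a b : ℕ) (hm : 300000 ≤ m) (ha : Even a) (hb : Even b)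
    (ha5 : a ≤ 5 * m) (hb5 : b ≤ 5 * m) (hn : NN m + a + b = n) (T : Filling n (AF m a b))
    (x : Perm (Fin n)) (hx : x.cycleType = {3}) :
    rr T x = (QAF m a b n - 1) / (2 * ((n : ℝ) - 2)) ∧ 1 / 4 ≤ (n : ℝ) * |rr T x| ∧
      (n : ℝ) * |rr T x| ≤ 3 / 5 := by
  have hN := n_ge m a b n hn
  have hm' : (300000 : ℝ) ≤ m := by exact_mod_cast hm
  have ha0 : (0 : ℝ) ≤ a := Nat.cast_nonneg a
  have hb0 : (0 : ℝ) ≤ b := Nat.cast_nonneg b
  have hNge : (100 : ℝ) ≤ n := by nlinarith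
  have h3 := three_eq m a b (by omega) ha hb hn T x hx
  have hQ := Q_bound m a b n (by omega) ha5 hb5 hn
  have hQ' : |QAF m a b n| ≤ 1 / 10 := by
    refine hQ.trans ?_
    rw [div_le_iff₀ (by linarith)]
    linarith
  have hQa := abs_le.mp hQ'
  set Q := QAF m a b n with hQdef
  set N : ℝ := (n : ℝ) with hNdef
  have hN2 : 0 < N - 2 := by linarith
  have hr : rr T x = (Q - 1) / (2 * (N - 2)) := by
    rw [eq_div_iff (by positivity)]
    linarith
  refine ⟨hr, ?_, ?_⟩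
  · rw [hr, abs_div, abs_of_nonpos (by linarith : Q - 1 ≤ 0), abs_of_pos (by positivity : 0 < 2 * (N - 2))]
    rw [← mul_div_assoc, le_div_iff₀ (by positivity)]
    nlinarith [hQa.1, hQa.2]
  · rw [hr, abs_div, abs_of_nonpos (by linarith : Q - 1 ≤ 0), abs_of_pos (by positivity : 0 < 2 * (N - 2))]
    rw [← mul_div_assoc, div_le_iff₀ (by positivity)]
    nlinarith [hQa.1, hQa.2]

end Vale.Agent.Lib.P197T
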