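import Vale.Agent.Lib.P197T.PeelY

/-!
# P197T: one greedy sum with even value and one exact sum (blueprint Sec 3)
-/

open Equiv Finset

namespace Vale.Agent.Lib.P197T

open Vale.Agent.Lib.P197 Vale.Agent.Lib.P197W Vale.Agent.Lib.P197X

/-- A greedy subset with even sum just below the target. -/
theorem even_greedy {ι : Type} [DecidableEq ι] (E : Finset ι) (a : ι → ℕ) (h : ℕ) (hh : 1 ≤ h)
    (ha : ∀ i ∈ E, a i ≤ h) (Y : ℕ) (hY : Y + h ≤ ∑ i ∈ E, a i) :
    ∃ s ⊆ E, Even (∑ i ∈ s, a i) ∧ ∑ i ∈ s, a i ≤ Y ∧ Y < ∑ i ∈ s, a i + 2 * h := by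
  classical
  set V : Finset (Finset ι) := E.powerset.filter
    (fun s => Even (∑ i ∈ s, a i) ∧ ∑ i ∈ s, a i ≤ Y) with hV
  have hne : V.Nonempty := ⟨∅, by simp [hV]⟩
  obtain ⟨s, hsV, hmax⟩ := Finset.exists_max_image V Finset.card hne
  have hs' := Finset.mem_filter.1 hsV
  have hsE : s ⊆ E := Finset.mem_powerset.1 hs'.1
  refine ⟨s, hsE, hs'.2.1, hs'.2.2, ?_⟩
  by_contra hcon
  have hge : ∑ i ∈ s, a i + 2 * h ≤ Y := by omega
  set C := E \ s with hC
  have hsplit : ∑ i ∈ C, a i + ∑ i ∈ s, a i = ∑ i ∈ E, a i := Finset.sum_sdiff hsE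
  have hCsum : 3 * h ≤ ∑ i ∈ C, a i := by omega
  have hCle : ∑ i ∈ C, a i ≤ C.card * h := by
    calc ∑ i ∈ C, a i ≤ ∑ _i ∈ C, h :=
          Finset.sum_le_sum (fun i hi => ha i (Finset.mem_sdiff.1 hi).1)
      _ = C.card * h := by simp
  have hCcard : 3 ≤ C.card := by
    by_contra hlt
    have : C.card * h ≤ 2 * h := Nat.mul_le_mul_right h (by omega)
    omega
  by_cases hev : ∃ i ∈ C, Even (a i)
  · obtain ⟨i, hiC, hie⟩ := hev
    have his : i ∉ s := (Finset.mem_sdiff.1 hiC).2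
    have hiE : i ∈ E := (Finset.mem_sdiff.1 hiC).1
    have hmem : insert i s ∈ V := by
      refine Finset.mem_filter.2 ⟨Finset.mem_powerset.2 (Finset.insert_subset hiE hsE), ?_, ?_⟩
      · rw [Finset.sum_insert his]
        exact hie.add hs'.2.1
      · rw [Finset.sum_insert his]
        have := ha i hiE
        omega
    have := hmax _ hmem
    rw [Finset.card_insert_of_notMem his] at this
    omega
  · push Not at hev
    obtain ⟨i, hi, j, hj, hij⟩ := Finset.one_lt_card.1 (by omega : 1 < C.card)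
    have his : i ∉ s := (Finset.mem_sdiff.1 hi).2
    have hiE : i ∈ E := (Finset.mem_sdiff.1 hi).1
    have hjs : j ∉ s := (Finset.mem_sdiff.1 hj).2
    have hjE : j ∈ E := (Finset.mem_sdiff.1 hj).1
    have hoi : Odd (a i) := Nat.not_even_iff_odd.1 (hev i hi)
    have hoj : Odd (a j) := Nat.not_even_iff_odd.1 (hev j hj)
    have hji : j ∉ insert i s := by
      simp only [Finset.mem_insert, not_or]
      exact ⟨fun e => hij e.symm, hjs⟩
    have hmem : insert j (insert i s) ∈ V := by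
      refine Finset.mem_filter.2 ⟨Finset.mem_powerset.2
        (Finset.insert_subset hjE (Finset.insert_subset hiE hsE)), ?_, ?_⟩
      · rw [Finset.sum_insert hji, Finset.sum_insert his, ← add_assoc]
        exact (hoj.add_odd hoi).add hs'.2.1
      · rw [Finset.sum_insert hji, Finset.sum_insert his]
        have h1 := ha i hiE
        have h2 := ha j hjE
        omega
    have := hmax _ hmem
    rw [Finset.card_insert_of_notMem hji, Finset.card_insert_of_notMem his] at this
    omega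

/-- **Window with one greedy and one exact part.** -/
theorem window_even (h : ℕ) (hh : 1 ≤ h) (P : Multiset ℕ) (hP : ∀ b ∈ P, 1 ≤ b ∧ b ≤ h)
    (hc : 10000 * h ≤ Multiset.card P) :
    ∃ q lo : ℕ, 1 ≤ q ∧ q ≤ h ∧ lo ≤ 3 * h ^ 2 ∧
      ∀ Y, Y + 12 * h ^ 2 ≤ P.sum → ∃ B₂ ≤ P, q ∣ B₂.sum ∧ Even B₂.sum ∧ B₂.sum ≤ Y ∧
        Y < B₂.sum + 2 * h ∧
        ∀ x, q ∣ x → lo ≤ x → x + Y + 11 * h ^ 2 ≤ P.sum → ∃ B₁, B₁ + B₂ ≤ P ∧ B₁.sum = x := by
  classical
  set L : List ℕ := P.toList with hL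
  let a : Fin L.length → ℕ := fun i => L.get i
  have hmem : ∀ i, a i ∈ P := by
    intro i
    have : a i ∈ L := List.get_mem L i
    simpa [hL] using this
  have ha : ∀ i, 1 ≤ a i ∧ a i ≤ h := fun i => hP _ (hmem i)
  have hcard : Fintype.card (Fin L.length) = Multiset.card P := by
    simp [hL]
  have hc' : 10000 * h ≤ Fintype.card (Fin L.length) := by rw [hcard]; exact hc
  obtain ⟨q, G, E, lo, hq, hdis, hG, hGE, hdvd, hlo, hwin⟩ := window h hh (Fin L.length) a ha hc'
  have hunivmap : (univ : Finset (Fin L.length)).val.map a = (P : Multiset ℕ) := by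
    have h1 : (univ : Finset (Fin L.length)).val.map a = ((List.ofFn a : List ℕ) : Multiset ℕ) :=
      Fin.univ_val_map a
    have h2 : List.ofFn a = L := List.ofFn_get L
    rw [h1, h2, hL]
    exact Multiset.coe_toList P
  have hsum : ∑ i, a i = P.sum := by
    have : ∑ i, a i = ((univ : Finset (Fin L.length)).val.map a).sum := rfl
    rw [this, hunivmap]
  have hsumle : ∀ s : Finset (Fin L.length), ∑ i ∈ s, a i ≤ s.card * h := by
    intro s
    calc ∑ i ∈ s, a i ≤ ∑ _i ∈ s, h := Finset.sum_le_sum (fun i _ => (ha i).2)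
      _ = s.card * h := by simp
  have hEcard : 1 ≤ E.card := by
    have : Multiset.card P ≤ G.card + E.card + 8 * h := by rw [← hcard]; exact hGE
    omega
  obtain ⟨i0, hi0⟩ := Finset.card_pos.mp hEcard
  have hqh : q ≤ h :=
    (Nat.le_of_dvd (by have := (ha i0).1; omega) (hdvd i0 hi0)).trans (ha i0).2
  have hGsum : ∑ i ∈ G, a i ≤ 3 * h ^ 2 := by
    calc ∑ i ∈ G, a i ≤ G.card * h := hsumle G
      _ ≤ (3 * h) * h := Nat.mul_le_mul_right h hG
      _ = 3 * h ^ 2 := by ring
  refine ⟨q, lo, hq, hqh, hlo.trans hGsum, ?_⟩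
  intro Y hY
  set R : Finset (Fin L.length) := univ \ (G ∪ E) with hR
  have hRcard : R.card ≤ 8 * h := by
    have h1 : R.card = Fintype.card (Fin L.length) - (G ∪ E).card := by
      rw [hR, Finset.card_sdiff_of_subset (Finset.subset_univ _), Finset.card_univ]
    have h2 : (G ∪ E).card = G.card + E.card := Finset.card_union_of_disjoint hdis
    omega
  have hsplit : ∑ i, a i = ∑ i ∈ G, a i + ∑ i ∈ E, a i + ∑ i ∈ R, a i := by
    rw [← Finset.sum_union hdis, hR]
    have := Finset.sum_sdiff (Finset.subset_univ (G ∪ E)) (f := a)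
    omega
  have hRsum : ∑ i ∈ R, a i ≤ 8 * h ^ 2 := by
    calc ∑ i ∈ R, a i ≤ R.card * h := hsumle R
      _ ≤ (8 * h) * h := Nat.mul_le_mul_right h hRcard
      _ = 8 * h ^ 2 := by ring
  have hhh : h ≤ h ^ 2 := by nlinarith
  have hEtot : P.sum ≤ ∑ i ∈ E, a i + 11 * h ^ 2 := by
    rw [← hsum]
    omega
  have hYE : Y + h ≤ ∑ i ∈ E, a i := by omega
  obtain ⟨s2, hs2E, hs2even, hs2le, hs2lt⟩ :=
    even_greedy E a h hh (fun i _ => (ha i).2) Y hYE
  have hmapsum : ∀ s : Finset (Fin L.length), (s.val.map a).sum = ∑ i ∈ s, a i := fun s => rfl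
  refine ⟨s2.val.map a, ?_, ?_, ?_, ?_, ?_, ?_⟩
  · rw [← hunivmap]
    exact Multiset.map_le_map (Finset.val_le_iff.mpr (Finset.subset_univ s2))
  · rw [hmapsum]
    exact Finset.dvd_sum (fun i hi => hdvd i (hs2E hi))
  · rw [hmapsum]
    exact hs2even
  · rw [hmapsum]
    exact hs2le
  · rw [hmapsum]
    exact hs2lt
  · intro x hqx hlox hxP
    set E' : Finset (Fin L.length) := E \ s2 with hE'
    have hE'sub : E' ⊆ E := Finset.sdiff_subset
    have hE'sum : ∑ i ∈ E', a i + ∑ i ∈ s2, a i = ∑ i ∈ E, a i := Finset.sum_sdiff hs2E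
    have hxE : x ≤ lo + ∑ i ∈ E', a i := by omega
    obtain ⟨s, hsub, hs⟩ := hwin E' hE'sub x hqx hlox hxE
    have hdisj : Disjoint s s2 := by
      rw [Finset.disjoint_left]
      intro i his his2
      rcases Finset.mem_union.1 (hsub his) with hiG | hiE'
      · exact (Finset.disjoint_left.1 hdis hiG) (hs2E his2)
      · exact (Finset.mem_sdiff.1 hiE').2 his2
    refine ⟨s.val.map a, ?_, ?_⟩
    · rw [← hunivmap, ← Multiset.map_add]
      refine Multiset.map_le_map ?_
      have hadd : s.val + s2.val = (s ∪ s2).val := by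
        rw [← Finset.disjUnion_eq_union s s2 hdisj]
        rfl
      rw [hadd]
      exact Finset.val_le_iff.mpr (Finset.subset_univ _)
    · rw [hmapsum]
      exact hs

end Vale.Agent.Lib.P197T
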